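import Vale.Agent.H1.P007DefsA

/-! Two auxiliary facts used in the definitions. -/

namespace Vale.Agent.H1.P007

theorem sum_extendZeroSum {n : ℕ} (u : Fin (n - 1) → ℝ) : ∑ j, extendZeroSum u j = 0 := by
  cases n with
  | zero => simp
  | succ m =>
    rw [Fin.sum_univ_castSucc]
    have h1 : ∀ i : Fin m, extendZeroSum (n := m + 1) u (Fin.castSucc i) = u i := by
      intro i
      simp [extendZeroSum]
    have h2 : extendZeroSum (n := m + 1) u (Fin.last m) = -∑ i, u i := by
      simp [extendZeroSum]
    rw [h2, Finset.sum_congr rfl (fun i _ => h1 i)]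
    exact add_neg_cancel _

theorem det_exp_extendZeroSum {n : ℕ} (u : Fin (n - 1) → ℝ) :
    (Matrix.diagonal fun j : Fin n => Real.exp (extendZeroSum u j)).det = 1 := by
  rw [Matrix.det_diagonal, ← Real.exp_sum, sum_extendZeroSum, Real.exp_zero]

theorem rightRel_mul {n : ℕ} (g a b : SLR n) (hab : QuotientGroup.rightRel (SLZ n) a b) :
    QuotientGroup.rightRel (SLZ n) (a * g) (b * g) := by
  rw [QuotientGroup.rightRel_apply] at hab ⊢
  simpa [mul_assoc] using hab

end Vale.Agent.H1.P007
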