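import Vale.Agent.H1.P007Aux

/-!
Definitions for problem P007: the space `X n = SL_n(ℤ)\SL_n(ℝ)`, packets of compact torus
orbits attached to orders in totally real fields, their packet measures, weak convergence.
-/

namespace Vale.Agent.H1.P007

open MeasureTheory Filter Topology Matrix

noncomputable section

/-- `X_n = SL_n(ℤ)\SL_n(ℝ)`, the set of cosets `SL_n(ℤ) g`, with the quotient topology. -/
def X (n : ℕ) : Type := Quotient (QuotientGroup.rightRel (SLZ n))

instance (n : ℕ) : TopologicalSpace (X n) :=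
  inferInstanceAs (TopologicalSpace (Quotient (QuotientGroup.rightRel (SLZ n))))

instance (n : ℕ) : MeasurableSpace (X n) := borel (X n)

/-- The point `SL_n(ℤ) g` of `X_n`. -/
def X.mk {n : ℕ} (g : SLR n) : X n := Quotient.mk (QuotientGroup.rightRel (SLZ n)) g

/-- The right action of `SL_n(ℝ)` on `X_n`: `SL_n(ℤ) h ↦ SL_n(ℤ) h g`. -/
def X.act {n : ℕ} (x : X n) (g : SLR n) : X n :=
  Quotient.map (fun h => h * g) (fun a b h => rightRel_mul g a b h) x

/-- The lattice `ℤ^n g` (row vectors) attached to `g`; it depends only on the coset of `g`. -/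
def rowLattice {n : ℕ} (g : SLR n) : Set (Fin n → ℝ) :=
  {v | ∃ c : Fin n → ℤ, ∀ j, v j = ∑ i, (c i : ℝ) * g i j}

/-- The element `diag(e^{u_1}, ..., e^{u_n})` of `A_n`, `u_n = -(u_1 + ... + u_{n-1})`. -/
def torusElt {n : ℕ} (u : Fin (n - 1) → ℝ) : SLR n :=
  ⟨Matrix.diagonal fun j => Real.exp (extendZeroSum u j), by exact det_exp_extendZeroSum u⟩

/-- The orbit `x A_n`. -/
def torusOrbit {n : ℕ} (x : X n) : Set (X n) := {y | ∃ u, y = x.act (torusElt u)}

/-- `F ⊆ ℝ^{n-1} ≅ A_n` is a measurable fundamental domain for the stabiliser of `x` in `A_n`. -/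
def IsFundDomain {n : ℕ} (x : X n) (F : Set (Fin (n - 1) → ℝ)) : Prop :=
  MeasurableSet F ∧ ∀ u, ∃! s, x.act (torusElt s) = x ∧ u + s ∈ F

/-- `ν = vol(o) ν_o` for the orbit `o = x A_n`: the image under `u ↦ x a(u)` of Lebesgue measure
`du_1 ... du_{n-1}` restricted to a fundamental domain of the stabiliser of `x`. -/
def IsOrbitMeasure {n : ℕ} (o : Set (X n)) (ν : Measure (X n)) : Prop :=
  ∃ x F, o = torusOrbit x ∧ IsFundDomain x F ∧
    ν = (volume.restrict F).map fun u => x.act (torusElt u)

/-- For an orbit `o` of `A_n` the measure `vol(o) ν_o`. -/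
def orbitMeasure {n : ℕ} (o : Set (X n)) : Measure (X n) :=
  open Classical in if h : ∃ ν, IsOrbitMeasure o ν then h.choose else 0

section

variable {K : Type} [Field K]

/-- `I` is an invertible fractional `O`-ideal: an `O`-submodule of `K` such that `I J = O` for
some `O`-submodule `J` of `K`. -/
def IsInvertibleIdeal (O : Subring K) (I : Submodule ℤ K) : Prop :=
  (∀ a ∈ O, ∀ x ∈ I, a * x ∈ I) ∧
    ∃ J : Submodule ℤ K, (∀ a ∈ O, ∀ x ∈ J, a * x ∈ J) ∧ ∀ y, y ∈ I * J ↔ y ∈ O

/-- The point `x` of `X_n` is the lattice `Λ_I w`, where `Λ_I` is the positive multiple of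
`σ(I)` of covolume one. -/
def IsLatticePoint {n : ℕ} (σ : Fin n ≃ (K →+* ℝ)) (I : Submodule ℤ K) (w : Fin n → ℝ)
    (x : X n) : Prop :=
  ∃ (g : SLR n) (t : ℝ), X.mk g = x ∧ 0 < t ∧
    rowLattice g = {v | ∃ α ∈ I, ∀ j, v j = t * σ j α * w j}

/-- The packet: the set of the orbits `Λ_I w A_n`, `I` an invertible fractional `O`-ideal,
`w` a diagonal matrix with entries `±1`. -/
def packet {n : ℕ} (σ : Fin n ≃ (K →+* ℝ)) (O : Subring K) : Set (Set (X n)) :=
  {o | ∃ I w x, IsInvertibleIdeal O I ∧ (∀ j, w j = 1 ∨ w j = -1) ∧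
    IsLatticePoint σ I w x ∧ o = torusOrbit x}

/-- The packet measure: `∑ vol(o) ν_o` over the packet, divided by `∑ vol(o)`. -/
def packetMeasure {n : ℕ} (σ : Fin n ≃ (K →+* ℝ)) (O : Subring K) : Measure (X n) :=
  (∑' o : packet σ O, orbitMeasure (o : Set (X n)) Set.univ)⁻¹ •
    Measure.sum fun o : packet σ O => orbitMeasure (o : Set (X n))

/-- `O` is an order of `K`: a subring of full rank consisting of algebraic integers. -/
def IsOrder (O : Subring K) : Prop :=
  (∀ x ∈ O, IsIntegral ℤ x) ∧ ∀ x : K, ∃ m : ℤ, m ≠ 0 ∧ m * x ∈ O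

/-- `f` has a root in `O`. -/
def HasRoot (O : Subring K) (f : Polynomial ℤ) : Prop := ∃ β ∈ O, Polynomial.aeval β f = 0

/-- `|Disc O| = |Disc K| [O_K : O]^2`. -/
def absDisc [NumberField K] (O : Subring K) : ℕ :=
  (NumberField.discr K).natAbs *
    (O.comap (algebraMap (NumberField.RingOfIntegers K) K)).toAddSubgroup.index ^ 2

end

/-- A number field `K` of degree `n`, an ordering `σ` of its real embeddings (there are `n` of
them, so `K` is totally real) and an order `O` of `K`. -/
structure Datum (n : ℕ) where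
  /-- the field -/
  K : Type
  /-- field structure -/
  [fieldK : Field K]
  /-- number field -/
  [numberFieldK : NumberField K]
  /-- the ordering of the real embeddings -/
  σ : Fin n ≃ (K →+* ℝ)
  /-- the order -/
  O : Subring K
  /-- `K` has degree `n` -/
  finrank_eq : Module.finrank ℚ K = n
  /-- `O` is an order -/
  isOrder : IsOrder O

attribute [instance] Datum.fieldK Datum.numberFieldK

/-- Weak convergence `μ_i → m` to a probability measure: convergence of the integrals of all
compactly supported continuous functions, and no escape of mass. -/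
def WeaklyTendsto {n : ℕ} (μ : ℕ → Measure (X n)) (m : Measure (X n)) : Prop :=
  (∀ f : X n → ℝ, Continuous f → HasCompactSupport f →
    Tendsto (fun i => ∫ x, f x ∂(μ i)) atTop (𝓝 (∫ x, f x ∂m))) ∧
  (∀ ε : ℝ, 0 < ε → ∃ C : Set (X n), IsCompact C ∧ ∀ᶠ i in atTop, 1 - ε ≤ (μ i C).toReal)

/-- `m` is an `SL_n(ℝ)`-invariant Borel probability measure on `X_n`, that is, `m = m_n`. -/
def IsInvProb {n : ℕ} (m : Measure (X n)) : Prop :=
  IsProbabilityMeasure m ∧ ∀ g : SLR n, m.map (fun x => x.act g) = m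

/-- The packet measures of the sequence `D` converge weakly to `m`. -/
def Equidistributes {n : ℕ} (D : ℕ → Datum n) (m : Measure (X n)) : Prop :=
  WeaklyTendsto (fun i => packetMeasure (D i).σ (D i).O) m

/-- The statement of Q1 in degree `n`, `m` being the measure `m_n`. -/
def HigherDuke (n : ℕ) (m : Measure (X n)) : Prop :=
  ∀ D : ℕ → Datum n, Tendsto (fun i => absDisc (D i).O) atTop atTop → Equidistributes D m

end

end Vale.Agent.H1.P007
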