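import Mathlib

/-!
Definitions for problem P007, first part: the space `X n = SL_n(ℤ)\SL_n(ℝ)`.
-/

namespace Vale.Agent.H1.P007

noncomputable section

/-- The group `SL_n(ℝ)`. -/
abbrev SLR (n : ℕ) : Type := Matrix.SpecialLinearGroup (Fin n) ℝ

/-- `SL_n(ℤ)`, as a subgroup of `SL_n(ℝ)`. -/
def SLZ (n : ℕ) : Subgroup (SLR n) :=
  (Matrix.SpecialLinearGroup.map (n := Fin n) (Int.castRingHom ℝ)).range

/-- `(u_1, ..., u_{n-1})` completed by `u_n = -(u_1 + ... + u_{n-1})`. -/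
def extendZeroSum {n : ℕ} (u : Fin (n - 1) → ℝ) (j : Fin n) : ℝ :=
  if h : (j : ℕ) < n - 1 then u ⟨j, h⟩ else -∑ i, u i

end

end Vale.Agent.H1.P007
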