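import Vale.Agent.H1.P007Lattice

/-! The packet is not empty. -/

namespace Vale.Agent.H1.P007

open MeasureTheory Filter Topology Matrix Module NumberField

noncomputable section

variable {n : ℕ} {K : Type} [Field K] [NumberField K]

/-- the order as a `ℤ`-submodule -/
def ordMod (O : Subring K) : Submodule ℤ K := AddSubgroup.toIntSubmodule O.toAddSubgroup

omit [NumberField K] in
theorem mem_ordMod {O : Subring K} {x : K} : x ∈ ordMod O ↔ x ∈ O := Iff.rfl

omit [NumberField K] in
theorem isInvertibleIdeal_self (O : Subring K) : IsInvertibleIdeal O (ordMod O) := by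
  refine ⟨fun a ha x hx => O.mul_mem ha hx, ordMod O, fun a ha x hx => O.mul_mem ha hx, ?_⟩
  intro y
  constructor
  · intro hy
    have hle : ordMod O * ordMod O ≤ ordMod O := by
      rw [Submodule.mul_le]
      intro a ha b hb
      exact O.mul_mem ha hb
    exact hle hy
  · intro hy
    have h1 : (1 : K) ∈ ordMod O := O.one_mem
    have := Submodule.mul_mem_mul (show y ∈ ordMod O from hy) h1
    rwa [mul_one] at this

/-- integral elements form a finitely generated group -/
theorem integral_fg : ((integralClosure ℤ K).toSubring.toAddSubgroup.toIntSubmodule).FG := by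
  have h : (integralClosure ℤ K).toSubring.toAddSubgroup.toIntSubmodule =
      Submodule.map ((Algebra.linearMap (𝓞 K) K).restrictScalars ℤ) ⊤ := by
    ext x
    constructor
    · intro hx
      exact ⟨⟨x, hx⟩, trivial, rfl⟩
    · rintro ⟨y, -, rfl⟩
      exact y.isIntegral_coe
  rw [h]
  exact Submodule.FG.map _ Module.Finite.fg_top

theorem exists_basis (hfr : finrank ℚ K = n) {O : Subring K} (hO : IsOrder O) :
    ∃ v : Fin n → K, (∀ x, x ∈ O ↔ ∃ c : Fin n → ℤ, x = ∑ k, (c k : K) * v k) ∧
      Submodule.span ℚ (Set.range v) = ⊤ := by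
  have hle : ordMod O ≤ (integralClosure ℤ K).toSubring.toAddSubgroup.toIntSubmodule :=
    fun x hx => hO.1 x hx
  have hNoeth : IsNoetherian ℤ ((integralClosure ℤ K).toSubring.toAddSubgroup.toIntSubmodule) :=
    isNoetherian_of_fg_of_noetherian _ integral_fg
  have hNoeth2 : IsNoetherian ℤ (ordMod O) := isNoetherian_of_le hle
  have hfin : Module.Finite ℤ (ordMod O) := inferInstance
  have hfree : Module.Free ℤ (ordMod O) := inferInstance
  let b := Module.Free.chooseBasis ℤ (ordMod O)
  let v : Module.Free.ChooseBasisIndex ℤ (ordMod O) → K := fun k => (b k : K)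
  have hliZ : LinearIndependent ℤ v :=
    b.linearIndependent.map' (ordMod O).subtype (Submodule.ker_subtype _)
  have hliQ : LinearIndependent ℚ v := (LinearIndependent.iff_fractionRing ℤ ℚ).1 hliZ
  have hmem : ∀ x, x ∈ O ↔ ∃ c : Module.Free.ChooseBasisIndex ℤ (ordMod O) → ℤ,
      x = ∑ k, (c k : K) * v k := by
    intro x
    constructor
    · intro hx
      refine ⟨fun k => b.repr ⟨x, hx⟩ k, ?_⟩
      have h1 := b.sum_repr ⟨x, hx⟩
      have h2 := congrArg (ordMod O).subtype h1
      rw [map_sum] at h2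
      simp only [map_smul, Submodule.subtype_apply, zsmul_eq_mul] at h2
      exact h2.symm
    · rintro ⟨c, rfl⟩
      refine Subring.sum_mem O fun k _ => O.mul_mem (intCast_mem O _) ?_
      exact (b k).2
  have hspan : Submodule.span ℚ (Set.range v) = ⊤ := by
    rw [eq_top_iff]
    intro x _
    obtain ⟨m, hm, hx⟩ := hO.2 x
    obtain ⟨c, hc⟩ := (hmem _).1 hx
    have h1 : x = ∑ k, ((c k : ℚ) / m) • v k := by
      have hmK : (m : K) ≠ 0 := by exact_mod_cast hm
      apply mul_left_cancel₀ hmK
      rw [hc, Finset.mul_sum]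
      apply Finset.sum_congr rfl
      intro k _
      rw [Rat.smul_def]
      push_cast
      field_simp
    rw [h1]
    exact Submodule.sum_mem _ fun k _ => Submodule.smul_mem _ _ (Submodule.subset_span ⟨k, rfl⟩)
  let B : Basis _ ℚ K := Basis.mk hliQ (by rw [hspan])
  have hcard : Fintype.card (Module.Free.ChooseBasisIndex ℤ (ordMod O)) = n := by
    rw [← finrank_eq_card_basis B, hfr]
  let e := Fintype.equivFinOfCardEq hcard
  refine ⟨fun k => v (e.symm k), ?_, ?_⟩
  · intro x
    rw [hmem x]
    constructor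
    · rintro ⟨c, rfl⟩
      refine ⟨fun k => c (e.symm k), ?_⟩
      exact (e.symm.sum_comp fun k => (c k : K) * v k).symm
    · rintro ⟨c, rfl⟩
      refine ⟨fun k => c (e k), ?_⟩
      rw [← e.symm.sum_comp]
      simp
  · rw [← hspan]
    congr 1
    ext x
    constructor
    · rintro ⟨k, rfl⟩
      exact ⟨e.symm k, rfl⟩
    · rintro ⟨k, rfl⟩
      exact ⟨e k, by simp⟩

theorem det_ne_zero {σ : Fin n ≃ (K →+* ℝ)} {v : Fin n → K}
    (hv : Submodule.span ℚ (Set.range v) = ⊤) :
    (Matrix.of fun k j => σ j (v k)).det ≠ 0 := by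
  intro h0
  obtain ⟨c, hc0, hc⟩ := Matrix.exists_mulVec_eq_zero_iff.2 h0
  have h1 : ∀ x : K, ∑ j, c j * σ j x = 0 := by
    let W : Submodule ℚ K :=
      { carrier := {x | ∑ j, c j * σ j x = 0}
        add_mem' := by
          intro a b ha hb
          change ∑ j, c j * σ j (a + b) = 0
          change ∑ j, c j * σ j a = 0 at ha
          change ∑ j, c j * σ j b = 0 at hb
          simp_rw [map_add, mul_add]
          rw [Finset.sum_add_distrib, ha, hb, add_zero]
        zero_mem' := by
          change ∑ j, c j * σ j 0 = 0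
          simp
        smul_mem' := by
          intro q a ha
          change ∑ j, c j * σ j (q • a) = 0
          change ∑ j, c j * σ j a = 0 at ha
          have : ∀ j, c j * σ j (q • a) = q * (c j * σ j a) := by
            intro j
            rw [Rat.smul_def, map_mul, map_ratCast]
            ring
          simp_rw [this]
          rw [← Finset.mul_sum, ha, mul_zero] }
    have hW : W = ⊤ := by
      rw [eq_top_iff, ← hv, Submodule.span_le]
      rintro _ ⟨k, rfl⟩
      change ∑ j, c j * σ j (v k) = 0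
      have := congrFun hc k
      simp only [Matrix.mulVec, dotProduct, Matrix.of_apply, Pi.zero_apply] at this
      rw [← this]
      exact Finset.sum_congr rfl fun j _ => mul_comm _ _
    intro x
    have : x ∈ W := by rw [hW]; trivial
    exact this
  have hli := (linearIndependent_monoidHom K ℝ).comp
    (fun j : Fin n => ((σ j : K →+* ℝ) : K →* ℝ)) (by
      intro i j hij
      apply σ.injective
      refine RingHom.ext fun x => ?_
      exact DFunLike.congr_fun hij x)
  rw [Fintype.linearIndependent_iff] at hli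
  apply hc0
  funext j
  apply hli c
  funext x
  simp only [Finset.sum_apply, Pi.smul_apply, smul_eq_mul, Function.comp_apply, Pi.zero_apply]
  exact h1 x

theorem exists_latticePoint (hfr : finrank ℚ K = n) (σ : Fin n ≃ (K →+* ℝ)) {O : Subring K}
    (hO : IsOrder O) : ∃ x : X n, IsLatticePoint σ (ordMod O) (fun _ => 1) x := by
  have hnpos : 0 < n := by rw [← hfr]; exact finrank_pos
  obtain ⟨v, hv1, hv2⟩ := exists_basis hfr hO
  set M : Matrix (Fin n) (Fin n) ℝ := Matrix.of fun k j => σ j (v k) with hM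
  have hδ : M.det ≠ 0 := det_ne_zero hv2
  set t : ℝ := |M.det| ^ (-(1 / (n : ℝ))) with ht
  have htpos : 0 < t := Real.rpow_pos_of_pos (abs_pos.2 hδ) _
  have htn : t ^ n = |M.det|⁻¹ := by
    rw [ht, ← Real.rpow_natCast, ← Real.rpow_mul (abs_nonneg _)]
    have : -(1 / (n : ℝ)) * (n : ℝ) = -1 := by
      have : (n : ℝ) ≠ 0 := by exact_mod_cast hnpos.ne'
      field_simp
    rw [this, Real.rpow_neg_one]
  obtain ⟨s, hs, hsd⟩ : ∃ s : ℤ, (s = 1 ∨ s = -1) ∧ (s : ℝ) * M.det = |M.det| := by
    rcases le_or_gt 0 M.det with h | h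
    · exact ⟨1, Or.inl rfl, by rw [abs_of_nonneg h]; simp⟩
    · exact ⟨-1, Or.inr rfl, by rw [abs_of_neg h]; simp⟩
  have hss : s * s = 1 := by rcases hs with rfl | rfl <;> norm_num
  let k0 : Fin n := ⟨0, hnpos⟩
  let D : Fin n → ℤ := fun k => if k = k0 then s else 1
  have hDD : ∀ k, D k * D k = 1 := by
    intro k
    by_cases h : k = k0
    · simp [D, h, hss]
    · simp [D, h]
  have hDprod : ∏ k, (D k : ℝ) = s := by
    rw [Finset.prod_eq_single k0]
    · simp [D]
    · intro k _ hk
      simp [D, hk]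
    · intro h
      exact absurd (Finset.mem_univ _) h
  let g0 : Matrix (Fin n) (Fin n) ℝ := Matrix.diagonal (fun k => (D k : ℝ)) * (t • M)
  have hg0 : g0.det = 1 := by
    change (Matrix.diagonal (fun k => (D k : ℝ)) * (t • M)).det = 1
    rw [Matrix.det_mul, Matrix.det_diagonal, hDprod, Matrix.det_smul, Fintype.card_fin, htn]
    have h1 : |M.det| ≠ 0 := abs_ne_zero.2 hδ
    calc (s : ℝ) * (|M.det|⁻¹ * M.det) = |M.det|⁻¹ * ((s : ℝ) * M.det) := by ring
      _ = 1 := by rw [hsd, inv_mul_cancel₀ h1]
  have hentry : ∀ k j, g0 k j = (D k : ℝ) * (t * σ j (v k)) := by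
    intro k j
    change (Matrix.diagonal (fun k => (D k : ℝ)) * (t • M)) k j = _
    rw [Matrix.diagonal_mul, Matrix.smul_apply, smul_eq_mul]
    rfl
  refine ⟨X.mk ⟨g0, hg0⟩, ⟨g0, hg0⟩, t, rfl, htpos, ?_⟩
  ext y
  constructor
  · rintro ⟨c, hc⟩
    refine ⟨∑ k, ((c k * D k : ℤ) : K) * v k, (hv1 _).2 ⟨fun k => c k * D k, rfl⟩, ?_⟩
    intro j
    rw [hc j, map_sum, mul_one, Finset.mul_sum]
    apply Finset.sum_congr rfl
    intro k _
    change (c k : ℝ) * g0 k j = _
    rw [hentry, map_mul, map_intCast]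
    push_cast
    ring
  · rintro ⟨α, hα, hy⟩
    obtain ⟨c, hc⟩ := (hv1 α).1 hα
    refine ⟨fun k => c k * D k, ?_⟩
    intro j
    rw [hy j, hc, map_sum, mul_one, Finset.mul_sum]
    apply Finset.sum_congr rfl
    intro k _
    change _ = ((c k * D k : ℤ) : ℝ) * g0 k j
    rw [hentry, map_mul, map_intCast]
    have h1 : (D k : ℝ) * (D k : ℝ) = 1 := by exact_mod_cast hDD k
    push_cast
    linear_combination (-(c k : ℝ) * t * σ j (v k)) * h1

end

end Vale.Agent.H1.P007
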