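import Mathlib

/-! A family of totally real fields of degree `d m` with a common subfield of degree `d`. -/

namespace Vale.Agent.H1.RealFamily

open Polynomial

noncomputable section

/-! ### Chebyshev polynomials -/

theorem chebC_rec (R : Type*) [CommRing R] (k : ℕ) : Chebyshev.C R ((k + 2 : ℕ) : ℤ) =
    X * Chebyshev.C R ((k + 1 : ℕ) : ℤ) - Chebyshev.C R ((k : ℕ) : ℤ) := by
  have := Chebyshev.C_add_two R (k : ℤ)
  push_cast
  exact this

/-- `C_n` is monic of degree `n`. -/
theorem chebC_monic (n : ℕ) : 1 ≤ n → (Chebyshev.C ℤ n).Monic ∧ (Chebyshev.C ℤ n).natDegree = n := by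
  induction n using Nat.strong_induction_on with
  | _ n ih =>
    intro hn
    match n, hn with
    | 1, _ =>
      have : (Chebyshev.C ℤ ((1 : ℕ) : ℤ)) = X := by simp
      rw [this]
      exact ⟨monic_X, natDegree_X⟩
    | 2, _ =>
      have : (Chebyshev.C ℤ ((2 : ℕ) : ℤ)) = X ^ 2 - Polynomial.C 2 := by
        have := Chebyshev.C_two ℤ
        simpa using this
      rw [this]
      exact ⟨monic_X_pow_sub_C 2 (by norm_num), natDegree_X_pow_sub_C⟩
    | k + 3, _ =>
      obtain ⟨h1, h2⟩ := ih (k + 2) (by omega) (by omega)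
      obtain ⟨h3, h4⟩ := ih (k + 1) (by omega) (by omega)
      have hrec := chebC_rec ℤ (k + 1)
      have hm : (X * Chebyshev.C ℤ ((k + 2 : ℕ) : ℤ)).Monic := monic_X.mul h1
      have hdeg : (X * Chebyshev.C ℤ ((k + 2 : ℕ) : ℤ)).natDegree = k + 3 := by
        rw [natDegree_X_mul h1.ne_zero, h2]
      have hlt : (Chebyshev.C ℤ ((k + 1 : ℕ) : ℤ)).degree <
          (X * Chebyshev.C ℤ ((k + 2 : ℕ) : ℤ)).degree := by
        rw [degree_eq_natDegree h3.ne_zero, degree_eq_natDegree hm.ne_zero, h4, hdeg]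
        exact_mod_cast (by omega : k + 1 < k + 3)
      change (Chebyshev.C ℤ ((k + 1 + 2 : ℕ) : ℤ)).Monic ∧
        (Chebyshev.C ℤ ((k + 1 + 2 : ℕ) : ℤ)).natDegree = k + 3
      rw [hrec]
      constructor
      · exact hm.sub_of_left hlt
      · rw [natDegree_sub_eq_left_of_natDegree_lt, hdeg]
        rw [h4, hdeg]
        omega

/-- values at zero -/
theorem chebC_zero (n : ℕ) : (Chebyshev.C ℤ n).eval 0 = 0 ∨ (Chebyshev.C ℤ n).eval 0 = 2 ∨
    (Chebyshev.C ℤ n).eval 0 = -2 := by
  induction n using Nat.twoStepInduction with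
  | zero => right; left; simp
  | one => left; simp
  | more k ih1 ih2 =>
    rw [chebC_rec, eval_sub, eval_mul, eval_X, zero_mul, zero_sub]
    omega

theorem eval_C_add_inv (n : ℕ) {z : ℂ} (hz : z ≠ 0) :
    (Chebyshev.C ℂ n).eval (z + z⁻¹) = z ^ n + (z⁻¹) ^ n := by
  induction n using Nat.twoStepInduction with
  | zero => simp; norm_num
  | one => simp
  | more k ih1 ih2 =>
    rw [chebC_rec, eval_sub, eval_mul, eval_X, ih1, ih2]
    have h1 : z * z⁻¹ = 1 := mul_inv_cancel₀ hz
    linear_combination (z ^ k + (z⁻¹) ^ k) * h1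

/-- solutions of `C_n(x) = c` with `-2 ≤ c ≤ 2` are real and lie in `[-2,2]` -/
theorem real_of_eval {n : ℕ} (hn : 1 ≤ n) {x : ℂ} {c : ℝ} (hc : c ^ 2 ≤ 4)
    (hx : (Chebyshev.C ℂ n).eval x = c) : ∃ r : ℝ, r ^ 2 ≤ 4 ∧ x = r := by
  obtain ⟨z, hz⟩ : ∃ z : ℂ, z * z - x * z + 1 = 0 := by
    obtain ⟨s, hs⟩ := IsAlgClosed.exists_pow_nat_eq (x ^ 2 - 4) (n := 2) (by norm_num)
    refine ⟨(x + s) / 2, ?_⟩
    have : s ^ 2 = x ^ 2 - 4 := hs
    linear_combination (1 / 4 : ℂ) * this
  have hz0 : z ≠ 0 := by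
    rintro rfl
    simp at hz
  have hxz : x = z + z⁻¹ := by
    field_simp
    linear_combination -hz
  have hn' : (Chebyshev.C ℂ n).eval x = z ^ n + (z⁻¹) ^ n := by
    rw [hxz]
    exact eval_C_add_inv n hz0
  rw [hn'] at hx
  set w : ℂ := z ^ n with hw
  have hw0 : w ≠ 0 := pow_ne_zero n hz0
  have hwi : (z⁻¹) ^ n = w⁻¹ := by rw [inv_pow]
  rw [hwi] at hx
  have hq : w ^ 2 - c * w + 1 = 0 := by
    field_simp at hx
    linear_combination hx
  have hnorm : Complex.normSq w = 1 := by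
    have hre := congrArg Complex.re hq
    have him := congrArg Complex.im hq
    simp [pow_two] at hre him
    have him' : w.im * (2 * w.re - c) = 0 := by linarith
    rw [Complex.normSq_apply]
    rcases mul_eq_zero.1 him' with h | h
    · rw [h] at hre ⊢
      have h1 : (w.re - c / 2) ^ 2 + (1 - c ^ 2 / 4) = 0 := by nlinarith
      have h2 : (w.re - c / 2) ^ 2 = 0 := by nlinarith [sq_nonneg (w.re - c / 2)]
      have h3 : w.re = c / 2 := by
        have := pow_eq_zero_iff (two_ne_zero) |>.1 h2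
        linarith
      have h4 : c ^ 2 = 4 := by nlinarith
      rw [h3]
      nlinarith
    · have h5 : c = 2 * w.re := by linarith
      rw [h5] at hre
      nlinarith
  have hznorm : Complex.normSq z = 1 := by
    rw [hw, map_pow] at hnorm
    exact (pow_eq_one_iff_of_nonneg (Complex.normSq_nonneg z) (by omega)).1 hnorm
  have hinv : z⁻¹ = (starRingEnd ℂ) z := by
    rw [Complex.inv_def, hznorm]
    simp
  refine ⟨2 * z.re, ?_, ?_⟩
  · rw [Complex.normSq_apply] at hznorm
    nlinarith [mul_self_nonneg z.im]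
  · rw [hxz, hinv, Complex.add_conj]

/-! ### The polynomials -/

/-- `C_d(q C_m(X))` -/
def Gp (d m q : ℕ) : ℤ[X] :=
  (Chebyshev.C ℤ d).comp (Polynomial.C (q : ℤ) * Chebyshev.C ℤ m)

/-- `5 C_d(q C_m(X)) - 6` -/
def fpoly (d m q : ℕ) : ℤ[X] := Polynomial.C 5 * Gp d m q - Polynomial.C 6

/-- Standing assumptions on the parameters. -/
structure Good (d m q : ℕ) : Prop where
  hd : 1 ≤ d
  hm : 1 ≤ m
  hq : q.Prime
  hq5 : 5 < q

section

variable {d m q : ℕ} (hg : Good d m q)

include hg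

theorem inner_natDegree : (Polynomial.C (q : ℤ) * Chebyshev.C ℤ m).natDegree = m := by
  rw [natDegree_C_mul (by exact_mod_cast hg.hq.ne_zero), (chebC_monic m hg.hm).2]

theorem Gp_natDegree : (Gp d m q).natDegree = d * m := by
  unfold Gp
  rw [natDegree_comp, (chebC_monic d hg.hd).2, inner_natDegree hg]

theorem Gp_leadingCoeff : (Gp d m q).leadingCoeff = (q : ℤ) ^ d := by
  unfold Gp
  rw [leadingCoeff_comp (by rw [inner_natDegree hg]; have := hg.hm; omega),
    (chebC_monic d hg.hd).1.leadingCoeff, (chebC_monic d hg.hd).2, leadingCoeff_mul,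
    leadingCoeff_C, (chebC_monic m hg.hm).1.leadingCoeff, one_mul, mul_one]

theorem dm_pos : 1 ≤ d * m := Nat.mul_pos hg.hd hg.hm

theorem fpoly_natDegree : (fpoly d m q).natDegree = d * m := by
  unfold fpoly
  rw [natDegree_sub_C, natDegree_C_mul (by norm_num), Gp_natDegree hg]

omit hg in
theorem fpoly_coeff_pos {k : ℕ} (hk : k ≠ 0) : (5 : ℤ) ∣ (fpoly d m q).coeff k := by
  unfold fpoly
  rw [coeff_sub, coeff_C_mul, coeff_C_of_ne_zero hk, sub_zero]
  exact Dvd.intro _ rfl

theorem fpoly_coeff_top : (fpoly d m q).coeff (d * m) = 5 * (q : ℤ) ^ d := by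
  unfold fpoly
  rw [coeff_sub, coeff_C_mul, coeff_C_of_ne_zero (by have := dm_pos hg; omega), sub_zero]
  have h : (Gp d m q).coeff (d * m) = (q : ℤ) ^ d := by
    rw [← Gp_leadingCoeff hg, leadingCoeff, Gp_natDegree hg]
  rw [h]

omit hg in
theorem fpoly_coeff_zero : ¬ (5 : ℤ) ∣ (fpoly d m q).coeff 0 := by
  unfold fpoly
  rw [coeff_sub, coeff_C_mul, coeff_C_zero]
  omega

omit hg in
theorem fpoly_coeff_zero_ne : (fpoly d m q).coeff 0 ≠ 0 := by
  intro h
  apply fpoly_coeff_zero (d := d) (m := m) (q := q)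
  rw [h]
  exact dvd_zero _

/-- `q` does not divide `5 C_d(0) - 6` -/
theorem not_dvd_aux : ¬ (q : ℤ) ∣ 5 * (Chebyshev.C ℤ d).eval 0 - 6 := by
  intro h
  have hq5 := hg.hq5
  have h1 : (q : ℕ) ∣ 6 ∨ (q : ℕ) ∣ 4 ∨ (q : ℕ) ∣ 16 := by
    rcases chebC_zero d with h0 | h0 | h0
    · left
      rw [h0] at h
      have := Int.natAbs_dvd_natAbs.2 h
      simpa using this
    · right; left
      rw [h0] at h
      have := Int.natAbs_dvd_natAbs.2 h
      simpa using this
    · right; right
      rw [h0] at h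
      have := Int.natAbs_dvd_natAbs.2 h
      simpa using this
  have hle : ∀ k, (q : ℕ) ∣ 2 ^ k → False := by
    intro k hk
    have := (Nat.prime_dvd_prime_iff_eq hg.hq Nat.prime_two).1 (hg.hq.dvd_of_dvd_pow hk)
    omega
  rcases h1 with h1 | h1 | h1
  · have h6 : q ∣ 2 * 3 := h1
    rcases (hg.hq.dvd_mul).1 h6 with h2 | h2
    · have := Nat.le_of_dvd (by norm_num) h2; omega
    · have := Nat.le_of_dvd (by norm_num) h2; omega
  · exact hle 2 (by norm_num; exact h1)
  · exact hle 4 (by norm_num; exact h1)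

theorem not_dvd_coeff_zero : ¬ (q : ℤ) ∣ (fpoly d m q).coeff 0 := by
  intro h
  apply not_dvd_aux hg
  have h1 : (fpoly d m q).coeff 0 =
      5 * (Chebyshev.C ℤ d).eval ((q : ℤ) * (Chebyshev.C ℤ m).eval 0) - 6 := by
    rw [coeff_zero_eq_eval_zero]
    unfold fpoly Gp
    simp [eval_comp]
  have h2 : (q : ℤ) ∣ (Chebyshev.C ℤ d).eval ((q : ℤ) * (Chebyshev.C ℤ m).eval 0) -
      (Chebyshev.C ℤ d).eval 0 := by
    have := Polynomial.sub_dvd_eval_sub ((q : ℤ) * (Chebyshev.C ℤ m).eval 0) 0 (Chebyshev.C ℤ d)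
    rw [sub_zero] at this
    exact (Dvd.intro _ rfl).trans this
  rw [h1] at h
  have h3 : 5 * (Chebyshev.C ℤ d).eval 0 - 6 =
      (5 * (Chebyshev.C ℤ d).eval ((q : ℤ) * (Chebyshev.C ℤ m).eval 0) - 6) -
      5 * ((Chebyshev.C ℤ d).eval ((q : ℤ) * (Chebyshev.C ℤ m).eval 0) -
      (Chebyshev.C ℤ d).eval 0) := by ring
  rw [h3]
  exact dvd_sub h (h2.mul_left 5)

end

/-- the reversed polynomial -/
def gpoly (d m q : ℕ) : ℤ[X] := (fpoly d m q).reverse

section

variable {d m q : ℕ} (hg : Good d m q)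

include hg

theorem gpoly_natDegree : (gpoly d m q).natDegree = d * m := by
  unfold gpoly
  rw [reverse_natDegree, fpoly_natDegree hg,
    natTrailingDegree_eq_zero.2 (Or.inr fpoly_coeff_zero_ne)]
  rfl

theorem gpoly_coeff {k : ℕ} (hk : k ≤ d * m) :
    (gpoly d m q).coeff k = (fpoly d m q).coeff (d * m - k) := by
  unfold gpoly
  rw [coeff_reverse, fpoly_natDegree hg, revAt_le hk]

theorem gpoly_primitive : (gpoly d m q).IsPrimitive := by
  intro r hr
  rw [C_dvd_iff_dvd_coeff] at hr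
  have h1 := hr 0
  have h2 := hr (d * m)
  rw [gpoly_coeff hg (Nat.zero_le _), Nat.sub_zero, fpoly_coeff_top hg] at h1
  rw [gpoly_coeff hg le_rfl, Nat.sub_self] at h2
  have h5 : Prime (5 : ℤ) := by norm_num
  have hq : Prime (q : ℤ) := Nat.prime_iff_prime_int.1 hg.hq
  by_contra hu
  have hr0 : r ≠ 0 := by
    rintro rfl
    exact fpoly_coeff_zero_ne (zero_dvd_iff.1 h2)
  obtain ⟨p, hp, hpr⟩ := WfDvdMonoid.exists_irreducible_factor hu hr0
  have hp' : Prime p := irreducible_iff_prime.1 hp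
  rcases hp'.dvd_or_dvd (hpr.trans h1) with h | h
  · have : Associated p 5 := hp'.associated_of_dvd h5 h
    exact fpoly_coeff_zero ((this.symm.dvd.trans hpr).trans h2)
  · have : Associated p q := hp'.associated_of_dvd hq (hp'.dvd_of_dvd_pow h)
    exact not_dvd_coeff_zero hg ((this.symm.dvd.trans hpr).trans h2)

theorem gpoly_irreducible : Irreducible (gpoly d m q) := by
  have hp : Prime (5 : ℤ) := by norm_num
  have hP : (Ideal.span {(5 : ℤ)}).IsPrime := (Ideal.span_singleton_prime (by norm_num)).2 hp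
  have hE : (gpoly d m q).IsEisensteinAt (Ideal.span {(5 : ℤ)}) := by
    refine ⟨?_, ?_, ?_⟩
    · rw [Ideal.mem_span_singleton, Polynomial.leadingCoeff, gpoly_natDegree hg,
        gpoly_coeff hg le_rfl, Nat.sub_self]
      exact fpoly_coeff_zero
    · intro k hk
      rw [gpoly_natDegree hg] at hk
      rw [Ideal.mem_span_singleton, gpoly_coeff hg hk.le]
      exact fpoly_coeff_pos (by omega)
    · rw [gpoly_coeff hg (Nat.zero_le _), Nat.sub_zero, fpoly_coeff_top hg,
        Ideal.span_singleton_pow, Ideal.mem_span_singleton]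
      intro h
      have h1 : (5 : ℤ) ∣ (q : ℤ) ^ d := by
        have : (5 : ℤ) * 5 ∣ 5 * (q : ℤ) ^ d := by
          rw [← pow_two]
          exact h
        exact (mul_dvd_mul_iff_left (by norm_num)).1 this
      have h2 : (5 : ℤ) ∣ q := hp.dvd_of_dvd_pow h1
      have h3 : (5 : ℕ) ∣ q := by exact_mod_cast h2
      have := (Nat.prime_dvd_prime_iff_eq Nat.prime_five hg.hq).1 h3
      have := hg.hq5
      omega
  exact hE.irreducible hP (gpoly_primitive hg) (by rw [gpoly_natDegree hg]; have := dm_pos hg; omega)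

end

/-- over `ℚ` -/
def gQ (d m q : ℕ) : ℚ[X] := (gpoly d m q).map (Int.castRingHom ℚ)

section

variable {d m q : ℕ} (hg : Good d m q)

include hg

theorem gQ_irreducible : Irreducible (gQ d m q) :=
  (IsPrimitive.Int.irreducible_iff_irreducible_map_cast (gpoly_primitive hg)).1
    (gpoly_irreducible hg)

theorem gQ_natDegree : (gQ d m q).natDegree = d * m := by
  unfold gQ
  rw [natDegree_map_eq_of_injective (Int.cast_injective), gpoly_natDegree hg]

end

/-- roots of `gQ` are the inverses of the roots of `5 C_d(q C_m(X)) - 6` -/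
theorem gQ_root_iff {L : Type*} [Field L] [CharZero L] [Algebra ℚ L] {d m q : ℕ} {x : L}
    (hx : x ≠ 0) : aeval x⁻¹ (gQ d m q) = 0 ↔
      5 * (Chebyshev.C L d).eval (q * (Chebyshev.C L m).eval x) = 6 := by
  have h1 : aeval x⁻¹ (gQ d m q) = 0 ↔ eval₂ (Int.castRingHom L) x (fpoly d m q) = 0 := by
    have h2 : aeval x⁻¹ (gQ d m q) = eval₂ (Int.castRingHom L) x⁻¹ (fpoly d m q).reverse := by
      unfold gQ gpoly
      rw [aeval_def, eval₂_map]
      congr 1
      exact RingHom.ext_int _ _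
    rw [h2]
    let _ : Invertible x := invertibleOfNonzero hx
    rw [← invOf_eq_inv x]
    exact eval₂_reverse_eq_zero_iff _ _ _
  rw [h1]
  have h3 : eval₂ (Int.castRingHom L) x (fpoly d m q) =
      5 * (Chebyshev.C L d).eval (q * (Chebyshev.C L m).eval x) - 6 := by
    unfold fpoly Gp
    rw [eval₂_sub, eval₂_mul, eval₂_C, eval₂_C, ← eval_map, Polynomial.map_comp,
      Chebyshev.map_C, Polynomial.map_mul, Polynomial.map_C, Chebyshev.map_C]
    simp [eval_comp]
  rw [h3, sub_eq_zero]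

/-! ### The fields -/

/-- the field `K_q` of degree `d m` -/
abbrev KF (d m q : ℕ) : Type := AdjoinRoot (gQ d m q)

section

variable (d m q : ℕ) [hg : Fact (Good d m q)]

instance : Fact (Irreducible (gQ d m q)) := ⟨gQ_irreducible hg.out⟩

instance : NumberField (KF d m q) where
  to_charZero := charZero_of_injective_algebraMap (algebraMap ℚ (KF d m q)).injective
  to_finiteDimensional := (AdjoinRoot.powerBasis (gQ_irreducible hg.out).ne_zero).finite

theorem finrank_KF : Module.finrank ℚ (KF d m q) = d * m := by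
  rw [(AdjoinRoot.powerBasis (gQ_irreducible hg.out).ne_zero).finrank,
    AdjoinRoot.powerBasis_dim, gQ_natDegree hg.out]

theorem aeval_root : aeval (AdjoinRoot.root (gQ d m q)) (gQ d m q) = 0 := by
  rw [aeval_def]
  exact AdjoinRoot.eval₂_root (gQ d m q)

theorem root_ne_zero : AdjoinRoot.root (gQ d m q) ≠ 0 := by
  intro h
  have h1 := aeval_root d m q
  rw [h, ← coeff_zero_eq_aeval_zero'] at h1
  have h2 : (gQ d m q).coeff 0 = 0 :=
    (algebraMap ℚ (KF d m q)).injective (by rw [h1, map_zero])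
  unfold gQ at h2
  rw [coeff_map, gpoly_coeff hg.out (Nat.zero_le _), Nat.sub_zero, fpoly_coeff_top hg.out] at h2
  have hq : (q : ℚ) ≠ 0 := by exact_mod_cast hg.out.hq.ne_zero
  simp [hq] at h2

/-- `θ` -/
def theta : KF d m q := (AdjoinRoot.root (gQ d m q))⁻¹

/-- `β = q C_m(θ)` -/
def beta : KF d m q := q * (Chebyshev.C (KF d m q) m).eval (theta d m q)

theorem beta_root : 5 * (Chebyshev.C (KF d m q) d).eval (beta d m q) = 6 := by
  unfold beta theta
  rw [← gQ_root_iff (inv_ne_zero (root_ne_zero d m q)), inv_inv]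
  convert aeval_root d m q

theorem map_eval_C {L M : Type*} [Field L] [Field M] (φ : L →+* M) (k : ℕ) (x : L) :
    φ ((Chebyshev.C L k).eval x) = (Chebyshev.C M k).eval (φ x) := by
  rw [← Chebyshev.map_C φ, eval_map, eval₂_hom]

theorem isReal_of_embedding (φ : KF d m q →+* ℂ) : NumberField.ComplexEmbedding.IsReal φ := by
  have hreal : (starRingEnd ℂ) (φ (theta d m q)) = φ (theta d m q) := by
    have h1 : (Chebyshev.C ℂ d).eval (φ (beta d m q)) = ((6 / 5 : ℝ) : ℂ) := by
      have h := congrArg φ (beta_root d m q)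
      rw [map_mul, map_eval_C, map_ofNat, map_ofNat] at h
      push_cast
      rw [eq_div_iff (by norm_num), mul_comm]
      exact h
    obtain ⟨b, hb, hb'⟩ := real_of_eval hg.out.hd (by norm_num) h1
    have hq : (q : ℝ) ≠ 0 := by exact_mod_cast hg.out.hq.ne_zero
    have hqC : (q : ℂ) ≠ 0 := by exact_mod_cast hg.out.hq.ne_zero
    have h2 : (Chebyshev.C ℂ m).eval (φ (theta d m q)) = ((b / q : ℝ) : ℂ) := by
      have h3 : φ (beta d m q) = q * (Chebyshev.C ℂ m).eval (φ (theta d m q)) := by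
        unfold beta
        rw [map_mul, map_natCast, map_eval_C]
      rw [hb'] at h3
      push_cast
      rw [h3]
      field_simp
    have h4 : (b / (q : ℝ)) ^ 2 ≤ 4 := by
      have hq1 : (1 : ℝ) ≤ q := by exact_mod_cast hg.out.hq.one_le
      rw [div_pow, div_le_iff₀ (by positivity)]
      nlinarith
    obtain ⟨r, -, hr⟩ := real_of_eval hg.out.hm h4 h2
    rw [hr]
    exact Complex.conj_ofReal r
  rw [NumberField.ComplexEmbedding.isReal_iff]
  have hroot : (starRingEnd ℂ) (φ (AdjoinRoot.root (gQ d m q))) =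
      φ (AdjoinRoot.root (gQ d m q)) := by
    have h1 : AdjoinRoot.root (gQ d m q) = (theta d m q)⁻¹ := by unfold theta; rw [inv_inv]
    rw [h1, map_inv₀, map_inv₀, hreal]
  ext x
  · exact RingHom.congr_fun (RingHom.ext_rat
      ((NumberField.ComplexEmbedding.conjugate φ).comp (AdjoinRoot.of (gQ d m q)))
      (φ.comp (AdjoinRoot.of (gQ d m q)))) x
  · exact hroot

theorem exists_ordering : Nonempty (Fin (d * m) ≃ (KF d m q →+* ℝ)) := by
  classical
  let F : (KF d m q →+* ℝ) → (KF d m q →+* ℂ) := fun ψ => Complex.ofRealHom.comp ψ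
  have hinj : Function.Injective F := by
    intro a b hab
    refine RingHom.ext fun x => ?_
    have := RingHom.congr_fun hab x
    exact Complex.ofReal_injective this
  have hsurj : Function.Surjective F := by
    intro φ
    refine ⟨(isReal_of_embedding d m q φ).embedding, ?_⟩
    refine RingHom.ext fun x => ?_
    exact (isReal_of_embedding d m q φ).coe_embedding_apply x
  have e : (KF d m q →+* ℝ) ≃ (KF d m q →+* ℂ) := Equiv.ofBijective F ⟨hinj, hsurj⟩
  have hcard : Fintype.card (KF d m q →+* ℂ) = d * m := by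
    rw [NumberField.Embeddings.card (KF d m q) ℂ, finrank_KF]
  exact ⟨(e.trans (Fintype.equivFinOfCardEq hcard)).symm⟩

end

end

end Vale.Agent.H1.RealFamily
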