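import Mathlib

/-! Totally real fields of degree `d m` with a subfield of degree `d`. -/

namespace Vale.Agent.H1.RealField

open Polynomial

noncomputable section

/-- `C_n` is monic of degree `n`. -/
theorem chebC_monic (n : ℕ) : 1 ≤ n → (Chebyshev.C ℤ n).Monic ∧ (Chebyshev.C ℤ n).natDegree = n := by
  induction n using Nat.strong_induction_on with
  | _ n ih =>
    intro hn
    match n, hn with
    | 1, _ =>
      have : (Chebyshev.C ℤ ((1 : ℕ) : ℤ)) = X := by simp
      rw [this]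
      exact ⟨monic_X, natDegree_X⟩
    | 2, _ =>
      have : (Chebyshev.C ℤ ((2 : ℕ) : ℤ)) = X ^ 2 - Polynomial.C 2 := by
        have := Chebyshev.C_two ℤ
        simpa using this
      rw [this]
      exact ⟨monic_X_pow_sub_C 2 (by norm_num), natDegree_X_pow_sub_C⟩
    | k + 3, _ =>
      obtain ⟨h1, h2⟩ := ih (k + 2) (by omega) (by omega)
      obtain ⟨h3, h4⟩ := ih (k + 1) (by omega) (by omega)
      have hrec : Chebyshev.C ℤ ((k + 3 : ℕ) : ℤ) =
          X * Chebyshev.C ℤ ((k + 2 : ℕ) : ℤ) - Chebyshev.C ℤ ((k + 1 : ℕ) : ℤ) := by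
        have := Chebyshev.C_add_two ℤ ((k : ℤ) + 1)
        push_cast
        convert this using 2 <;> ring_nf
      have hm : (X * Chebyshev.C ℤ ((k + 2 : ℕ) : ℤ)).Monic := monic_X.mul h1
      have hdeg : (X * Chebyshev.C ℤ ((k + 2 : ℕ) : ℤ)).natDegree = k + 3 := by
        rw [natDegree_X_mul h1.ne_zero, h2]
      have hlt : (Chebyshev.C ℤ ((k + 1 : ℕ) : ℤ)).degree <
          (X * Chebyshev.C ℤ ((k + 2 : ℕ) : ℤ)).degree := by
        rw [degree_eq_natDegree h3.ne_zero, degree_eq_natDegree hm.ne_zero, h4, hdeg]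
        exact_mod_cast (by omega : k + 1 < k + 3)
      rw [hrec]
      constructor
      · exact hm.sub_of_left hlt
      · rw [natDegree_sub_eq_left_of_natDegree_lt, hdeg]
        rw [h4, hdeg]
        omega

/-- `5 C_n - 6` -/
def fpoly (n : ℕ) : ℤ[X] := Polynomial.C 5 * Chebyshev.C ℤ n - Polynomial.C 6

theorem fpoly_natDegree {n : ℕ} (hn : 1 ≤ n) : (fpoly n).natDegree = n := by
  unfold fpoly
  rw [natDegree_sub_C, natDegree_C_mul (by norm_num), (chebC_monic n hn).2]

theorem fpoly_coeff_pos {n k : ℕ} (hk : k ≠ 0) : (5 : ℤ) ∣ (fpoly n).coeff k := by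
  unfold fpoly
  rw [coeff_sub, coeff_C_mul, coeff_C_of_ne_zero hk, sub_zero]
  exact Dvd.intro _ rfl

theorem fpoly_leadingCoeff {n : ℕ} (hn : 1 ≤ n) : (fpoly n).coeff n = 5 := by
  unfold fpoly
  rw [coeff_sub, coeff_C_mul, coeff_C_of_ne_zero (by omega), sub_zero]
  have h := (chebC_monic n hn).1.coeff_natDegree
  rw [(chebC_monic n hn).2] at h
  rw [h]
  norm_num

theorem fpoly_coeff_zero (n : ℕ) : ¬ (5 : ℤ) ∣ (fpoly n).coeff 0 := by
  unfold fpoly
  rw [coeff_sub, coeff_C_mul, coeff_C_zero]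
  omega

theorem fpoly_coeff_zero_ne (n : ℕ) : (fpoly n).coeff 0 ≠ 0 := by
  intro h
  apply fpoly_coeff_zero n
  rw [h]
  exact dvd_zero _

/-- the reversed polynomial -/
def gpoly (n : ℕ) : ℤ[X] := (fpoly n).reverse

theorem gpoly_natDegree {n : ℕ} (hn : 1 ≤ n) : (gpoly n).natDegree = n := by
  unfold gpoly
  rw [reverse_natDegree, fpoly_natDegree hn,
    natTrailingDegree_eq_zero.2 (Or.inr (fpoly_coeff_zero_ne n))]
  rfl

theorem gpoly_coeff {n k : ℕ} (hn : 1 ≤ n) (hk : k ≤ n) :
    (gpoly n).coeff k = (fpoly n).coeff (n - k) := by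
  unfold gpoly
  rw [coeff_reverse, fpoly_natDegree hn, revAt_le hk]

theorem gpoly_primitive {n : ℕ} (hn : 1 ≤ n) : (gpoly n).IsPrimitive := by
  intro r hr
  rw [C_dvd_iff_dvd_coeff] at hr
  have h1 := hr 0
  have h2 := hr n
  rw [gpoly_coeff hn (Nat.zero_le _), Nat.sub_zero, fpoly_leadingCoeff hn] at h1
  rw [gpoly_coeff hn le_rfl, Nat.sub_self] at h2
  have h3 := fpoly_coeff_zero n
  have hp : Prime (5 : ℤ) := by norm_num
  rcases (Int.prime_iff_natAbs_prime.1 hp).eq_one_or_self_of_dvd r.natAbs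
    (Int.natAbs_dvd_natAbs.2 h1) with h | h
  · exact Int.isUnit_iff_natAbs_eq.2 h
  · exfalso
    apply h3
    have : (5 : ℤ) ∣ r := by
      rw [← Int.natAbs_dvd_natAbs, h]
    exact this.trans h2

theorem gpoly_irreducible {n : ℕ} (hn : 1 ≤ n) : Irreducible (gpoly n) := by
  have hp : Prime (5 : ℤ) := by norm_num
  have hP : (Ideal.span {(5 : ℤ)}).IsPrime := (Ideal.span_singleton_prime (by norm_num)).2 hp
  have hE : (gpoly n).IsEisensteinAt (Ideal.span {(5 : ℤ)}) := by
    refine ⟨?_, ?_, ?_⟩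
    · rw [Ideal.mem_span_singleton, Polynomial.leadingCoeff, gpoly_natDegree hn,
        gpoly_coeff hn le_rfl, Nat.sub_self]
      exact fpoly_coeff_zero n
    · intro k hk
      rw [gpoly_natDegree hn] at hk
      rw [Ideal.mem_span_singleton, gpoly_coeff hn hk.le]
      exact fpoly_coeff_pos (by omega)
    · rw [gpoly_coeff hn (Nat.zero_le _), Nat.sub_zero, fpoly_leadingCoeff hn,
        Ideal.span_singleton_pow, Ideal.mem_span_singleton]
      norm_num
  exact hE.irreducible hP (gpoly_primitive hn) (by rw [gpoly_natDegree hn]; omega)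

/-- over `ℚ` -/
def gQ (n : ℕ) : ℚ[X] := (gpoly n).map (Int.castRingHom ℚ)

theorem gQ_irreducible {n : ℕ} (hn : 1 ≤ n) : Irreducible (gQ n) :=
  (IsPrimitive.Int.irreducible_iff_irreducible_map_cast (gpoly_primitive hn)).1
    (gpoly_irreducible hn)

theorem gQ_natDegree {n : ℕ} (hn : 1 ≤ n) : (gQ n).natDegree = n := by
  unfold gQ
  rw [natDegree_map_eq_of_injective (Int.cast_injective), gpoly_natDegree hn]

/-- roots of `gQ n` are the inverses of the roots of `5 C_n - 6` -/
theorem gQ_root_iff {L : Type*} [Field L] [CharZero L] [Algebra ℚ L] {n : ℕ} {x : L} (hx : x ≠ 0) :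
    aeval x⁻¹ (gQ n) = 0 ↔ 5 * (Chebyshev.C L n).eval x = 6 := by
  have h1 : aeval x⁻¹ (gQ n) = 0 ↔ eval₂ (Int.castRingHom L) x (fpoly n) = 0 := by
    have h2 : aeval x⁻¹ (gQ n) = eval₂ (Int.castRingHom L) x⁻¹ (fpoly n).reverse := by
      unfold gQ gpoly
      rw [aeval_def, eval₂_map]
      congr 1
      exact RingHom.ext_int _ _
    rw [h2]
    let _ : Invertible x := invertibleOfNonzero hx
    rw [← invOf_eq_inv x]
    exact eval₂_reverse_eq_zero_iff _ _ _
  rw [h1]
  have h3 : eval₂ (Int.castRingHom L) x (fpoly n) = 5 * (Chebyshev.C L n).eval x - 6 := by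
    unfold fpoly
    rw [eval₂_sub, eval₂_mul, eval₂_C, eval₂_C, ← eval_map, Chebyshev.map_C]
    norm_num
  rw [h3, sub_eq_zero]

theorem eval_C_add_inv (n : ℕ) {z : ℂ} (hz : z ≠ 0) :
    (Chebyshev.C ℂ n).eval (z + z⁻¹) = z ^ n + (z⁻¹) ^ n := by
  induction n using Nat.twoStepInduction with
  | zero => simp; norm_num
  | one => simp
  | more k ih1 ih2 =>
    have hrec : Chebyshev.C ℂ ((k + 2 : ℕ) : ℤ) =
        X * Chebyshev.C ℂ ((k + 1 : ℕ) : ℤ) - Chebyshev.C ℂ ((k : ℕ) : ℤ) := by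
      have := Chebyshev.C_add_two ℂ (k : ℤ)
      push_cast
      exact this
    rw [hrec, eval_sub, eval_mul, eval_X, ih1, ih2]
    have h1 : z * z⁻¹ = 1 := mul_inv_cancel₀ hz
    linear_combination (z ^ k + (z⁻¹) ^ k) * h1

/-- all complex solutions of `5 C_n(x) = 6` are real -/
theorem real_of_root {n : ℕ} (hn : 1 ≤ n) {x : ℂ} (hx : 5 * (Chebyshev.C ℂ n).eval x = 6) :
    (starRingEnd ℂ) x = x := by
  -- write `x = z + 1/z`
  obtain ⟨z, hz⟩ : ∃ z : ℂ, z * z - x * z + 1 = 0 := by
    obtain ⟨s, hs⟩ := IsAlgClosed.exists_pow_nat_eq (x ^ 2 - 4) (n := 2) (by norm_num)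
    refine ⟨(x + s) / 2, ?_⟩
    have : s ^ 2 = x ^ 2 - 4 := hs
    linear_combination (1 / 4 : ℂ) * this
  have hz0 : z ≠ 0 := by
    rintro rfl
    simp at hz
  have hxz : x = z + z⁻¹ := by
    field_simp
    linear_combination -hz
  have hn' : (Chebyshev.C ℂ n).eval x = z ^ n + (z⁻¹) ^ n := by
    rw [hxz]
    exact eval_C_add_inv n hz0
  rw [hn'] at hx
  set w : ℂ := z ^ n with hw
  have hw0 : w ≠ 0 := pow_ne_zero n hz0
  have hwi : (z⁻¹) ^ n = w⁻¹ := by rw [inv_pow]
  rw [hwi] at hx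
  have hq : 5 * w ^ 2 - 6 * w + 5 = 0 := by
    field_simp at hx
    linear_combination hx
  -- `|w| = 1`
  have hnorm : Complex.normSq w = 1 := by
    have hre := congrArg Complex.re hq
    have him := congrArg Complex.im hq
    simp [pow_two] at hre him
    have him' : w.im * (10 * w.re - 6) = 0 := by linarith
    rw [Complex.normSq_apply]
    rcases mul_eq_zero.1 him' with h | h
    · rw [h] at hre
      nlinarith [sq_nonneg (w.re - 3 / 5)]
    · have h5 : w.re = 3 / 5 := by linarith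
      rw [h5] at hre ⊢
      linarith
  have hznorm : Complex.normSq z = 1 := by
    rw [hw, map_pow] at hnorm
    exact (pow_eq_one_iff_of_nonneg (Complex.normSq_nonneg z) (by omega)).1 hnorm
  have hconj : (starRingEnd ℂ) z = z⁻¹ := by
    rw [Complex.inv_def, hznorm]
    simp
  rw [hxz, map_add, map_inv₀, hconj, inv_inv, add_comm]

/-- the field -/
abbrev KF (n : ℕ) : Type := AdjoinRoot (gQ n)

section

variable (n : ℕ) [hn : Fact (1 ≤ n)]

instance : Fact (Irreducible (gQ n)) := ⟨gQ_irreducible hn.out⟩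

instance : NumberField (KF n) where
  to_charZero := charZero_of_injective_algebraMap (algebraMap ℚ (KF n)).injective
  to_finiteDimensional := (AdjoinRoot.powerBasis (gQ_irreducible hn.out).ne_zero).finite

theorem finrank_KF : Module.finrank ℚ (KF n) = n := by
  rw [(AdjoinRoot.powerBasis (gQ_irreducible hn.out).ne_zero).finrank,
    AdjoinRoot.powerBasis_dim, gQ_natDegree hn.out]

theorem aeval_root : aeval (AdjoinRoot.root (gQ n)) (gQ n) = 0 := by
  rw [aeval_def]
  exact AdjoinRoot.eval₂_root (gQ n)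

theorem root_ne_zero : AdjoinRoot.root (gQ n) ≠ 0 := by
  intro h
  have h1 := aeval_root n
  rw [h, ← coeff_zero_eq_aeval_zero'] at h1
  have h2 : (gQ n).coeff 0 = 0 := (algebraMap ℚ (KF n)).injective (by rw [h1, map_zero])
  unfold gQ at h2
  rw [coeff_map, gpoly_coeff hn.out (Nat.zero_le _), Nat.sub_zero, fpoly_leadingCoeff hn.out] at h2
  norm_num at h2

/-- `θ = 1/η` -/
def theta : KF n := (AdjoinRoot.root (gQ n))⁻¹

theorem theta_root : 5 * (Chebyshev.C (KF n) n).eval (theta n) = 6 := by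
  unfold theta
  rw [← gQ_root_iff (inv_ne_zero (root_ne_zero n)), inv_inv]
  convert aeval_root n

theorem isReal_of_embedding (φ : KF n →+* ℂ) : NumberField.ComplexEmbedding.IsReal φ := by
  have hreal : (starRingEnd ℂ) (φ (theta n)) = φ (theta n) := by
    apply real_of_root hn.out
    have h := congrArg φ (theta_root n)
    rw [map_mul] at h
    have h2 : φ ((Chebyshev.C (KF n) n).eval (theta n)) = (Chebyshev.C ℂ n).eval (φ (theta n)) := by
      rw [← Chebyshev.map_C φ, eval_map, eval₂_hom]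
    rw [h2, map_ofNat, map_ofNat] at h
    exact h
  rw [NumberField.ComplexEmbedding.isReal_iff]
  have hroot : (starRingEnd ℂ) (φ (AdjoinRoot.root (gQ n))) = φ (AdjoinRoot.root (gQ n)) := by
    have h1 : AdjoinRoot.root (gQ n) = (theta n)⁻¹ := by unfold theta; rw [inv_inv]
    rw [h1, map_inv₀, map_inv₀, hreal]
  ext x
  · exact RingHom.congr_fun (RingHom.ext_rat
      ((NumberField.ComplexEmbedding.conjugate φ).comp (AdjoinRoot.of (gQ n)))
      (φ.comp (AdjoinRoot.of (gQ n)))) x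
  · exact hroot

theorem exists_ordering : Nonempty (Fin n ≃ (KF n →+* ℝ)) := by
  classical
  let F : (KF n →+* ℝ) → (KF n →+* ℂ) := fun ψ => Complex.ofRealHom.comp ψ
  have hinj : Function.Injective F := by
    intro a b hab
    refine RingHom.ext fun x => ?_
    have := RingHom.congr_fun hab x
    exact Complex.ofReal_injective this
  have hsurj : Function.Surjective F := by
    intro φ
    refine ⟨(isReal_of_embedding n φ).embedding, ?_⟩
    refine RingHom.ext fun x => ?_
    exact (isReal_of_embedding n φ).coe_embedding_apply x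
  have e : (KF n →+* ℝ) ≃ (KF n →+* ℂ) := Equiv.ofBijective F ⟨hinj, hsurj⟩
  have hcard : Fintype.card (KF n →+* ℂ) = n := by
    rw [NumberField.Embeddings.card (KF n) ℂ, finrank_KF]
  exact ⟨(e.trans (Fintype.equivFinOfCardEq hcard)).symm⟩

end

theorem eval_C_zero_ne {L : Type*} [Field L] [CharZero L] (d : ℕ) :
    5 * (Chebyshev.C L d).eval 0 ≠ 6 := by
  intro h
  have h1 : (Chebyshev.C L d).eval 0 = (((Chebyshev.C ℤ d).eval 0 : ℤ) : L) := by
    rw [← Chebyshev.map_C (Int.castRingHom L)]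
    simpa using Polynomial.eval_intCast_map (Int.castRingHom L) (Chebyshev.C ℤ d) 0
  rw [h1] at h
  have h2 : (5 : ℤ) * (Chebyshev.C ℤ d).eval 0 = 6 := by exact_mod_cast h
  omega

/-- Totally real fields of every composite degree with a proper nontrivial subfield. -/
theorem exists_field {d m : ℕ} (hd : 2 ≤ d) (hm : 2 ≤ m) :
    ∃ (K : Type) (_ : Field K) (_ : NumberField K), Module.finrank ℚ K = d * m ∧
      Nonempty (Fin (d * m) ≃ (K →+* ℝ)) ∧ ∃ (F : Subfield K) (β : K),
        F ≠ ⊤ ∧ β ∈ F ∧ IsIntegral ℤ β ∧ β ∉ (algebraMap ℚ K).range := by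
  have hdm : 1 ≤ d * m := by nlinarith
  have : Fact (1 ≤ d * m) := ⟨hdm⟩
  set n := d * m with hn
  refine ⟨KF n, inferInstance, inferInstance, finrank_KF n, exists_ordering n, ?_⟩
  set β0 : KF n := (Chebyshev.C (KF n) m).eval (theta n) with hβ0
  have h1 : 5 * (Chebyshev.C (KF n) d).eval β0 = 6 := by
    have h := theta_root n
    have h2 : (Chebyshev.C (KF n) (n : ℕ)) = (Chebyshev.C (KF n) d).comp (Chebyshev.C (KF n) m) := by
      rw [hn]
      push_cast
      exact Chebyshev.C_mul (KF (d * m)) d m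
    rw [h2, eval_comp] at h
    exact h
  have hβ0ne : β0 ≠ 0 := by
    intro h
    rw [h] at h1
    exact eval_C_zero_ne d h1
  have hroot : aeval β0⁻¹ (gQ d) = 0 := (gQ_root_iff hβ0ne).2 h1
  have hirr := gQ_irreducible (n := d) (by omega)
  have hint : IsIntegral ℚ β0⁻¹ := Algebra.IsIntegral.isIntegral _
  have hdeg : (minpoly ℚ β0⁻¹).natDegree = d := by
    rw [← minpoly.eq_of_irreducible hirr hroot, natDegree_mul_C, gQ_natDegree (by omega)]
    exact inv_ne_zero (leadingCoeff_ne_zero.2 hirr.ne_zero)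
  let F : IntermediateField ℚ (KF n) := IntermediateField.adjoin ℚ {β0⁻¹}
  have hF : Module.finrank ℚ F = d := by
    rw [IntermediateField.adjoin.finrank hint, hdeg]
  have hFtop : F ≠ ⊤ := by
    intro h
    rw [h, IntermediateField.finrank_top', finrank_KF] at hF
    nlinarith
  have hnr : β0⁻¹ ∉ (algebraMap ℚ (KF n)).range := by
    intro h
    have h2 := minpoly.natDegree_eq_one_iff.2 h
    omega
  obtain ⟨c, hc0, hc⟩ := IsAlgebraic.exists_integral_multiple
    ((IsFractionRing.isAlgebraic_iff ℤ ℚ (KF n)).2 (Algebra.IsAlgebraic.isAlgebraic β0⁻¹))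
  refine ⟨F.toSubfield, c • β0⁻¹, ?_, ?_, hc, ?_⟩
  · intro h
    apply hFtop
    rw [eq_top_iff]
    intro x _
    have : x ∈ F.toSubfield := by rw [h]; trivial
    exact this
  · exact zsmul_mem (IntermediateField.mem_adjoin_simple_self ℚ β0⁻¹) c
  · rintro ⟨q, hq⟩
    apply hnr
    refine ⟨q / c, ?_⟩
    rw [map_div₀, hq, zsmul_eq_mul]
    have : (c : KF n) ≠ 0 := by exact_mod_cast hc0
    rw [map_intCast]
    field_simp

end

end Vale.Agent.H1.RealField
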