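import Vale.Agent.H1.P007Exists

/-! The packet is finite. -/

namespace Vale.Agent.H1.P007

open MeasureTheory Filter Topology Matrix Module NumberField

noncomputable section

/-- Finitely many subgroups lie between `c J` and `J`, for `J` finitely generated. -/
theorem finite_between {K : Type} [Field K] {J : Submodule ℤ K} (hJ : J.FG) {c : ℤ} (hc : c ≠ 0) :
    {S : Submodule ℤ K | S ≤ J ∧ ∀ y ∈ J, (c : K) * y ∈ S}.Finite := by
  obtain ⟨r, b, hb⟩ := Submodule.fg_iff_exists_fin_generating_family.1 hJ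
  let T : Set K := Set.range fun a : Fin r → Fin c.natAbs => ∑ i, (((a i : ℕ) : ℤ) : K) * b i
  have hT : T.Finite := Set.finite_range _
  have hcov : ∀ x ∈ J, ∃ t ∈ T, ∃ y ∈ J, x = t + (c : K) * y := by
    intro x hx
    rw [← hb] at hx
    obtain ⟨z, hz⟩ := (Submodule.mem_span_range_iff_exists_fun ℤ).1 hx
    have hlt : ∀ i, (z i % c).toNat < c.natAbs := by
      intro i
      have h1 := Int.emod_nonneg (z i) hc
      have h2 := Int.emod_lt_abs (z i) hc
      rw [Int.abs_eq_natAbs] at h2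
      omega
    refine ⟨_, ⟨fun i => ⟨(z i % c).toNat, hlt i⟩, rfl⟩, ∑ i, (z i / c) • b i, ?_, ?_⟩
    · exact Submodule.sum_mem _ fun i _ => Submodule.smul_mem _ _ (by
        rw [← hb]
        exact Submodule.subset_span ⟨i, rfl⟩)
    · rw [← hz, Finset.mul_sum, ← Finset.sum_add_distrib]
      apply Finset.sum_congr rfl
      intro i _
      rw [zsmul_eq_mul, zsmul_eq_mul]
      have h1 := Int.emod_nonneg (z i) hc
      have h2 : (((z i % c).toNat : ℕ) : ℤ) = z i % c := Int.toNat_of_nonneg h1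
      change ((z i : ℤ) : K) * b i = ((((z i % c).toNat : ℕ) : ℤ) : K) * b i +
        (c : K) * (((z i / c : ℤ) : K) * b i)
      rw [h2]
      have h3 : z i = z i % c + c * (z i / c) := (Int.emod_add_mul_ediv (z i) c).symm
      have h4 : ((z i : ℤ) : K) = ((z i % c : ℤ) : K) + (c : K) * ((z i / c : ℤ) : K) := by
        conv_lhs => rw [h3]
        push_cast
        ring
      rw [h4]
      ring
  refine Set.Finite.of_finite_image (f := fun S : Submodule ℤ K => (S : Set K) ∩ T) ?_ ?_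
  · apply hT.finite_subsets.subset
    rintro _ ⟨S, -, rfl⟩
    exact Set.inter_subset_right
  · intro S hS S' hS' h
    have key : ∀ S S' : Submodule ℤ K, (S ≤ J ∧ ∀ y ∈ J, (c : K) * y ∈ S) →
        (S' ≤ J ∧ ∀ y ∈ J, (c : K) * y ∈ S') → (S : Set K) ∩ T = (S' : Set K) ∩ T → S ≤ S' := by
      intro S S' hS hS' h x hx
      obtain ⟨t, ht, y, hy, rfl⟩ := hcov x (hS.1 hx)
      have h1 : t ∈ (S : Set K) ∩ T := by
        refine ⟨?_, ht⟩
        have : t = (t + (c : K) * y) - (c : K) * y := by ring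
        rw [this]
        exact S.sub_mem hx (hS.2 y hy)
      rw [h] at h1
      exact S'.add_mem h1.1 (hS'.2 y hy)
    exact le_antisymm (key S S' hS hS' h) (key S' S hS' hS h.symm)

section

variable {K : Type} [Field K] [NumberField K]

/-- an ideal of the ring of integers as a subgroup of `K` -/
def toMod (B : Ideal (𝓞 K)) : Submodule ℤ K :=
  Submodule.map ((Algebra.linearMap (𝓞 K) K).restrictScalars ℤ) (B.restrictScalars ℤ)

omit [NumberField K] in
theorem mem_toMod {B : Ideal (𝓞 K)} {x : K} : x ∈ toMod B ↔ ∃ b ∈ B, (b : K) = x := Iff.rfl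

theorem toMod_fg (B : Ideal (𝓞 K)) : (toMod B).FG := by
  apply Submodule.FG.map
  exact IsNoetherian.noetherian _

/-- finitely many invertible ideals up to scaling -/
theorem exists_finite_reps {O : Subring K} (hO : IsOrder O) :
    ∃ R : Set (Submodule ℤ K), R.Finite ∧ ∀ I, IsInvertibleIdeal O I →
      ∃ β : K, β ≠ 0 ∧ ∃ S ∈ R, ∀ x, x ∈ I ↔ ∃ y ∈ S, x = β * y := by
  obtain ⟨c, hc0, hc⟩ := RealUnits.exists_conductor hO.2
  have hcK : (c : K) ≠ 0 := by exact_mod_cast hc0
  choose B hB using (ClassGroup.mk0_surjective (R := 𝓞 K))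
  refine ⟨⋃ C : ClassGroup (𝓞 K), {S | S ≤ toMod (B C : Ideal (𝓞 K)) ∧
    ∀ y ∈ toMod (B C : Ideal (𝓞 K)), (c : K) * y ∈ S}, ?_, ?_⟩
  · exact Set.finite_iUnion fun C => finite_between (toMod_fg _) hc0
  · rintro I ⟨hI, J, hJ, hIJ⟩
    have h1 : (1 : K) ∈ I * J := (hIJ 1).2 O.one_mem
    have hI0 : I ≠ ⊥ := by
      rintro rfl
      rw [Submodule.bot_mul] at h1
      exact one_ne_zero ((Submodule.mem_bot ℤ).1 h1)
    have hJ0 : J ≠ ⊥ := by
      rintro rfl
      rw [Submodule.mul_bot] at h1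
      exact one_ne_zero ((Submodule.mem_bot ℤ).1 h1)
    obtain ⟨x0, hx0, hx0'⟩ := (Submodule.ne_bot_iff _).1 hI0
    obtain ⟨y0, hy0, hy0'⟩ := (Submodule.ne_bot_iff _).1 hJ0
    obtain ⟨m, hm0, -⟩ := hO.2 y0
    have hd : ∀ x ∈ I, y0 * x ∈ O := by
      intro x hx
      rw [mul_comm]
      exact (hIJ _).1 (Submodule.mul_mem_mul hx hy0)
    let A : Ideal (𝓞 K) := Ideal.span {a | ∃ y ∈ I, (a : K) = y0 * y}
    have hA0 : A ≠ ⊥ := by
      intro h
      have hint : IsIntegral ℤ (y0 * x0) := hO.1 _ (hd x0 hx0)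
      let a0 : 𝓞 K := ⟨y0 * x0, hint⟩
      have h2 : a0 ∈ A := Ideal.subset_span ⟨x0, hx0, rfl⟩
      rw [h, Ideal.mem_bot] at h2
      have h3 := congrArg (algebraMap (𝓞 K) K) h2
      rw [map_zero] at h3
      exact mul_ne_zero hy0' hx0' h3
    let A' : nonZeroDivisors (Ideal (𝓞 K)) := ⟨A, mem_nonZeroDivisors_of_ne_zero hA0⟩
    obtain ⟨x, y, hx, hy, hxy⟩ := ClassGroup.mk0_eq_mk0_iff.1
      (hB (ClassGroup.mk0 A')).symm
    set C := ClassGroup.mk0 A' with hC
    have hxK : (x : K) ≠ 0 := by exact_mod_cast hx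
    have hyK : (y : K) ≠ 0 := by exact_mod_cast hy
    have hAc : ∀ a ∈ A, ∀ r : 𝓞 K, ∃ z ∈ I, (c : K) * r * a = y0 * z := by
      intro a ha
      induction ha using Submodule.span_induction with
      | mem a ha =>
        obtain ⟨z, hz, haz⟩ := ha
        intro r
        refine ⟨((c : K) * r) * z, hI _ (hc r) z hz, ?_⟩
        rw [haz]
        ring
      | zero =>
        intro r
        exact ⟨0, I.zero_mem, by simp⟩
      | add a b _ _ ha hb =>
        intro r
        obtain ⟨z, hz, h1⟩ := ha r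
        obtain ⟨w, hw, h2⟩ := hb r
        refine ⟨z + w, I.add_mem hz hw, ?_⟩
        have h3 : ((a + b : 𝓞 K) : K) = (a : K) + (b : K) := rfl
        rw [h3, mul_add, h1, h2, mul_add]
      | smul s a _ ha =>
        intro r
        obtain ⟨z, hz, h1⟩ := ha (r * s)
        refine ⟨z, hz, ?_⟩
        rw [← h1]
        have h3 : ((s • a : 𝓞 K) : K) = (s : K) * (a : K) := rfl
        have h4 : ((r * s : 𝓞 K) : K) = (r : K) * (s : K) := rfl
        rw [h3, h4]
        ring
    let β : K := (y : K) / ((x : K) * y0)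
    have hβ : β ≠ 0 := div_ne_zero hyK (mul_ne_zero hxK hy0')
    let S : Submodule ℤ K := I.comap (LinearMap.mulLeft ℤ β)
    have hS : ∀ z, z ∈ S ↔ β * z ∈ I := fun z => Iff.rfl
    refine ⟨β, hβ, S, Set.mem_iUnion.2 ⟨C, ?_, ?_⟩, ?_⟩
    · intro z hz
      rw [hS] at hz
      have hint : IsIntegral ℤ (y0 * (β * z)) := hO.1 _ (hd _ hz)
      let a : 𝓞 K := ⟨y0 * (β * z), hint⟩
      have ha : a ∈ A := Ideal.subset_span ⟨β * z, hz, rfl⟩
      have h2 : x * a ∈ Ideal.span {x} * A := Ideal.mul_mem_mul (Ideal.mem_span_singleton_self x) ha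
      have h3 : x * a ∈ Ideal.span {y} * ((B C : Ideal (𝓞 K))) := by
        rw [← hxy]; exact h2
      obtain ⟨b, hb, hab⟩ := Ideal.mem_span_singleton_mul.1 h3
      refine mem_toMod.2 ⟨b, hb, ?_⟩
      have h4 := congrArg (algebraMap (𝓞 K) K) hab
      rw [map_mul, map_mul] at h4
      change (y : K) * (b : K) = (x : K) * (y0 * (β * z)) at h4
      have h5 : (x : K) * (y0 * (β * z)) = (y : K) * z := by
        simp only [β]
        field_simp
      rw [h5] at h4
      exact mul_left_cancel₀ hyK h4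
    · intro z hz
      obtain ⟨b, hb, rfl⟩ := mem_toMod.1 hz
      have h2 : y * b ∈ Ideal.span {x} * A := by
        have : y * b ∈ Ideal.span {y} * ((B C : Ideal (𝓞 K))) :=
          Ideal.mul_mem_mul (Ideal.mem_span_singleton_self y) hb
        rw [← hxy] at this
        exact this
      obtain ⟨a, ha, hab⟩ := Ideal.mem_span_singleton_mul.1 h2
      obtain ⟨w, hw, h3⟩ := hAc a ha 1
      rw [hS]
      have h4 := congrArg (algebraMap (𝓞 K) K) hab
      rw [map_mul, map_mul] at h4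
      change (x : K) * (a : K) = (y : K) * (b : K) at h4
      have h5 : β * ((c : K) * (b : K)) = w := by
        have h6 : (c : K) * (a : K) = y0 * w := by
          rw [← h3]
          have : (((1 : 𝓞 K)) : K) = 1 := rfl
          rw [this]
          ring
        simp only [β]
        rw [div_mul_eq_mul_div, div_eq_iff (mul_ne_zero hxK hy0')]
        linear_combination (-(c : K)) * h4 + (x : K) * h6
      rw [h5]
      exact hw
    · intro z
      constructor
      · intro hz
        refine ⟨β⁻¹ * z, ?_, ?_⟩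
        · rw [hS, mul_inv_cancel_left₀ hβ]
          exact hz
        · rw [mul_inv_cancel_left₀ hβ]
      · rintro ⟨w, hw, rfl⟩
        exact hw

end

variable {n : ℕ}

theorem torusOrbit_act (x : X n) (u : Fin (n - 1) → ℝ) :
    torusOrbit (x.act (torusElt u)) = torusOrbit x := by
  ext y
  constructor
  · rintro ⟨v, rfl⟩
    exact ⟨u + v, by rw [X.act_act, torusElt_add]⟩
  · rintro ⟨v, rfl⟩
    refine ⟨v - u, ?_⟩
    rw [X.act_act, ← torusElt_add]
    congr 2
    abel

/-- scaling an ideal moves the lattice point within its orbit, up to signs -/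
theorem exists_move {K : Type} [Field K] (hn : n ≠ 0) {σ : Fin n ≃ (K →+* ℝ)}
    {I S : Submodule ℤ K} {β : K} (hβ : β ≠ 0) (hIS : ∀ x, x ∈ I ↔ ∃ y ∈ S, x = β * y)
    {w : Fin n → ℝ} (hw : ∀ j, w j = 1 ∨ w j = -1) {x : X n} (hx : IsLatticePoint σ I w x) :
    ∃ w' : Fin n → ℝ, (∀ j, w' j = 1 ∨ w' j = -1) ∧ ∃ y, IsLatticePoint σ S w' y ∧
      torusOrbit x = torusOrbit y := by
  obtain ⟨m, rfl⟩ : ∃ m, n = m + 1 := ⟨n - 1, by omega⟩
  obtain ⟨g, t, rfl, ht, hg⟩ := hx
  have hσ : ∀ j, σ j β ≠ 0 := fun j => (map_ne_zero (σ j)).2 hβ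
  have habs : ∀ j, 0 < |σ j β| := fun j => abs_pos.2 (hσ j)
  let L : ℝ := (∑ j, Real.log |σ j β|) / ((m : ℝ) + 1)
  let u : Fin m → ℝ := fun i => L - Real.log |σ (Fin.castSucc i) β|
  have hu : ∀ j, extendZeroSum (n := m + 1) u j = L - Real.log |σ j β| := by
    intro j
    refine Fin.lastCases ?_ (fun i => ?_) j
    · have h1 : extendZeroSum (n := m + 1) u (Fin.last m) = -∑ i, u i := by
        simp [extendZeroSum]
      rw [h1]
      simp only [u]
      rw [Finset.sum_sub_distrib, Finset.sum_const, Finset.card_univ, Fintype.card_fin,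
        nsmul_eq_mul]
      have h2 : (∑ j, Real.log |σ j β|) = ((m : ℝ) + 1) * L := by
        simp only [L]
        field_simp
      rw [Fin.sum_univ_castSucc] at h2
      linarith
    · simp [extendZeroSum, u]
  have hexp : ∀ j, Real.exp (extendZeroSum (n := m + 1) u j) = Real.exp L / |σ j β| := by
    intro j
    rw [hu, Real.exp_sub, Real.exp_log (habs j)]
  let w' : Fin (m + 1) → ℝ := fun j => w j * (σ j β / |σ j β|)
  refine ⟨w', ?_, (X.mk g).act (torusElt u), ⟨g * torusElt u, t * Real.exp L, rfl, by positivity, ?_⟩,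
    (torusOrbit_act _ _).symm⟩
  · intro j
    have h1 : σ j β / |σ j β| = 1 ∨ σ j β / |σ j β| = -1 := by
      rcases abs_cases (σ j β) with ⟨h, _⟩ | ⟨h, _⟩
      · left; rw [h, div_self (hσ j)]
      · right; rw [h, div_neg, div_self (hσ j)]
    rcases hw j with h | h <;> rcases h1 with h' | h' <;> simp [w', h, h']
  · ext v
    rw [mem_rowLattice_mul_torus, hg]
    constructor
    · rintro ⟨z, ⟨α, hα, hz⟩, hv⟩
      obtain ⟨y, hy, rfl⟩ := (hIS α).1 hα
      refine ⟨y, hy, fun j => ?_⟩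
      rw [hv j, hz j, hexp j, map_mul]
      simp only [w']
      ring
    · rintro ⟨y, hy, hv⟩
      refine ⟨fun j => t * σ j (β * y) * w j, ⟨β * y, (hIS _).2 ⟨y, hy, rfl⟩, fun _ => rfl⟩, ?_⟩
      intro j
      rw [hv j]
      change _ = t * σ j (β * y) * w j * Real.exp (extendZeroSum u j)
      rw [hexp j, map_mul]
      simp only [w']
      ring

theorem packet_finite {K : Type} [Field K] [NumberField K] (hfr : finrank ℚ K = n)
    (σ : Fin n ≃ (K →+* ℝ)) {O : Subring K} (hO : IsOrder O) : (packet σ O).Finite := by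
  have hn : n ≠ 0 := by
    have : 0 < finrank ℚ K := finrank_pos
    omega
  obtain ⟨R, hR, hRI⟩ := exists_finite_reps hO
  have hW : {w : Fin n → ℝ | ∀ j, w j = 1 ∨ w j = -1}.Finite := by
    have h1 : (Set.pi Set.univ fun _ : Fin n => ({1, -1} : Set ℝ)).Finite :=
      Set.Finite.pi fun _ => Set.toFinite _
    apply h1.subset
    intro w hw j _
    exact hw j
  have h2 : (⋃ S ∈ R, ⋃ w ∈ {w : Fin n → ℝ | ∀ j, w j = 1 ∨ w j = -1},
      {o : Set (X n) | ∃ y, IsLatticePoint σ S w y ∧ o = torusOrbit y}).Finite := by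
    refine hR.biUnion fun S _ => hW.biUnion fun w _ => Set.Subsingleton.finite ?_
    rintro _ ⟨y, hy, rfl⟩ _ ⟨z, hz, rfl⟩
    rw [isLatticePoint_unique hn hy hz]
  apply h2.subset
  rintro _ ⟨I, w, x, hI, hw, hx, rfl⟩
  obtain ⟨β, hβ, S, hS, hIS⟩ := hRI I hI
  obtain ⟨w', hw', y, hy, hxy⟩ := exists_move hn hβ hIS hw hx
  rw [Set.mem_iUnion₂]
  refine ⟨S, hS, ?_⟩
  rw [Set.mem_iUnion₂]
  exact ⟨w', hw', y, hy, hxy⟩

/-- The packet measure is a probability measure. -/
theorem isProbabilityMeasure_packetMeasure {K : Type} [Field K] [NumberField K]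
    (hfr : finrank ℚ K = n) (σ : Fin n ≃ (K →+* ℝ)) {O : Subring K} (hO : IsOrder O) :
    IsProbabilityMeasure (packetMeasure σ O) := by
  have hfin : Finite (packet σ O) := packet_finite hfr σ hO
  have hfin' : Fintype (packet σ O) := Fintype.ofFinite _
  have hmass : ∀ o : packet σ O, orbitMeasure (o : Set (X n)) Set.univ ≠ 0 ∧
      orbitMeasure (o : Set (X n)) Set.univ ≠ ⊤ := by
    rintro ⟨_, I, w, x, hI, hw, hx, rfl⟩
    exact orbitMeasure_univ (span_stab hfr hO hI hx)
  obtain ⟨x, hx⟩ := exists_latticePoint hfr σ hO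
  let o : packet σ O := ⟨torusOrbit x, ordMod O, fun _ => 1, x, isInvertibleIdeal_self O,
    fun _ => Or.inl rfl, hx, rfl⟩
  have h0 : (∑' o : packet σ O, orbitMeasure (o : Set (X n)) Set.univ) ≠ 0 := by
    intro h
    exact (hmass o).1 (ENNReal.tsum_eq_zero.1 h o)
  have h1 : (∑' o : packet σ O, orbitMeasure (o : Set (X n)) Set.univ) ≠ ⊤ := by
    rw [tsum_fintype]
    exact ENNReal.sum_ne_top.2 fun o _ => (hmass o).2
  constructor
  unfold packetMeasure
  rw [Measure.smul_apply, smul_eq_mul, Measure.sum_apply _ MeasurableSet.univ]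
  exact ENNReal.inv_mul_cancel h0 h1

end

end Vale.Agent.H1.P007
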