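import Vale.Agent.H1.P007Orders
import Vale.Agent.H1.P007Field

/-! Failure of the higher Duke statement in composite degree. -/

namespace Vale.Agent.H1.P007

open MeasureTheory Filter Topology

noncomputable section

/-- A totally real field with a proper subfield different from `ℚ` gives a counterexample. -/
theorem not_weaklyTendsto_relDatum {K : Type} [Field K] [NumberField K] {n : ℕ}
    (hn : Module.finrank ℚ K = n) (σ : Fin n ≃ (K →+* ℝ)) (F : Subfield K)
    {β : K} (hβF : β ∈ F) (hβ : IsIntegral ℤ β) (hβr : β ∉ (algebraMap ℚ K).range)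
    {m : Measure (X n)} (hm : IsInvProb m) :
    ¬ Equidistributes (relDatum hn σ F) m := by
  obtain ⟨a, b, hab⟩ := exists_ne_of_not_rational (relDatum hn σ F 0) hβr
  have hab' : σ a β ≠ σ b β := hab
  apply not_weaklyTendsto hm (isClosed_stableSet (fun j => σ j β)) (stableSet_ne_univ hab')
  apply Eventually.frequently
  exact Eventually.of_forall fun i =>
    packetMeasure_compl (σ := (relDatum hn σ F i).σ) (O := (relDatum hn σ F i).O) (β := β)
      (mem_relOrder F i hβ hβF)

theorem not_higherDuke {n : ℕ} (hn : 4 ≤ n) (hc : ¬ n.Prime) {m : Measure (X n)}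
    (hm : IsInvProb m) : ¬ HigherDuke n m := by
  obtain ⟨d, hd1, hd2, hd3⟩ := Nat.exists_dvd_of_not_prime2 (by omega : 2 ≤ n) hc
  obtain ⟨k, rfl⟩ := hd1
  have hk : 2 ≤ k := by
    by_contra hlt
    have : k = 0 ∨ k = 1 := by omega
    rcases this with h | h
    · subst h; omega
    · subst h; omega
  obtain ⟨K, iF, iN, hfr, ⟨σ⟩, F, β, hF, hβF, hβi, hβr⟩ := RealField.exists_field hd2 hk
  intro hD
  exact not_weaklyTendsto_relDatum hfr σ F hβF hβi hβr hm
    (hD (relDatum hfr σ F) (tendsto_absDisc hfr σ F hF))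

end

end Vale.Agent.H1.P007
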