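import Vale.Agent.H1.P007Max
import Vale.Agent.H1.P007Main
import Vale.Agent.H1.P007Finite

/-! Final forms. -/

namespace Vale.Agent.H1.P007

open MeasureTheory Filter Topology Polynomial

noncomputable section

variable {n : ℕ}

/-- along a subsequence the conjugates are constant -/
theorem exists_subseq (D : ℕ → Datum n) {f : ℤ[X]} (hf : f ≠ 0)
    (h : ∀ i, ∃ β ∈ (D i).O, β ∉ (algebraMap ℚ (D i).K).range ∧ aeval β f = 0) :
    ∃ d : Fin n → ℝ, (∃ a b, d a ≠ d b) ∧ ∃ ψ : ℕ → ℕ, StrictMono ψ ∧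
      ∀ i, ∃ β ∈ (D (ψ i)).O, ∀ j, (D (ψ i)).σ j β = d j := by
  classical
  choose β hβ hnr hr using h
  set P : Set (Fin n → ℝ) := Set.pi Set.univ fun _ => f.rootSet ℝ with hP
  have hPfin : P.Finite := Set.Finite.pi' (fun _ => Polynomial.rootSet_finite f ℝ) |>.subset (by
    intro x hx j
    exact hx j (Set.mem_univ _))
  have hmem : ∀ i, (fun j => (D i).σ j (β i)) ∈ P := by
    intro i j _
    rw [Polynomial.mem_rootSet]
    refine ⟨hf, ?_⟩
    have h1 : aeval ((D i).σ j (β i)) f = (D i).σ j (aeval (β i) f) := by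
      have := Polynomial.aeval_algHom_apply ((D i).σ j).toIntAlgHom (β i) f
      simpa using this
    rw [h1, hr, map_zero]
  have hPf : Finite P := hPfin
  obtain ⟨⟨d, hd⟩, hinf⟩ := Finite.exists_infinite_fiber fun i : ℕ =>
    (⟨fun j => (D i).σ j (β i), hmem i⟩ : P)
  set S : Set ℕ := (fun i : ℕ => (⟨fun j => (D i).σ j (β i), hmem i⟩ : P)) ⁻¹' {⟨d, hd⟩} with hS
  have hSinf : S.Infinite := Set.infinite_coe_iff.1 hinf
  have hSd : ∀ i ∈ S, ∀ j, (D i).σ j (β i) = d j := by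
    intro i hi j
    have h1 : (⟨fun j => (D i).σ j (β i), hmem i⟩ : P) = ⟨d, hd⟩ := hi
    exact congrFun (congrArg Subtype.val h1) j
  refine ⟨d, ?_, Nat.nth (· ∈ S), Nat.nth_strictMono hSinf, ?_⟩
  · obtain ⟨i, hi⟩ := hSinf.nonempty
    obtain ⟨a, b, hab⟩ := exists_ne_of_not_rational (D i) (hnr i)
    rw [hSd i hi a, hSd i hi b] at hab
    exact ⟨a, b, hab⟩
  · intro i
    exact ⟨_, hβ _, hSd _ (Nat.nth_mem_of_infinite hSinf i)⟩

/-- Counterexamples by maximal orders: all packet measures vanish on a fixed open set. -/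
theorem exists_maximal (hn : 4 ≤ n) (hc : ¬ n.Prime) : ∃ D : ℕ → Datum n,
    (∀ i, ∀ x : (D i).K, IsIntegral ℤ x → x ∈ (D i).O) ∧
    Tendsto (fun i => absDisc (D i).O) atTop atTop ∧
    ∃ U : Set (X n), IsOpen U ∧ U.Nonempty ∧ ∀ i, packetMeasure (D i).σ (D i).O U = 0 := by
  obtain ⟨d, ⟨k, rfl⟩, hd, hd3⟩ := Nat.exists_dvd_of_not_prime2 (by omega : 2 ≤ n) hc
  have hk : 2 ≤ k := by
    by_contra hlt
    have : k = 0 ∨ k = 1 := by omega
    rcases this with h | h
    · subst h; omega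
    · subst h; omega
  obtain ⟨c, ⟨a, b, hab⟩, ψ, hψ, hroot⟩ := exists_subseq (maxDatum hd hk) (fixedPoly_ne_zero hd)
    (exists_root_maxDatum hd hk)
  refine ⟨fun i => maxDatum hd hk (ψ i), fun i x hx => hx,
    (tendsto_maxDatum hd hk).comp hψ.tendsto_atTop, (stableSet c)ᶜ,
    (isClosed_stableSet c).isOpen_compl, ?_, ?_⟩
  · rw [Set.nonempty_compl]
    exact stableSet_ne_univ hab
  · intro i
    obtain ⟨β, hβ, hβd⟩ := hroot i
    have h1 := packetMeasure_compl (σ := (maxDatum hd hk (ψ i)).σ) hβ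
    have h2 : (fun j => (maxDatum hd hk (ψ i)).σ j β) = c := funext hβd
    rw [h2] at h1
    exact h1

/-- If the measures vanish on a fixed nonempty open set there is no convergence to the invariant
measure. -/
theorem not_weaklyTendsto_of_missesOpen {m : Measure (X n)} (hm : IsInvProb m)
    {μ : ℕ → Measure (X n)} (h : ∃ U : Set (X n), IsOpen U ∧ U.Nonempty ∧ ∀ i, μ i U = 0) :
    ¬ WeaklyTendsto μ m := by
  obtain ⟨U, hU, hne, h⟩ := h
  refine not_weaklyTendsto hm hU.isClosed_compl ?_ ?_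
  · intro h
    rw [Set.compl_univ_iff] at h
    exact hne.ne_empty h
  · rw [compl_compl]
    exact (Eventually.of_forall fun i => h i).frequently

theorem exists_of_ne_bot {K : Type} [Field K] [NumberField K] {F : Subfield K} (hF : F ≠ ⊥) :
    ∃ x ∈ F, x ∉ (algebraMap ℚ K).range := by
  by_contra hcon
  push Not at hcon
  apply hF
  rw [eq_bot_iff]
  intro x hx
  obtain ⟨r, rfl⟩ := hcon x hx
  rw [eq_ratCast]
  exact SubfieldClass.ratCast_mem _ r

/-- in every totally real field with a proper subfield other than `ℚ` some orders fail -/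
theorem exists_orders {K : Type} [Field K] [NumberField K] (hfr : Module.finrank ℚ K = n)
    (σ : Fin n ≃ (K →+* ℝ)) (F : Subfield K) (hF : F ≠ ⊤)
    (hF2 : ∃ x ∈ F, x ∉ (algebraMap ℚ K).range) :
    ∃ O : ℕ → Subring K, (∀ i, IsOrder (O i)) ∧
      Tendsto (fun i => absDisc (O i)) atTop atTop ∧
      ∃ U : Set (X n), IsOpen U ∧ U.Nonempty ∧ ∀ i, packetMeasure σ (O i) U = 0 := by
  obtain ⟨x, hx, hxr⟩ := hF2
  obtain ⟨m, hm, hmx⟩ := (isOrder_maxOrder K).2 x
  have hmF : (m : K) * x ∈ F := F.mul_mem (intCast_mem F m) hx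
  have hmr : (m : K) * x ∉ (algebraMap ℚ K).range := by
    rintro ⟨r, hr⟩
    apply hxr
    refine ⟨r / m, ?_⟩
    have hmK : (m : K) ≠ 0 := by exact_mod_cast hm
    rw [map_div₀, hr, map_intCast]
    field_simp
  obtain ⟨a, b, hab⟩ := exists_ne_of_not_rational (relDatum hfr σ F 0) hmr
  have hab' : σ a ((m : K) * x) ≠ σ b ((m : K) * x) := hab
  refine ⟨fun i => (relDatum hfr σ F i).O, fun i => (relDatum hfr σ F i).isOrder,
    tendsto_absDisc hfr σ F hF, (stableSet fun j => σ j ((m : K) * x))ᶜ,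
    (isClosed_stableSet _).isOpen_compl, ?_, ?_⟩
  · rw [Set.nonempty_compl]
    exact stableSet_ne_univ hab'
  · intro i
    exact packetMeasure_compl (σ := (relDatum hfr σ F i).σ) (O := (relDatum hfr σ F i).O)
      (mem_relOrder F i hmx hmF)

/-- Necessary condition for equidistribution, in terms of sizes. -/
theorem finite_small {m : Measure (X n)} (hm : IsInvProb m) (D : ℕ → Datum n)
    (hD : Equidistributes D m) (B : ℝ) :
    {i | ∃ β ∈ (D i).O, (∀ z : ℤ, β ≠ z) ∧ ∀ j, |(D i).σ j β| ≤ B}.Finite := by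
  classical
  let C := Nat.ceil (max B 1 ^ n * (n.choose (n / 2)))
  have hfin : {f : ℤ[X] | f.natDegree ≤ n ∧ ∀ i, f.coeff i ∈ Set.Icc (-C : ℤ) C}.Finite := by
    refine Set.Finite.of_finite_image (f := fun (f : ℤ[X]) (i : Fin (n + 1)) => f.coeff i) ?_ ?_
    · apply (Set.Finite.pi (t := fun _ : Fin (n + 1) => Set.Icc (-C : ℤ) C)
        fun _ => Set.finite_Icc _ _).subset
      rintro _ ⟨f, ⟨-, hf⟩, rfl⟩ i _
      exact hf i
    · intro f hf g hg hfg
      ext i
      by_cases hi : i ≤ n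
      · exact congrFun hfg ⟨i, by omega⟩
      · rw [Polynomial.coeff_eq_zero_of_natDegree_lt (by have := hf.1; omega),
          Polynomial.coeff_eq_zero_of_natDegree_lt (by have := hg.1; omega)]
  have hfin2 : (⋃ f ∈ {f : ℤ[X] | f.natDegree ≤ n ∧ ∀ i, f.coeff i ∈ Set.Icc (-C : ℤ) C},
      {i | f ≠ 0 ∧ ∃ β ∈ (D i).O, β ∉ (algebraMap ℚ (D i).K).range ∧ aeval β f = 0}).Finite := by
    refine hfin.biUnion fun f _ => ?_
    by_cases hf : f = 0
    · simp [hf]
    · exact (finite_of_equidistributes hm D hD hf).subset fun i hi => hi.2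
  apply hfin2.subset
  rintro i ⟨β, hβ, hz, hB⟩
  have hint : IsIntegral ℤ β := (D i).isOrder.1 β hβ
  have hnr : β ∉ (algebraMap ℚ (D i).K).range := by
    rintro ⟨q, rfl⟩
    have hq : IsIntegral ℤ q :=
      (isIntegral_algebraMap_iff (algebraMap ℚ (D i).K).injective).1 hint
    obtain ⟨z, rfl⟩ := IsIntegrallyClosed.isIntegral_iff.1 hq
    exact hz z (by simp)
  have hbd : ∀ φ : (D i).K →+* ℂ, ‖φ β‖ ≤ B := by
    intro φ
    obtain ⟨j, rfl⟩ := complex_embedding_eq (D i) φ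
    simpa using hB j
  have hmin := minpoly.isIntegrallyClosed_eq_field_fractions' ℚ hint
  refine Set.mem_biUnion (x := minpoly ℤ β) ⟨?_, fun k => ?_⟩
    ⟨minpoly.ne_zero hint, β, hβ, hnr, minpoly.aeval ℤ β⟩
  · rw [← (minpoly.monic hint).natDegree_map (algebraMap ℤ ℚ), ← hmin]
    exact (minpoly.natDegree_le β).trans (D i).finrank_eq.le
  · rw [Set.mem_Icc, ← abs_le, ← @Int.cast_le ℝ]
    have h1 := NumberField.Embeddings.coeff_bdd_of_norm_le hbd k
    rw [(D i).finrank_eq] at h1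
    refine (Eq.trans_le ?_ h1).trans (Nat.le_ceil _)
    rw [hmin, coeff_map, eq_intCast, Int.norm_cast_rat, Int.norm_eq_abs, Int.cast_abs]

theorem composite (n : ℕ) (hn : 4 ≤ n) (hc : ¬ n.Prime) :
    (∃ D : ℕ → Datum n, (∀ i, ∀ x : (D i).K, IsIntegral ℤ x → x ∈ (D i).O) ∧
      Tendsto (fun i => absDisc (D i).O) atTop atTop ∧
      ∃ U : Set (X n), IsOpen U ∧ U.Nonempty ∧ ∀ i, packetMeasure (D i).σ (D i).O U = 0) ∧
      ∀ m : Measure (X n), IsInvProb m → ¬ HigherDuke n m := by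
  refine ⟨?_, fun m hm => not_higherDuke hn hc hm⟩
  obtain ⟨D, h1, h2, U, hU, hne, hD⟩ := exists_maximal hn hc
  exact ⟨D, h1, h2, U, hU, hne, hD⟩

theorem general (n : ℕ) : (∀ m : Measure (X n), IsInvProb m →
    (∀ μ : ℕ → Measure (X n), (∃ U : Set (X n), IsOpen U ∧ U.Nonempty ∧ ∀ i, μ i U = 0) →
      ¬ WeaklyTendsto μ m) ∧
      ∀ D : ℕ → Datum n, Equidistributes D m → ∀ B : ℝ,
        {i | ∃ β ∈ (D i).O, (∀ z : ℤ, β ≠ z) ∧ ∀ j, |(D i).σ j β| ≤ B}.Finite) ∧
    ∀ D : Datum n, (packet D.σ D.O).Finite ∧ IsProbabilityMeasure (packetMeasure D.σ D.O) :=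
  ⟨fun _ hm => ⟨fun _ h => not_weaklyTendsto_of_missesOpen hm h,
    fun D hD B => finite_small hm D hD B⟩,
    fun D => ⟨packet_finite D.finrank_eq D.σ D.isOrder,
      isProbabilityMeasure_packetMeasure D.finrank_eq D.σ D.isOrder⟩⟩

end

end Vale.Agent.H1.P007
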