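import Mathlib

/-! Units of totally real fields and of their orders. -/

namespace Vale.Agent.H1.RealUnits

open NumberField NumberField.Units NumberField.Units.dirichletUnitTheorem Module

noncomputable section

variable {K : Type} [Field K] [NumberField K] {n : ℕ}

theorem complex_embedding_eq (hn : finrank ℚ K = n) (σ : Fin n ≃ (K →+* ℝ)) (φ : K →+* ℂ) :
    ∃ j, φ = Complex.ofRealHom.comp (σ j) := by
  classical
  let F : Fin n → (K →+* ℂ) := fun j => Complex.ofRealHom.comp (σ j)
  have hinj : Function.Injective F := by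
    intro i j hij
    apply σ.injective
    refine RingHom.ext fun x => ?_
    exact Complex.ofReal_injective (RingHom.congr_fun hij x)
  have hcard : Fintype.card (Fin n) = Fintype.card (K →+* ℂ) := by
    rw [Fintype.card_fin, NumberField.Embeddings.card K ℂ, hn]
  have hbij := (Fintype.bijective_iff_injective_and_card F).2 ⟨hinj, hcard⟩
  obtain ⟨j, hj⟩ := hbij.2 φ
  exact ⟨j, hj.symm⟩

/-- the infinite place of the `j`-th embedding -/
def place (σ : Fin n ≃ (K →+* ℝ)) (j : Fin n) : InfinitePlace K :=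
  InfinitePlace.mk (Complex.ofRealHom.comp (σ j))

theorem place_apply (σ : Fin n ≃ (K →+* ℝ)) (j : Fin n) (x : K) : place σ j x = |σ j x| := by
  unfold place
  rw [InfinitePlace.apply]
  change ‖((σ j x : ℝ) : ℂ)‖ = |σ j x|
  rw [Complex.norm_real, Real.norm_eq_abs]

theorem isReal_comp (σ : Fin n ≃ (K →+* ℝ)) (j : Fin n) :
    ComplexEmbedding.IsReal (Complex.ofRealHom.comp (σ j)) := by
  rw [ComplexEmbedding.isReal_iff]
  refine RingHom.ext fun x => ?_
  exact Complex.conj_ofReal _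

theorem mult_place (σ : Fin n ≃ (K →+* ℝ)) (j : Fin n) : (place σ j).mult = 1 :=
  InfinitePlace.IsReal.mult_eq_one ((InfinitePlace.isReal_mk_iff).2 (isReal_comp σ j))

theorem place_bijective (hn : finrank ℚ K = n) (σ : Fin n ≃ (K →+* ℝ)) :
    Function.Bijective (place σ) := by
  constructor
  · intro i j hij
    apply σ.injective
    have h := InfinitePlace.mk_eq_iff.1 hij
    have h2 : Complex.ofRealHom.comp (σ i) = Complex.ofRealHom.comp (σ j) := by
      rcases h with h | h
      · exact h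
      · rwa [ComplexEmbedding.isReal_iff.1 (isReal_comp σ i)] at h
    refine RingHom.ext fun x => ?_
    exact Complex.ofReal_injective (RingHom.congr_fun h2 x)
  · intro w
    obtain ⟨j, hj⟩ := complex_embedding_eq hn σ w.embedding
    refine ⟨j, ?_⟩
    unfold place
    rw [← hj, InfinitePlace.mk_embedding]

theorem sum_log_unit (hn : finrank ℚ K = n) (σ : Fin n ≃ (K →+* ℝ)) (ε : (𝓞 K)ˣ) :
    ∑ j, Real.log |σ j ((ε : 𝓞 K) : K)| = 0 := by
  classical
  have h := sum_mult_mul_log ε
  rw [← (Equiv.ofBijective (place σ) (place_bijective hn σ)).sum_comp] at h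
  rw [← h]
  apply Finset.sum_congr rfl
  intro j _
  change _ = ((place σ j).mult : ℝ) * Real.log (place σ j ((ε : 𝓞 K) : K))
  rw [mult_place, place_apply]
  simp

/-- a linear relation satisfied by the logarithms of all units is a multiple of the sum -/
theorem coeff_eq_of_relation (hn : finrank ℚ K = n) (σ : Fin n ≃ (K →+* ℝ)) (c : Fin n → ℝ)
    (hc : ∀ ε : (𝓞 K)ˣ, ∑ j, c j * Real.log |σ j ((ε : 𝓞 K) : K)| = 0) (i j : Fin n) :
    c i = c j := by
  classical
  let e : Fin n ≃ InfinitePlace K := Equiv.ofBijective (place σ) (place_bijective hn σ)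
  have he : ∀ j, e j = place σ j := fun _ => rfl
  set j0 := e.symm (w₀ : InfinitePlace K) with hj0
  let f : logSpace K →ₗ[ℝ] ℝ :=
    ∑ w : {w : InfinitePlace K // w ≠ w₀}, (c (e.symm w.1) - c j0) • LinearMap.proj w
  have hf : ∀ v : logSpace K, f v = ∑ w : {w : InfinitePlace K // w ≠ w₀},
      (c (e.symm w.1) - c j0) * v w := by
    intro v
    simp [f]
  have hzero : ∀ v ∈ (unitLattice K : Set (logSpace K)), f v = 0 := by
    rintro _ ⟨x, -, rfl⟩
    rw [hf]
    set ε : (𝓞 K)ˣ := x.toMul with hε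
    have h1 : ∀ w : {w : InfinitePlace K // w ≠ w₀},
        (logEmbedding K).toIntLinearMap x w = Real.log |σ (e.symm w.1) ((ε : 𝓞 K) : K)| := by
      intro w
      have hw : w.1 = place σ (e.symm w.1) := by
        rw [← he, Equiv.apply_symm_apply]
      change (w.1.mult : ℝ) * Real.log (w.1 ((ε : 𝓞 K) : K)) = _
      conv_lhs => rw [hw]
      rw [mult_place, place_apply]
      simp
    have h2 : ∑ w : {w : InfinitePlace K // w ≠ w₀}, (c (e.symm w.1) - c j0) *
        (logEmbedding K).toIntLinearMap x w =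
        ∑ w : InfinitePlace K, (c (e.symm w) - c j0) *
          Real.log |σ (e.symm w) ((ε : 𝓞 K) : K)| := by
      rw [Fintype.sum_eq_add_sum_subtype_ne _ (w₀ : InfinitePlace K)]
      rw [← hj0, sub_self, zero_mul, zero_add]
      exact Finset.sum_congr rfl fun w _ => by rw [h1 w]
    rw [h2, e.symm.sum_comp (fun j => (c j - c j0) * Real.log |σ j ((ε : 𝓞 K) : K)|)]
    simp_rw [sub_mul]
    rw [Finset.sum_sub_distrib, hc ε, ← Finset.mul_sum, sum_log_unit hn σ ε]
    ring
  have hf0 : f = 0 := by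
    have h1 : Submodule.span ℝ (unitLattice K : Set (logSpace K)) ≤ LinearMap.ker f := by
      rw [Submodule.span_le]
      intro v hv
      exact hzero v hv
    rw [unitLattice_span_eq_top] at h1
    exact LinearMap.ker_eq_top.1 (top_le_iff.1 h1)
  have hall : ∀ j, c j = c j0 := by
    intro j
    by_cases hj : e j = (w₀ : InfinitePlace K)
    · have : j = j0 := by rw [hj0, ← hj, Equiv.symm_apply_apply]
      rw [this]
    · have h1 := hf (Pi.single ⟨e j, hj⟩ 1)
      rw [hf0, LinearMap.zero_apply, Finset.sum_eq_single ⟨e j, hj⟩] at h1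
      · simp at h1
        linarith
      · intro w _ hw
        simp [hw]
      · intro h
        exact absurd (Finset.mem_univ _) h
  rw [hall i, hall j]

/-- the conductor: a positive integer `c` with `c O_K ⊆ O` -/
theorem exists_conductor {O : Subring K} (hO : ∀ x : K, ∃ m : ℤ, m ≠ 0 ∧ (m : K) * x ∈ O) :
    ∃ c : ℤ, c ≠ 0 ∧ ∀ y : 𝓞 K, (c : K) * (y : K) ∈ O := by
  classical
  obtain ⟨S, hS⟩ := (Module.Finite.fg_top : (⊤ : Submodule ℤ (𝓞 K)).FG)
  choose m hm0 hm using fun s : 𝓞 K => hO (s : K)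
  refine ⟨∏ s ∈ S, m s, ?_, ?_⟩
  · rw [Finset.prod_ne_zero_iff]
    exact fun s _ => hm0 s
  · intro y
    have hy : y ∈ Submodule.span ℤ (S : Set (𝓞 K)) := by rw [hS]; trivial
    induction hy using Submodule.span_induction with
    | mem x hx =>
      rw [← Finset.mul_prod_erase S _ hx]
      push_cast
      have h1 : (m x : K) * (∏ i ∈ S.erase x, (m i : K)) * (x : K) =
          ((∏ i ∈ S.erase x, m i : ℤ) : K) * ((m x : K) * (x : K)) := by
        push_cast
        ring
      rw [h1]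
      exact O.mul_mem (intCast_mem O _) (hm x)
    | zero => simp
    | add a b _ _ ha hb =>
      have h1 : ((a + b : 𝓞 K) : K) = (a : K) + (b : K) := rfl
      rw [h1, mul_add]
      exact O.add_mem ha hb
    | smul k x _ hx =>
      have h1 : (((k • x : 𝓞 K)) : K) = (k : K) * (x : K) := by
        rw [zsmul_eq_mul]
        simp
      rw [h1]
      have h2 : ((∏ s ∈ S, m s : ℤ) : K) * ((k : K) * (x : K)) =
          (k : K) * (((∏ s ∈ S, m s : ℤ) : K) * (x : K)) := by ring
      rw [h2]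
      exact O.mul_mem (intCast_mem O _) hx

/-- some power of a unit of `O_K` lies in `O`, together with its inverse -/
theorem exists_pow_mem {O : Subring K} (hO : ∀ x : K, ∃ m : ℤ, m ≠ 0 ∧ (m : K) * x ∈ O)
    (ε : (𝓞 K)ˣ) : ∃ N : ℕ, 0 < N ∧ (((ε ^ N : (𝓞 K)ˣ) : 𝓞 K) : K) ∈ O ∧
      ((((ε⁻¹) ^ N : (𝓞 K)ˣ) : 𝓞 K) : K) ∈ O := by
  obtain ⟨c, hc0, hc⟩ := exists_conductor hO
  have hbot : Ideal.span {(c : 𝓞 K)} ≠ ⊥ := by
    rw [Ne, Ideal.span_singleton_eq_bot]
    exact_mod_cast hc0
  have hfin : Finite (𝓞 K ⧸ Ideal.span {(c : 𝓞 K)}) := Ideal.finiteQuotientOfFreeOfNeBot _ hbot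
  let π := Ideal.Quotient.mk (Ideal.span {(c : 𝓞 K)})
  have key : ∀ η : (𝓞 K)ˣ, Units.map π.toMonoidHom η = 1 → ((η : 𝓞 K) : K) ∈ O := by
    intro η hη
    have h1 : π (η : 𝓞 K) = π 1 := by
      have := congrArg Units.val hη
      simpa using this
    have h2 : (η : 𝓞 K) - 1 ∈ Ideal.span {(c : 𝓞 K)} := (Ideal.Quotient.eq).1 h1
    obtain ⟨y, hy⟩ := Ideal.mem_span_singleton.1 h2
    have h3 : (η : 𝓞 K) = 1 + (c : 𝓞 K) * y := by rw [← hy]; ring
    rw [h3]
    have h4 : ((1 + (c : 𝓞 K) * y : 𝓞 K) : K) = 1 + (c : K) * (y : K) := by simp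
    rw [h4]
    exact O.add_mem O.one_mem (hc y)
  have hfinU : Finite (𝓞 K ⧸ Ideal.span {(c : 𝓞 K)})ˣ := inferInstance
  refine ⟨Nat.card (𝓞 K ⧸ Ideal.span {(c : 𝓞 K)})ˣ, Nat.card_pos, ?_, ?_⟩
  · apply key
    rw [map_pow, pow_card_eq_one']
  · apply key
    rw [map_pow, pow_card_eq_one']

end

end Vale.Agent.H1.RealUnits
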