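import Vale.Agent.H1.P007Stab
import Vale.Agent.H1.P007Units

/-! Lattice points and their stabilisers. -/

namespace Vale.Agent.H1.P007

open MeasureTheory Filter Topology Matrix Module NumberField

noncomputable section

variable {n : ℕ}

/-- If all rows of `g'` lie in `s Z^n g` then `g' = s C g` with an integer matrix `C`. -/
theorem exists_int_matrix {g g' : SLR n} {s : ℝ}
    (h : ∀ v ∈ rowLattice g', ∃ w ∈ rowLattice g, ∀ j, v j = s * w j) :
    ∃ C : Matrix (Fin n) (Fin n) ℤ, (g' : Matrix (Fin n) (Fin n) ℝ) =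
      s • (C.map (Int.cast : ℤ → ℝ) * (g : Matrix (Fin n) (Fin n) ℝ)) := by
  have h1 : ∀ i, ∃ c : Fin n → ℤ, ∀ j, (g' : Matrix (Fin n) (Fin n) ℝ) i j =
      s * ∑ k, (c k : ℝ) * (g : Matrix (Fin n) (Fin n) ℝ) k j := by
    intro i
    obtain ⟨w, ⟨c, hc⟩, hw⟩ := h _ (mem_rowLattice_row g' i)
    exact ⟨c, fun j => by rw [hw j, hc j]⟩
  choose C hC using h1
  refine ⟨Matrix.of C, ?_⟩
  ext i j
  rw [hC i j, Matrix.smul_apply, Matrix.mul_apply, smul_eq_mul]
  rfl

theorem mk_eq_of_rowLattice_scaled (hn : n ≠ 0) {g g' : SLR n} {s : ℝ} (hs : 0 < s)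
    (h : ∀ v, v ∈ rowLattice g' ↔ ∃ w ∈ rowLattice g, ∀ j, v j = s * w j) :
    X.mk g = X.mk g' := by
  obtain ⟨C, hC⟩ := exists_int_matrix (g := g) (g' := g') (s := s) fun v hv => (h v).1 hv
  obtain ⟨C', hC'⟩ := exists_int_matrix (g := g') (g' := g) (s := s⁻¹) (by
    intro v hv
    refine ⟨fun j => s * v j, (h _).2 ⟨v, hv, fun _ => rfl⟩, ?_⟩
    intro j
    field_simp)
  have hdet : (1 : ℝ) = s ^ n * (C.det : ℝ) := by
    have h1 := congrArg Matrix.det hC
    rw [Matrix.det_smul, Matrix.det_mul, g.2, g'.2, mul_one, Fintype.card_fin] at h1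
    rw [h1]
    congr 1
    exact (Int.cast_det C).symm
  have hdet' : (1 : ℝ) = (s⁻¹) ^ n * (C'.det : ℝ) := by
    have h1 := congrArg Matrix.det hC'
    rw [Matrix.det_smul, Matrix.det_mul, g.2, g'.2, mul_one, Fintype.card_fin] at h1
    rw [h1]
    congr 1
    exact (Int.cast_det C').symm
  have hsn : 0 < s ^ n := pow_pos hs n
  have hmul : C.det * C'.det = 1 := by
    have h1 : ((C.det * C'.det : ℤ) : ℝ) = 1 := by
      rw [Int.cast_mul]
      calc (C.det : ℝ) * (C'.det : ℝ) = (s ^ n * (C.det : ℝ)) * ((s⁻¹) ^ n * (C'.det : ℝ)) := by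
            rw [inv_pow]
            field_simp
        _ = 1 := by rw [← hdet, ← hdet', one_mul]
    exact_mod_cast h1
  have hpos : 0 < C.det := by
    have h1 : (0 : ℝ) < (C.det : ℝ) := by
      by_contra hneg
      push Not at hneg
      have := mul_nonpos_of_nonneg_of_nonpos hsn.le hneg
      rw [← hdet] at this
      linarith
    exact_mod_cast h1
  have hC1 : C.det = 1 := by
    have hu : IsUnit C.det := IsUnit.of_mul_eq_one _ hmul
    rcases Int.isUnit_iff.1 hu with h1 | h1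
    · exact h1
    · rw [h1] at hpos; norm_num at hpos
  have hs1 : s = 1 := by
    rw [hC1] at hdet
    push_cast at hdet
    rw [mul_one] at hdet
    exact (pow_eq_one_iff_of_nonneg hs.le hn).1 hdet.symm
  rw [mk_eq_mk]
  refine ⟨Matrix.SpecialLinearGroup.map (Int.castRingHom ℝ) ⟨C, hC1⟩, ⟨⟨C, hC1⟩, rfl⟩, ?_⟩
  apply Subtype.ext
  rw [hC, hs1, one_smul]
  rfl

theorem mk_eq_of_rowLattice (hn : n ≠ 0) {g g' : SLR n} (h : rowLattice g' = rowLattice g) :
    X.mk g = X.mk g' := by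
  apply mk_eq_of_rowLattice_scaled hn one_pos
  intro v
  rw [h]
  constructor
  · intro hv
    exact ⟨v, hv, fun j => (one_mul _).symm⟩
  · rintro ⟨w, hw, hvw⟩
    have : v = w := by
      funext j
      rw [hvw j, one_mul]
    rw [this]
    exact hw

theorem mem_rowLattice_mul_torus {g : SLR n} {u : Fin (n - 1) → ℝ} {v : Fin n → ℝ} :
    v ∈ rowLattice (g * torusElt u) ↔
      ∃ w ∈ rowLattice g, ∀ j, v j = w j * Real.exp (extendZeroSum u j) := by
  have hmul : ∀ i j, ((g * torusElt u : SLR n) : Matrix (Fin n) (Fin n) ℝ) i j =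
      (g : Matrix (Fin n) (Fin n) ℝ) i j * Real.exp (extendZeroSum u j) := by
    intro i j
    rw [Matrix.SpecialLinearGroup.coe_mul]
    exact Matrix.mul_diagonal _ _ _ _
  constructor
  · rintro ⟨c, hc⟩
    refine ⟨fun j => ∑ i, (c i : ℝ) * (g : Matrix (Fin n) (Fin n) ℝ) i j, ⟨c, fun _ => rfl⟩, ?_⟩
    intro j
    rw [hc j, Finset.sum_mul]
    exact Finset.sum_congr rfl fun i _ => by rw [hmul]; ring
  · rintro ⟨w, ⟨c, hc⟩, hv⟩
    refine ⟨c, fun j => ?_⟩
    rw [hv j, hc j, Finset.sum_mul]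
    exact Finset.sum_congr rfl fun i _ => by rw [hmul]; ring

variable {K : Type} [Field K]

theorem isLatticePoint_unique (hn : n ≠ 0) {σ : Fin n ≃ (K →+* ℝ)} {I : Submodule ℤ K}
    {w : Fin n → ℝ} {x y : X n} (hx : IsLatticePoint σ I w x) (hy : IsLatticePoint σ I w y) :
    x = y := by
  obtain ⟨g, t, rfl, ht, hg⟩ := hx
  obtain ⟨g', t', rfl, ht', hg'⟩ := hy
  apply mk_eq_of_rowLattice_scaled hn (div_pos ht' ht)
  intro v
  rw [hg, hg']
  constructor
  · rintro ⟨α, hα, hv⟩
    refine ⟨fun j => t * σ j α * w j, ⟨α, hα, fun _ => rfl⟩, ?_⟩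
    intro j
    rw [hv j]
    field_simp
  · rintro ⟨z, ⟨α, hα, hz⟩, hv⟩
    refine ⟨α, hα, fun j => ?_⟩
    rw [hv j, hz j]
    field_simp

/-- elements of the stabiliser coming from units -/
theorem mem_stab_of_unit (hn : n ≠ 0) {σ : Fin n ≃ (K →+* ℝ)} {O : Subring K}
    {I : Submodule ℤ K} (hI : IsInvertibleIdeal O I) {w : Fin n → ℝ} {x : X n}
    (hx : IsLatticePoint σ I w x) {ε ε' : K} (hε : ε ∈ O) (hε' : ε' ∈ O) (hεε' : ε * ε' = 1)
    {u : Fin (n - 1) → ℝ} (hu : ∀ j, Real.exp (extendZeroSum u j) = σ j ε) : u ∈ stab x := by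
  obtain ⟨g, t, rfl, ht, hg⟩ := hx
  rw [mem_stab, act_mk]
  apply mk_eq_of_rowLattice hn
  ext v
  rw [mem_rowLattice_mul_torus, hg]
  constructor
  · rintro ⟨α, hα, hv⟩
    refine ⟨fun j => t * σ j (ε' * α) * w j, ⟨ε' * α, hI.1 ε' hε' α hα, fun _ => rfl⟩, ?_⟩
    intro j
    have h1 : σ j ε * σ j ε' = 1 := by rw [← map_mul, hεε', map_one]
    change v j = (t * σ j (ε' * α) * w j) * Real.exp (extendZeroSum u j)
    rw [hv j, hu j, map_mul]
    linear_combination (-(t * σ j α * w j)) * h1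
  · rintro ⟨z, ⟨α, hα, hz⟩, hv⟩
    refine ⟨ε * α, hI.1 ε hε α hα, fun j => ?_⟩
    rw [hv j, hz j, hu j, map_mul]
    ring

/-- the stabiliser of a lattice point spans -/
theorem span_stab [NumberField K] (hfr : finrank ℚ K = n) {σ : Fin n ≃ (K →+* ℝ)}
    {O : Subring K} (hO : IsOrder O) {I : Submodule ℤ K} (hI : IsInvertibleIdeal O I)
    {w : Fin n → ℝ} {x : X n} (hx : IsLatticePoint σ I w x) :
    Submodule.span ℝ (stab x : Set (Fin (n - 1) → ℝ)) = ⊤ := by
  have hnpos : 0 < n := by rw [← hfr]; exact finrank_pos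
  obtain ⟨m, rfl⟩ : ∃ m, n = m + 1 := ⟨n - 1, by omega⟩
  by_contra hne
  obtain ⟨f, hf0, hf⟩ := Submodule.exists_le_ker_of_lt_top _ (lt_top_iff_ne_top.2 hne)
  have hfv : ∀ u ∈ stab x, f u = 0 := fun u hu => hf (Submodule.subset_span hu)
  have hfsum : ∀ u : Fin m → ℝ, f u = ∑ i, u i * f (Pi.single i 1) := by
    intro u
    conv_lhs => rw [← Finset.univ_sum_single u]
    rw [map_sum]
    apply Finset.sum_congr rfl
    intro i _
    have : (Pi.single i (u i) : Fin m → ℝ) = u i • Pi.single i 1 := by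
      ext k
      by_cases hk : k = i
      · subst hk; simp
      · simp [hk]
    rw [this]
    exact map_smul f (u i) _
  let c : Fin (m + 1) → ℝ := Fin.snoc (fun i : Fin m => f (Pi.single i 1)) 0
  have hrel : ∀ ε : (𝓞 K)ˣ, ∑ j, c j * Real.log |σ j ((ε : 𝓞 K) : K)| = 0 := by
    intro ε
    obtain ⟨N, hN, hN1, hN2⟩ := RealUnits.exists_pow_mem hO.2 ε
    set η : K := (((ε ^ N : (𝓞 K)ˣ) : 𝓞 K) : K) with hη
    set η' : K := ((((ε⁻¹) ^ N : (𝓞 K)ˣ) : 𝓞 K) : K) with hη'
    have hηη' : η * η' = 1 := by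
      rw [hη, hη']
      have h1 : ((ε ^ N : (𝓞 K)ˣ) : 𝓞 K) * (((ε⁻¹) ^ N : (𝓞 K)ˣ) : 𝓞 K) = 1 := by
        rw [← Units.val_mul, ← mul_pow, mul_inv_cancel, one_pow, Units.val_one]
      have h2 := congrArg (algebraMap (𝓞 K) K) h1
      rw [map_mul, map_one] at h2
      exact h2
    have hσpos : ∀ j, 0 < σ j (η * η) := by
      intro j
      rw [map_mul]
      have : σ j η ≠ 0 := by
        intro h0
        have h1 := congrArg (σ j) hηη'
        rw [map_mul, h0, zero_mul, map_one] at h1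
        exact zero_ne_one h1
      exact mul_self_pos.2 this
    have hσlog : ∀ j, Real.log (σ j (η * η)) = 2 * N * Real.log |σ j ((ε : 𝓞 K) : K)| := by
      intro j
      have h1 : η = ((ε : 𝓞 K) : K) ^ N := by
        rw [hη]
        simp
      rw [← Real.log_abs, h1, map_mul, map_pow, abs_mul, abs_pow, ← pow_add, Real.log_pow]
      push_cast
      ring
    have hsum : ∑ j, Real.log (σ j (η * η)) = 0 := by
      simp_rw [hσlog]
      rw [← Finset.mul_sum, RealUnits.sum_log_unit hfr σ ε, mul_zero]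
    let u : Fin m → ℝ := fun i => Real.log (σ (Fin.castSucc i) (η * η))
    have hu : ∀ j, Real.exp (extendZeroSum (n := m + 1) u j) = σ j (η * η) := by
      intro j
      have hext : extendZeroSum (n := m + 1) u j = Real.log (σ j (η * η)) := by
        refine Fin.lastCases ?_ (fun i => ?_) j
        · have h1 : extendZeroSum (n := m + 1) u (Fin.last m) = -∑ i, u i := by
            simp [extendZeroSum]
          rw [h1]
          rw [Fin.sum_univ_castSucc] at hsum
          linarith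
        · simp [extendZeroSum, u]
      rw [hext, Real.exp_log (hσpos j)]
    have hmem : u ∈ stab x := mem_stab_of_unit (by omega) hI hx (ε := η * η) (ε' := η' * η')
      (O.mul_mem hN1 hN1) (O.mul_mem hN2 hN2)
      (by linear_combination (η * η' + 1) * hηη') hu
    have h0 := hfv u hmem
    rw [hfsum u] at h0
    have hcs : ∑ j, c j * Real.log |σ j ((ε : 𝓞 K) : K)| =
        ∑ i : Fin m, f (Pi.single i 1) * Real.log |σ (Fin.castSucc i) ((ε : 𝓞 K) : K)| := by
      rw [Fin.sum_univ_castSucc]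
      simp [c]
    rw [hcs]
    have h2 : (2 * (N : ℝ)) * ∑ i : Fin m, f (Pi.single i 1) *
        Real.log |σ (Fin.castSucc i) ((ε : 𝓞 K) : K)| = 0 := by
      rw [Finset.mul_sum, ← h0]
      apply Finset.sum_congr rfl
      intro i _
      change _ = Real.log (σ (Fin.castSucc i) (η * η)) * _
      rw [hσlog]
      ring
    have hNpos : (0 : ℝ) < 2 * N := by positivity
    exact (mul_eq_zero.1 h2).resolve_left hNpos.ne'
  have hc0 : ∀ j, c j = 0 := by
    intro j
    have h1 := RealUnits.coeff_eq_of_relation hfr σ c hrel j (Fin.last m)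
    rw [h1]
    simp [c]
  apply hf0
  apply LinearMap.ext
  intro u
  rw [hfsum u, LinearMap.zero_apply]
  apply Finset.sum_eq_zero
  intro i _
  have : f (Pi.single i 1) = c (Fin.castSucc i) := by simp [c]
  rw [this, hc0, mul_zero]

end

end Vale.Agent.H1.P007
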