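import Vale.Agent.H1.P007Family

/-! Ramification in the family. -/

namespace Vale.Agent.H1.RealFamily

open Polynomial NumberField IsDedekindDomain

noncomputable section

theorem not_mem_sq {K : Type} [Field K] [NumberField K] {q : ℕ} (hq : q.Prime)
    {P : Ideal (𝓞 K)} [hP : P.IsPrime] (hqP : (q : 𝓞 K) ∈ P)
    (hun : Algebra.IsUnramifiedAt ℤ P) : (q : 𝓞 K) ∉ P ^ 2 := by
  intro hmem
  have hq' : Prime (q : ℤ) := Nat.prime_iff_prime_int.1 hq
  have hlies : P.LiesOver (Ideal.span {(q : ℤ)}) :=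
    (Ideal.liesOver_span_iff hP.ne_top hq').2 (by simpa using hqP)
  have hbot : (Ideal.span {(q : ℤ)}) ≠ ⊥ := by
    rw [Ne, Ideal.span_singleton_eq_bot]
    exact hq'.ne_zero
  have h1 : P.ramificationIdx ℤ = 1 := Ideal.ramificationIdx_eq_one P ℤ
  have h2 : (Ideal.span {(q : ℤ)}).ramificationIdx' P = 1 := by
    rw [Ideal.ramificationIdx'_eq_ramificationIdx _ _ hbot, h1]
  have hle : Ideal.map (algebraMap ℤ (𝓞 K)) (Ideal.span {(q : ℤ)}) ≤ P := by
    rw [Ideal.map_span, Set.image_singleton, Ideal.span_singleton_le_iff_mem]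
    simpa using hqP
  have h3 := (Ideal.ramificationIdx'_ne_one_iff hle).2 (by
    rw [Ideal.map_span, Set.image_singleton, Ideal.span_singleton_le_iff_mem]
    simpa using hmem)
  exact h3 h2

section

variable {K : Type} [Field K] {Γ : Type*} [LinearOrderedCommGroupWithZero Γ] (v : Valuation K Γ)

theorem val_C_le_one {y : K} (hy : v y ≤ 1) (n : ℕ) : v ((Chebyshev.C K n).eval y) ≤ 1 := by
  induction n using Nat.twoStepInduction with
  | zero =>
    have : (Chebyshev.C K ((0 : ℕ) : ℤ)).eval y = 1 + 1 := by simp; norm_num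
    rw [this]
    exact (v.map_add 1 1).trans (by simp)
  | one => simpa using hy
  | more k ih1 ih2 =>
    rw [chebC_rec, eval_sub, eval_mul, eval_X]
    refine (v.map_sub _ _).trans (max_le ?_ ih1)
    rw [map_mul]
    exact mul_le_one' hy ih2

theorem val_C_of_gt {y : K} (hy : 1 < v y) (n : ℕ) (hn : 1 ≤ n) :
    v ((Chebyshev.C K n).eval y) = v y ^ n := by
  have key : ∀ n : ℕ, v ((Chebyshev.C K n).eval y) ≤ v y ^ n ∧
      (1 ≤ n → v ((Chebyshev.C K n).eval y) = v y ^ n) := by
    intro n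
    induction n using Nat.twoStepInduction with
    | zero =>
      refine ⟨?_, fun h => absurd h (by norm_num)⟩
      have : (Chebyshev.C K ((0 : ℕ) : ℤ)).eval y = 1 + 1 := by simp; norm_num
      rw [this, pow_zero]
      exact (v.map_add 1 1).trans (by simp)
    | one => simp
    | more k ih1 ih2 =>
      have h : v ((Chebyshev.C K ((k + 2 : ℕ) : ℤ)).eval y) = v y ^ (k + 2) := by
        rw [chebC_rec, eval_sub, eval_mul, eval_X]
        have h1 : v (y * (Chebyshev.C K ((k + 1 : ℕ) : ℤ)).eval y) = v y ^ (k + 2) := by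
          rw [map_mul, ih2.2 (by omega)]
          exact (pow_succ' (v y) (k + 1)).symm
        have h2 : v ((Chebyshev.C K ((k : ℕ) : ℤ)).eval y) <
            v (y * (Chebyshev.C K ((k + 1 : ℕ) : ℤ)).eval y) := by
          rw [h1]
          refine ih1.1.trans_lt ?_
          exact pow_lt_pow_right₀ hy (by omega)
        rw [Valuation.map_sub_eq_of_lt_left v h2, h1]
      exact ⟨h.le, fun _ => h⟩
  exact (key n).2 hn

theorem val_C_sub_zero {y : K} (hy : v y < 1) (n : ℕ) :
    v ((Chebyshev.C K n).eval y - (Chebyshev.C K n).eval 0) < 1 := by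
  induction n using Nat.twoStepInduction with
  | zero => simp
  | one => simpa using hy
  | more k ih1 ih2 =>
    rw [chebC_rec, eval_sub, eval_mul, eval_X, eval_sub, eval_mul, eval_X, zero_mul]
    have h1 : v (y * (Chebyshev.C K ((k + 1 : ℕ) : ℤ)).eval y) < 1 := by
      rw [map_mul]
      exact mul_lt_one_of_lt_of_le hy (val_C_le_one v hy.le (k + 1))
    have h2 : y * (Chebyshev.C K ((k + 1 : ℕ) : ℤ)).eval y - (Chebyshev.C K ((k : ℕ) : ℤ)).eval y -
        (0 - (Chebyshev.C K ((k : ℕ) : ℤ)).eval 0) =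
        y * (Chebyshev.C K ((k + 1 : ℕ) : ℤ)).eval y -
        ((Chebyshev.C K ((k : ℕ) : ℤ)).eval y - (Chebyshev.C K ((k : ℕ) : ℤ)).eval 0) := by ring
    rw [h2]
    exact (v.map_sub _ _).trans_lt (max_lt h1 ih1)

end

theorem map_eval_C' {K : Type} [Field K] (d : ℕ) :
    (Chebyshev.C K d).eval 0 = (((Chebyshev.C ℤ d).eval 0 : ℤ) : K) := by
  rw [← Chebyshev.map_C (Int.castRingHom K)]
  simpa using Polynomial.eval_intCast_map (Int.castRingHom K) (Chebyshev.C ℤ d) 0

theorem dvd_discr {K : Type} [Field K] [NumberField K] {d m q : ℕ} (hg : Good d m q)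
    (hm2 : 2 ≤ m) {β y : K} (hβ : 5 * (Chebyshev.C K d).eval β = 6)
    (hy : β = q * (Chebyshev.C K m).eval y) : (q : ℤ) ∣ discr K := by
  have hq' : Prime (q : ℤ) := Nat.prime_iff_prime_int.1 hg.hq
  by_contra hnd
  rw [NumberField.not_dvd_discr_iff_forall_mem K (𝓞 K) hq'] at hnd
  -- a prime above q
  have hbot : (Ideal.span {(q : ℤ)}) ≠ ⊥ := by
    rw [Ne, Ideal.span_singleton_eq_bot]
    exact hq'.ne_zero
  have hpr : (Ideal.span {(q : ℤ)}).IsPrime := (Ideal.span_singleton_prime hq'.ne_zero).2 hq'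
  have hmax : (Ideal.span {(q : ℤ)}).IsMaximal := hpr.isMaximal hbot
  obtain ⟨P, hP, hPq⟩ := Ideal.exists_maximal_ideal_liesOver_of_isIntegral
    (Ideal.span {(q : ℤ)}) (S := 𝓞 K)
  have hmemZ : ∀ z : ℤ, ((z : ℤ) : 𝓞 K) ∈ P ↔ (q : ℤ) ∣ z := by
    intro z
    rw [← Ideal.mem_span_singleton, hPq.over, Ideal.under_def, Ideal.mem_comap]
    simp
  have hqP : (q : 𝓞 K) ∈ P := by
    have := (hmemZ q).2 dvd_rfl
    simpa using this
  have hPprime : P.IsPrime := hP.isPrime
  have hPbot : P ≠ ⊥ := by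
    rintro rfl
    have : (q : 𝓞 K) = 0 := hqP
    exact hg.hq.ne_zero (by exact_mod_cast this)
  have hun := hnd P hPprime (by simpa using hqP)
  have hsq := not_mem_sq hg.hq hqP hun
  let w : HeightOneSpectrum (𝓞 K) := ⟨P, hPprime, hPbot⟩
  let v : Valuation K (WithZero (Multiplicative ℤ)) := w.valuation K
  have hvZ : ∀ z : ℤ, ¬ (q : ℤ) ∣ z → v (z : K) = 1 := by
    intro z hz
    have h1 : (z : K) = algebraMap (𝓞 K) K (z : 𝓞 K) := by simp
    rw [h1]
    change w.valuation K (algebraMap (𝓞 K) K (z : 𝓞 K)) = 1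
    rw [HeightOneSpectrum.valuation_eq_one_iff_notMem]
    exact fun h => hz ((hmemZ z).1 h)
  have hvq : v (q : K) = WithZero.exp (-1 : ℤ) := by
    have h1 : (q : K) = algebraMap (𝓞 K) K (q : 𝓞 K) := by simp
    rw [h1]
    change w.valuation K (algebraMap (𝓞 K) K (q : 𝓞 K)) = _
    rw [HeightOneSpectrum.valuation_of_algebraMap]
    apply le_antisymm
    · have := (w.intValuation_le_pow_iff_mem (q : 𝓞 K) 1).2 (by simpa using hqP)
      simpa using this
    · by_contra hlt
      push Not at hlt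
      apply hsq
      have h2 : w.intValuation (q : 𝓞 K) ≤ WithZero.exp (-((2 : ℕ) : ℤ)) := by
        by_cases h0 : w.intValuation (q : 𝓞 K) = 0
        · rw [h0]; exact zero_le
        · rw [← WithZero.exp_log h0] at hlt ⊢
          rw [WithZero.exp_lt_exp] at hlt
          rw [WithZero.exp_le_exp]
          push_cast
          omega
      exact (w.intValuation_le_pow_iff_mem (q : 𝓞 K) 2).1 h2
  have hndvd : ∀ z : ℕ, z ≠ 0 → z < 7 → ¬ (q : ℤ) ∣ (z : ℤ) := by
    intro z hz0 hz7 h
    have h1 : q ∣ z := by exact_mod_cast h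
    have h2 := Nat.le_of_dvd (by omega) h1
    have h3 := hg.hq5
    have h4 : q = 6 := by omega
    have h5 := hg.hq
    rw [h4] at h5
    exact absurd h5 (by norm_num)
  have hv5 : v (5 : K) = 1 := by
    have := hvZ ((5 : ℕ) : ℤ) (hndvd 5 (by norm_num) (by norm_num))
    simpa using this
  have hv6 : v (6 : K) = 1 := by
    have := hvZ ((6 : ℕ) : ℤ) (hndvd 6 (by norm_num) (by norm_num))
    simpa using this
  have hvC : v ((Chebyshev.C K d).eval β) = 1 := by
    have h1 := congrArg v hβ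
    rw [map_mul, hv5, hv6, one_mul] at h1
    exact h1
  have hvβ : v β = 1 := by
    rcases lt_trichotomy (v β) 1 with h | h | h
    · exfalso
      have h1 := val_C_sub_zero v h d
      have h2 : ((5 * (Chebyshev.C ℤ d).eval 0 - 6 : ℤ) : K) =
          -(5 * ((Chebyshev.C K d).eval β - (Chebyshev.C K d).eval 0)) := by
        have h3 : (Chebyshev.C K d).eval 0 = (((Chebyshev.C ℤ d).eval 0 : ℤ) : K) := by
          have := map_eval_C' (K := K) d
          exact this
        push_cast
        rw [← h3]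
        linear_combination hβ
      have h4 := hvZ _ (not_dvd_aux hg)
      rw [h2, Valuation.map_neg, map_mul, hv5, one_mul] at h4
      exact absurd h4 h1.ne
    · exact h
    · exfalso
      rw [val_C_of_gt v h d hg.hd] at hvC
      have := one_lt_pow₀ h (by have := hg.hd; omega : d ≠ 0)
      exact absurd hvC this.ne'
  have hvy : v ((Chebyshev.C K m).eval y) = WithZero.exp (1 : ℤ) := by
    have h1 := congrArg v hy
    rw [map_mul, hvβ, hvq] at h1
    have h2 : (WithZero.exp (1 : ℤ)) * (WithZero.exp (-1 : ℤ)) = 1 := by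
      rw [← WithZero.exp_add]
      simp
    calc v ((Chebyshev.C K m).eval y) = 1 * v ((Chebyshev.C K m).eval y) := (one_mul _).symm
      _ = (WithZero.exp (1 : ℤ)) * (WithZero.exp (-1 : ℤ) * v ((Chebyshev.C K m).eval y)) := by
          rw [← mul_assoc, h2]
      _ = _ := by rw [← h1, mul_one]
  have hy1 : 1 < v y := by
    by_contra hle
    push Not at hle
    have h1 := val_C_le_one v hle m
    rw [hvy] at h1
    have h2 : (1 : WithZero (Multiplicative ℤ)) < WithZero.exp (1 : ℤ) := by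
      rw [← WithZero.exp_zero, WithZero.exp_lt_exp]
      norm_num
    exact absurd h1 (not_le.2 h2)
  rw [val_C_of_gt v hy1 m hg.hm] at hvy
  have h0 : v y ≠ 0 := (zero_lt_one.trans hy1).ne'
  have h3 := congrArg WithZero.log hvy
  rw [WithZero.log_pow, WithZero.log_exp] at h3
  have h4 : (m : ℤ) ∣ 1 := ⟨WithZero.log (v y), by rw [← h3]; simp⟩
  have h5 : (m : ℕ) ∣ 1 := by exact_mod_cast h4
  have := Nat.le_of_dvd (by norm_num) h5
  omega

end

end Vale.Agent.H1.RealFamily
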