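import Vale.Agent.H1.P007Nec
import Vale.Agent.H1.P007Ram

/-! Maximal orders. -/

namespace Vale.Agent.H1.P007

open MeasureTheory Filter Topology

noncomputable section

/-- the maximal order as a subring -/
def maxOrder (K : Type) [Field K] [NumberField K] : Subring K := (integralClosure ℤ K).toSubring

theorem mem_maxOrder {K : Type} [Field K] [NumberField K] {x : K} :
    x ∈ maxOrder K ↔ IsIntegral ℤ x := Iff.rfl

theorem isOrder_maxOrder (K : Type) [Field K] [NumberField K] : IsOrder (maxOrder K) := by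
  refine ⟨fun x hx => hx, fun x => ?_⟩
  obtain ⟨m, hm, h⟩ := IsAlgebraic.exists_integral_multiple
    ((IsFractionRing.isAlgebraic_iff ℤ ℚ K).2 (Algebra.IsAlgebraic.isAlgebraic x))
  refine ⟨m, hm, ?_⟩
  rw [zsmul_eq_mul] at h
  exact h

theorem absDisc_maxOrder (K : Type) [Field K] [NumberField K] :
    absDisc (maxOrder K) = (NumberField.discr K).natAbs := by
  unfold absDisc
  have h : (maxOrder K).comap (algebraMap (NumberField.RingOfIntegers K) K) = ⊤ := by
    rw [eq_top_iff]
    intro x _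
    exact x.isIntegral_coe
  rw [h]
  have h2 : (⊤ : Subring (NumberField.RingOfIntegers K)).toAddSubgroup = ⊤ := rfl
  rw [h2, AddSubgroup.index_top]
  simp

/-- a prime larger than `i + 6` -/
def bigPrime (i : ℕ) : ℕ := (Nat.exists_infinite_primes (i + 7)).choose

theorem bigPrime_ge (i : ℕ) : i + 7 ≤ bigPrime i := (Nat.exists_infinite_primes (i + 7)).choose_spec.1

theorem bigPrime_prime (i : ℕ) : (bigPrime i).Prime :=
  (Nat.exists_infinite_primes (i + 7)).choose_spec.2

theorem good_bigPrime {d m : ℕ} (hd : 2 ≤ d) (hm : 2 ≤ m) (i : ℕ) :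
    RealFamily.Good d m (bigPrime i) :=
  ⟨by omega, by omega, bigPrime_prime i, by have := bigPrime_ge i; omega⟩

/-- the datum with the maximal order of `K_q`, `q = bigPrime i` -/
def maxDatum {d m : ℕ} (hd : 2 ≤ d) (hm : 2 ≤ m) (i : ℕ) : Datum (d * m) :=
  have : Fact (RealFamily.Good d m (bigPrime i)) := ⟨good_bigPrime hd hm i⟩
  { K := RealFamily.KF d m (bigPrime i)
    σ := (RealFamily.exists_ordering d m (bigPrime i)).some
    O := maxOrder (RealFamily.KF d m (bigPrime i))
    finrank_eq := RealFamily.finrank_KF d m (bigPrime i)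
    isOrder := isOrder_maxOrder _ }

theorem tendsto_maxDatum {d m : ℕ} (hd : 2 ≤ d) (hm : 2 ≤ m) :
    Tendsto (fun i => absDisc (maxDatum hd hm i).O) atTop atTop := by
  apply tendsto_atTop_mono _ tendsto_id
  intro i
  have hF : Fact (RealFamily.Good d m (bigPrime i)) := ⟨good_bigPrime hd hm i⟩
  have h1 : absDisc (maxDatum hd hm i).O =
      (NumberField.discr (RealFamily.KF d m (bigPrime i))).natAbs :=
    absDisc_maxOrder (RealFamily.KF d m (bigPrime i))
  rw [h1]
  have h2 := RealFamily.dvd_discr (good_bigPrime hd hm i) hm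
    (RealFamily.beta_root d m (bigPrime i)) rfl
  have h3 := Int.natAbs_dvd_natAbs.2 h2
  rw [Int.natAbs_natCast] at h3
  have h4 := Nat.le_of_dvd (Int.natAbs_pos.2 (NumberField.discr_ne_zero _)) h3
  have h5 := bigPrime_ge i
  change i ≤ _
  omega

open Polynomial in
theorem beta_not_rational {d m q : ℕ} [hg : Fact (RealFamily.Good d m q)] (hd : 2 ≤ d) :
    RealFamily.beta d m q ∉ (algebraMap ℚ (RealFamily.KF d m q)).range := by
  intro h
  have hq0 : (q : RealFamily.KF d m q) ≠ 0 := by exact_mod_cast hg.out.hq.ne_zero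
  set c : RealFamily.KF d m q :=
    (Chebyshev.C (RealFamily.KF d m q) m).eval (RealFamily.theta d m q) with hc
  have hβ : RealFamily.beta d m q = q * c := rfl
  have hg1 : RealFamily.Good d 1 q := ⟨hg.out.hd, le_rfl, hg.out.hq, hg.out.hq5⟩
  have h1 : 5 * (Chebyshev.C (RealFamily.KF d m q) d).eval
      (q * (Chebyshev.C (RealFamily.KF d m q) (1 : ℕ)).eval c) = 6 := by
    have := RealFamily.beta_root d m q
    rw [hβ] at this
    simpa using this
  have hc0 : c ≠ 0 := by
    intro h0
    rw [h0] at h1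
    have h2 := RealFamily.map_eval_C' (K := RealFamily.KF d m q) d
    simp only [Nat.cast_one, Chebyshev.C_one, eval_X, mul_zero] at h1
    rw [h2] at h1
    have h3 : (5 : ℤ) * (Chebyshev.C ℤ d).eval 0 = 6 := by exact_mod_cast h1
    omega
  have hroot : aeval c⁻¹ (RealFamily.gQ d 1 q) = 0 := (RealFamily.gQ_root_iff hc0).2 h1
  have hirr := RealFamily.gQ_irreducible hg1
  have hdeg : (minpoly ℚ c⁻¹).natDegree = d := by
    rw [← minpoly.eq_of_irreducible hirr hroot, natDegree_mul_C, RealFamily.gQ_natDegree hg1,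
      mul_one]
    exact inv_ne_zero (leadingCoeff_ne_zero.2 hirr.ne_zero)
  have hcr : c⁻¹ ∈ (algebraMap ℚ (RealFamily.KF d m q)).range := by
    obtain ⟨r, hr⟩ := h
    refine ⟨(r / q)⁻¹, ?_⟩
    rw [map_inv₀, map_div₀, hr, hβ, map_natCast]
    field_simp
  have := minpoly.natDegree_eq_one_iff.2 hcr
  omega

open Polynomial in
/-- the fixed polynomial with root `5 β` -/
def fixedPoly (d : ℕ) : ℤ[X] :=
  scaleRoots (Polynomial.C 5 * Chebyshev.C ℤ d - Polynomial.C 6) 5

theorem fixedPoly_ne_zero {d : ℕ} (hd : 2 ≤ d) : fixedPoly d ≠ 0 := by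
  have hmon := RealFamily.chebC_monic d (by omega)
  apply Polynomial.scaleRoots_ne_zero
  intro h
  have h1 := congrArg Polynomial.natDegree h
  rw [Polynomial.natDegree_sub_C, Polynomial.natDegree_C_mul (by norm_num), hmon.2,
    Polynomial.natDegree_zero] at h1
  omega

theorem exists_root_maxDatum {d k : ℕ} (hd : 2 ≤ d) (hk : 2 ≤ k) (i : ℕ) :
    ∃ β ∈ (maxDatum hd hk i).O, β ∉ (algebraMap ℚ (maxDatum hd hk i).K).range ∧
      Polynomial.aeval β (fixedPoly d) = 0 := by
  have hmon := RealFamily.chebC_monic d (by omega)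
  have hF : Fact (RealFamily.Good d k (bigPrime i)) := ⟨good_bigPrime hd hk i⟩
  set β := RealFamily.beta d k (bigPrime i) with hβ
  have hroot : Polynomial.aeval β
      (Polynomial.C (5 : ℤ) * Polynomial.Chebyshev.C ℤ d - Polynomial.C 6) = 0 := by
    have h := RealFamily.beta_root d k (bigPrime i)
    rw [map_sub, map_mul, Polynomial.aeval_C, Polynomial.aeval_C, Polynomial.Chebyshev.aeval_C]
    rw [sub_eq_zero]
    simpa using h
  have hlc : (Polynomial.C (5 : ℤ) * Polynomial.Chebyshev.C ℤ d - Polynomial.C 6).leadingCoeff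
      = 5 := by
    rw [Polynomial.leadingCoeff, Polynomial.natDegree_sub_C,
      Polynomial.natDegree_C_mul (by norm_num), hmon.2, Polynomial.coeff_sub,
      Polynomial.coeff_C_mul, Polynomial.coeff_C_of_ne_zero (by omega), sub_zero]
    have := hmon.1.coeff_natDegree
    rw [hmon.2] at this
    rw [this]
    norm_num
  have hint : IsIntegral ℤ ((5 : ℤ) • β) := by
    have := isIntegral_leadingCoeff_smul (R := ℤ) _ β hroot
    rwa [hlc] at this
  refine ⟨(5 : ℤ) • β, hint, ?_, ?_⟩
  · rintro ⟨r, hr⟩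
    apply beta_not_rational (d := d) (m := k) (q := bigPrime i) hd
    refine ⟨r / 5, ?_⟩
    have hr' : (algebraMap ℚ (RealFamily.KF d k (bigPrime i))) r = (5 : ℤ) • β := hr
    rw [map_div₀, hr', ← hβ]
    simp
  · have h := Polynomial.scaleRoots_aeval_eq_zero (r := (5 : ℤ)) hroot
    have h2 : Polynomial.aeval ((5 : ℤ) • β) (fixedPoly d) = 0 := by
      unfold fixedPoly
      rw [zsmul_eq_mul]
      simpa using h
    exact h2

end

end Vale.Agent.H1.P007
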