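import Vale.Agent.H1.P007Support

/-! The necessary condition for equidistribution. -/

namespace Vale.Agent.H1.P007

open MeasureTheory Filter Topology Matrix Polynomial

noncomputable section

variable {n : ℕ}

/-- every complex embedding comes from the list of real embeddings -/
theorem complex_embedding_eq (D : Datum n) (φ : D.K →+* ℂ) :
    ∃ j, φ = Complex.ofRealHom.comp (D.σ j) := by
  classical
  let F : Fin n → (D.K →+* ℂ) := fun j => Complex.ofRealHom.comp (D.σ j)
  have hinj : Function.Injective F := by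
    intro i j hij
    apply D.σ.injective
    ext x
    have := RingHom.congr_fun hij x
    simpa [F] using this
  have hcard : Fintype.card (Fin n) = Fintype.card (D.K →+* ℂ) := by
    rw [Fintype.card_fin, NumberField.Embeddings.card D.K ℂ, D.finrank_eq]
  have hbij := (Fintype.bijective_iff_injective_and_card F).2 ⟨hinj, hcard⟩
  obtain ⟨j, hj⟩ := hbij.2 φ
  exact ⟨j, hj.symm⟩

/-- an element with equal conjugates is rational -/
theorem exists_ne_of_not_rational (D : Datum n) {β : D.K}
    (hβ : β ∉ (algebraMap ℚ D.K).range) : ∃ i j, D.σ i β ≠ D.σ j β := by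
  by_contra hcon
  push Not at hcon
  apply hβ
  have hroot := NumberField.Embeddings.range_eval_eq_rootSet_minpoly D.K ℂ β
  have hint : IsIntegral ℚ β := Algebra.IsIntegral.isIntegral β
  have hsub : ((minpoly ℚ β).rootSet ℂ).Subsingleton := by
    rw [← hroot]
    rintro _ ⟨φ, rfl⟩ _ ⟨ψ, rfl⟩
    obtain ⟨i, rfl⟩ := complex_embedding_eq D φ
    obtain ⟨j, rfl⟩ := complex_embedding_eq D ψ
    simp [hcon i j]
  have hcard : Fintype.card ((minpoly ℚ β).rootSet ℂ) = (minpoly ℚ β).natDegree :=
    Polynomial.card_rootSet_eq_natDegree (minpoly.irreducible hint).separable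
      (IsAlgClosed.splits _)
  have hle : Fintype.card ((minpoly ℚ β).rootSet ℂ) ≤ 1 := by
    rw [Fintype.card_le_one_iff_subsingleton]
    exact (Set.subsingleton_coe _).2 hsub
  have hpos := minpoly.natDegree_pos hint
  have h1 : (minpoly ℚ β).natDegree = 1 := by omega
  exact (minpoly.natDegree_eq_one_iff.1 h1)

/-- a root of an irreducible integer polynomial of degree at least two is not rational -/
theorem not_rational_of_root {K : Type*} [Field K] [NumberField K] {f : ℤ[X]}
    (hf : Irreducible f) (hdeg : 2 ≤ f.natDegree) {β : K} (hβ : IsIntegral ℤ β)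
    (hroot : aeval β f = 0) : β ∉ (algebraMap ℚ K).range := by
  rintro ⟨q, rfl⟩
  have hq : IsIntegral ℤ q :=
    (isIntegral_algebraMap_iff (algebraMap ℚ K).injective).1 hβ
  obtain ⟨z, rfl⟩ := IsIntegrallyClosed.isIntegral_iff.1 hq
  have h1 : aeval ((z : ℤ) : K) f = 0 := by simpa using hroot
  have h2 : f.IsRoot z := by
    have h3 : aeval ((z : ℤ) : K) f = ((f.eval z : ℤ) : K) := by
      rw [← eq_intCast (algebraMap ℤ K) z, aeval_algebraMap_apply]
      simp
    rw [h3] at h1
    exact_mod_cast h1
  obtain ⟨g, hg⟩ := Polynomial.dvd_iff_isRoot.2 h2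
  rcases hf.isUnit_or_isUnit hg with hu | hu
  · exact Polynomial.not_isUnit_X_sub_C z hu
  · have hg0 : g.natDegree = 0 := Polynomial.natDegree_eq_zero_of_isUnit hu
    have hgne : g ≠ 0 := hu.ne_zero
    have : f.natDegree = 1 := by
      rw [hg, Polynomial.natDegree_mul (Polynomial.X_sub_C_ne_zero z) hgne, hg0,
        Polynomial.natDegree_X_sub_C]
    omega

/-- Necessary condition for equidistribution, general form. -/
theorem finite_of_equidistributes {m : Measure (X n)} (hm : IsInvProb m) (D : ℕ → Datum n)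
    (hD : Equidistributes D m) {f : ℤ[X]} (hf0 : f ≠ 0) :
    {i | ∃ β ∈ (D i).O, β ∉ (algebraMap ℚ (D i).K).range ∧ aeval β f = 0}.Finite := by
  classical
  set P : Set (Fin n → ℝ) := Set.pi Set.univ fun _ => f.rootSet ℝ with hP
  have hPfin : P.Finite := Set.Finite.pi' (fun _ => Polynomial.rootSet_finite f ℝ) |>.subset (by
    intro x hx j
    exact hx j (Set.mem_univ _))
  have key : ∀ d ∈ P, {i | ∃ β ∈ (D i).O, β ∉ (algebraMap ℚ (D i).K).range ∧
      ∀ j, (D i).σ j β = d j}.Finite := by
    intro d _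
    by_contra hinf
    have hinf' : {i | ∃ β ∈ (D i).O, β ∉ (algebraMap ℚ (D i).K).range ∧
      ∀ j, (D i).σ j β = d j}.Infinite := hinf
    obtain ⟨i0, β0, hβ0, hnr, hd0⟩ := hinf'.nonempty
    obtain ⟨a, b, hab⟩ := exists_ne_of_not_rational (D i0) hnr
    rw [hd0 a, hd0 b] at hab
    refine not_weaklyTendsto hm (isClosed_stableSet d) (stableSet_ne_univ hab) ?_ hD
    rw [Nat.frequently_atTop_iff_infinite]
    apply hinf'.mono
    rintro i ⟨β, hβ, -, hd⟩
    have h1 := packetMeasure_compl (σ := (D i).σ) hβ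
    have h2 : (fun j => (D i).σ j β) = d := funext hd
    rw [h2] at h1
    exact h1
  apply (hPfin.biUnion key).subset
  rintro i ⟨β, hβ, hnr, hr⟩
  refine Set.mem_biUnion (x := fun j => (D i).σ j β) ?_ ⟨β, hβ, hnr, fun _ => rfl⟩
  intro j _
  rw [Polynomial.mem_rootSet]
  refine ⟨hf0, ?_⟩
  have h1 : aeval ((D i).σ j β) f = (D i).σ j (aeval β f) := by
    have := Polynomial.aeval_algHom_apply ((D i).σ j).toIntAlgHom β f
    simpa using this
  rw [h1, hr, map_zero]

/-- Necessary condition for equidistribution. -/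
theorem finite_of_weaklyTendsto {m : Measure (X n)} (hm : IsInvProb m) (D : ℕ → Datum n)
    (hD : Equidistributes D m) {f : ℤ[X]} (hf : Irreducible f)
    (hdeg : 2 ≤ f.natDegree) : {i | HasRoot (D i).O f}.Finite := by
  apply (finite_of_equidistributes hm D hD hf.ne_zero).subset
  rintro i ⟨β, hβ, hr⟩
  exact ⟨β, hβ, not_rational_of_root hf hdeg ((D i).isOrder.1 β hβ) hr, hr⟩

end

end Vale.Agent.H1.P007
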