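import Vale.Agent.H1.P007Nec

/-! Orders `O_F + (i+1) O_K` and their discriminants. -/

namespace Vale.Agent.H1.P007

open MeasureTheory Filter Topology Matrix Polynomial

noncomputable section

section

variable {K : Type} [Field K]

/-- the order `O_F + (i+1) O_K` -/
def relOrder (F : Subfield K) (i : ℕ) : Subring K where
  carrier := {x | ∃ r y : K, IsIntegral ℤ r ∧ r ∈ F ∧ IsIntegral ℤ y ∧ x = r + ((i : K) + 1) * y}
  zero_mem' := ⟨0, 0, isIntegral_zero, F.zero_mem, isIntegral_zero, by ring⟩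
  one_mem' := ⟨1, 0, isIntegral_one, F.one_mem, isIntegral_zero, by ring⟩
  add_mem' := by
    rintro _ _ ⟨r, y, hr, hrF, hy, rfl⟩ ⟨s, z, hs, hsF, hz, rfl⟩
    exact ⟨r + s, y + z, hr.add hs, F.add_mem hrF hsF, hy.add hz, by ring⟩
  neg_mem' := by
    rintro _ ⟨r, y, hr, hrF, hy, rfl⟩
    exact ⟨-r, -y, hr.neg, F.neg_mem hrF, hy.neg, by ring⟩
  mul_mem' := by
    rintro _ _ ⟨r, y, hr, hrF, hy, rfl⟩ ⟨s, z, hs, hsF, hz, rfl⟩
    have hi : IsIntegral ℤ ((i : K) + 1) := (isIntegral_natCast i).add isIntegral_one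
    exact ⟨r * s, r * z + s * y + ((i : K) + 1) * (y * z), hr.mul hs, F.mul_mem hrF hsF,
      ((hr.mul hz).add (hs.mul hy)).add (hi.mul (hy.mul hz)), by ring⟩

theorem relOrder_integral (F : Subfield K) (i : ℕ) : ∀ x ∈ relOrder F i, IsIntegral ℤ x := by
  rintro _ ⟨r, y, hr, -, hy, rfl⟩
  exact hr.add (((isIntegral_natCast i).add isIntegral_one).mul hy)

theorem mem_relOrder (F : Subfield K) (i : ℕ) {β : K} (h1 : IsIntegral ℤ β) (h2 : β ∈ F) :
    β ∈ relOrder F i := ⟨β, 0, h1, h2, isIntegral_zero, by ring⟩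

theorem mul_mem_relOrder (F : Subfield K) (i : ℕ) {y : K} (h1 : IsIntegral ℤ y) :
    ((i : K) + 1) * y ∈ relOrder F i := ⟨0, y, isIntegral_zero, F.zero_mem, h1, by ring⟩

end

variable {K : Type} [Field K] [NumberField K]

theorem exists_int_mul_integral (x : K) : ∃ m : ℤ, m ≠ 0 ∧ IsIntegral ℤ ((m : K) * x) := by
  obtain ⟨m, hm, h⟩ := IsAlgebraic.exists_integral_multiple
    ((IsFractionRing.isAlgebraic_iff ℤ ℚ K).2 (Algebra.IsAlgebraic.isAlgebraic x))
  refine ⟨m, hm, ?_⟩
  rwa [zsmul_eq_mul] at h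

theorem relOrder_full (F : Subfield K) (i : ℕ) (x : K) :
    ∃ m : ℤ, m ≠ 0 ∧ (m : K) * x ∈ relOrder F i := by
  obtain ⟨m, hm, h⟩ := exists_int_mul_integral x
  refine ⟨((i : ℤ) + 1) * m, mul_ne_zero (by positivity) hm, 0, (m : K) * x, isIntegral_zero,
    F.zero_mem, h, ?_⟩
  push_cast
  ring

/-- the maximal order as an additive subgroup of `K` -/
def maxGrp (K : Type) [Field K] [NumberField K] : AddSubgroup K :=
  (algebraMap (NumberField.RingOfIntegers K) K).range.toAddSubgroup

theorem mem_maxGrp {x : K} : x ∈ maxGrp K ↔ IsIntegral ℤ x := by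
  constructor
  · rintro ⟨y, rfl⟩
    exact y.isIntegral_coe
  · intro h
    exact ⟨⟨x, h⟩, rfl⟩

/-- The index of a full-rank subgroup `H` containing `c O_K`, `c ≠ 0`, is finite. -/
theorem relIndex_ne_zero {H : AddSubgroup K} {c : ℤ} (hc : c ≠ 0)
    (hH : ∀ y ∈ maxGrp K, (c : K) * y ∈ H) : H.relIndex (maxGrp K) ≠ 0 := by
  have e : (NumberField.RingOfIntegers K) ≃+ maxGrp K :=
    AddEquiv.ofBijective
      ((algebraMap (NumberField.RingOfIntegers K) K).toAddMonoidHom.codRestrict (maxGrp K)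
        (fun x => ⟨x, rfl⟩)) ⟨by
          intro a b hab
          have := congrArg Subtype.val hab
          exact NumberField.RingOfIntegers.ext this, by
          rintro ⟨_, ⟨y, rfl⟩⟩
          exact ⟨y, rfl⟩⟩
  have hfg : Module.Finite ℤ (maxGrp K) :=
    Module.Finite.equiv (e.toIntLinearEquiv)
  unfold AddSubgroup.relIndex
  have : Finite (maxGrp K ⧸ H.addSubgroupOf (maxGrp K)) := by
    let N : Submodule ℤ (maxGrp K) := AddSubgroup.toIntSubmodule (H.addSubgroupOf (maxGrp K))
    have h1 : Module.Finite ℤ (maxGrp K ⧸ N) := inferInstance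
    have h2 : Module.IsTorsion ℤ (maxGrp K ⧸ N) := by
      intro x
      obtain ⟨y, rfl⟩ := Submodule.Quotient.mk_surjective N x
      refine ⟨⟨c, mem_nonZeroDivisors_of_ne_zero hc⟩, ?_⟩
      change c • (Submodule.Quotient.mk y : maxGrp K ⧸ N) = 0
      rw [← Submodule.Quotient.mk_smul, Submodule.Quotient.mk_eq_zero]
      change c • y ∈ H.addSubgroupOf (maxGrp K)
      rw [AddSubgroup.mem_addSubgroupOf]
      have := hH y y.2
      rw [← zsmul_eq_mul] at this
      exact this
    have h3 : Finite (maxGrp K ⧸ N) := Module.finite_of_fg_torsion _ h2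
    exact h3
  exact AddSubgroup.index_ne_zero_of_finite

/-- a rational functional vanishing on `F` and integral on `O_K` -/
theorem exists_functional (F : Subfield K) (hF : F ≠ ⊤) :
    ∃ φ : K →+ ℚ, (∀ x ∈ F, φ x = 0) ∧ (∀ y, IsIntegral ℤ y → ∃ z : ℤ, φ y = z) ∧
      ∃ y, IsIntegral ℤ y ∧ φ y ≠ 0 := by
  let V : Submodule ℚ K :=
    { carrier := F
      add_mem' := fun ha hb => F.add_mem ha hb
      zero_mem' := F.zero_mem
      smul_mem' := by
        intro c x hx
        change c • x ∈ F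
        rw [Rat.smul_def]
        exact F.mul_mem (SubfieldClass.ratCast_mem F c) hx }
  have hV : V < ⊤ := by
    rw [lt_top_iff_ne_top]
    intro h
    apply hF
    rw [eq_top_iff]
    intro x _
    have : x ∈ V := by rw [h]; trivial
    exact this
  obtain ⟨f, hf0, hf⟩ := V.exists_le_ker_of_lt_top hV
  -- denominators
  have hfg : (maxGrp K).toIntSubmodule.FG := by
    have : (maxGrp K).toIntSubmodule =
        LinearMap.range (Algebra.linearMap (NumberField.RingOfIntegers K) K |>.restrictScalars ℤ) := by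
      ext x
      rfl
    rw [this, LinearMap.range_eq_map]
    exact Submodule.FG.map _ Module.Finite.fg_top
  obtain ⟨S, hS⟩ := hfg
  obtain ⟨c, hc0, hc⟩ : ∃ c : ℤ, c ≠ 0 ∧ ∀ s ∈ S, ∃ z : ℤ, (c : ℚ) * f s = z := by
    classical
    refine ⟨∏ s ∈ S, ((f s).den : ℤ), ?_, ?_⟩
    · rw [Finset.prod_ne_zero_iff]
      intro s _
      exact_mod_cast (f s).den_ne_zero
    · intro s hs
      refine ⟨(∏ t ∈ S.erase s, ((f t).den : ℤ)) * (f s).num, ?_⟩
      rw [← Finset.mul_prod_erase S _ hs]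
      push_cast
      have h1 : ((f s).den : ℚ) * f s = (f s).num := by
        rw [mul_comm]
        exact Rat.mul_den_eq_num (f s)
      calc ((f s).den : ℚ) * (∏ x ∈ S.erase s, ((f x).den : ℚ)) * f s
          = (∏ x ∈ S.erase s, ((f x).den : ℚ)) * (((f s).den : ℚ) * f s) := by ring
        _ = _ := by rw [h1]
  refine ⟨((c : ℚ) • f).toAddMonoidHom, ?_, ?_, ?_⟩
  · intro x hx
    change (c : ℚ) • f x = 0
    rw [LinearMap.mem_ker.1 (hf hx), smul_zero]
  · intro y hy
    change ∃ z : ℤ, (c : ℚ) • f y = z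
    have hy' : y ∈ Submodule.span ℤ (S : Set K) := by
      rw [hS]
      exact mem_maxGrp.2 hy
    clear hy
    induction hy' using Submodule.span_induction with
    | mem x hx =>
      obtain ⟨z, hz⟩ := hc x hx
      exact ⟨z, hz⟩
    | zero => exact ⟨0, by simp⟩
    | add a b _ _ ha hb =>
      obtain ⟨za, hza⟩ := ha
      obtain ⟨zb, hzb⟩ := hb
      refine ⟨za + zb, ?_⟩
      rw [map_add, smul_add, hza, hzb]
      push_cast
      rfl
    | smul a x _ hx =>
      obtain ⟨z, hz⟩ := hx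
      refine ⟨a * z, ?_⟩
      rw [map_zsmul, smul_comm, hz, zsmul_eq_mul]
      push_cast
      rfl
  · by_contra hcon
    push Not at hcon
    apply hf0
    ext x
    obtain ⟨m, hm, h⟩ := exists_int_mul_integral x
    have h1 := hcon _ h
    change (c : ℚ) • f ((m : K) * x) = 0 at h1
    have h2 : f ((m : K) * x) = (m : ℚ) * f x := by
      have : (m : K) * x = (m : ℚ) • x := by
        rw [Rat.smul_def]
        push_cast
        rfl
      rw [this, map_smul, smul_eq_mul]
    rw [h2, smul_eq_mul] at h1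
    have hcq : (c : ℚ) ≠ 0 := by exact_mod_cast hc0
    have hmq : (m : ℚ) ≠ 0 := by exact_mod_cast hm
    simpa [hcq, hmq] using h1

theorem tendsto_relIndex (F : Subfield K) (hF : F ≠ ⊤) :
    Tendsto (fun i => (relOrder F i).toAddSubgroup.relIndex (maxGrp K)) atTop atTop := by
  obtain ⟨φ, h1, h2, γ, hγ, hγ0⟩ := exists_functional F hF
  obtain ⟨t, ht⟩ := h2 γ hγ
  have ht0 : t ≠ 0 := by
    rintro rfl
    exact hγ0 (by rw [ht]; simp)
  -- the key estimate
  have key : ∀ i : ℕ, i + 1 ≤ (relOrder F i).toAddSubgroup.relIndex (maxGrp K) * t.natAbs := by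
    intro i
    set N := (relOrder F i).toAddSubgroup.relIndex (maxGrp K) with hN
    have hN0 : N ≠ 0 := by
      apply relIndex_ne_zero (c := (i : ℤ) + 1) (by positivity)
      intro y hy
      have := mul_mem_relOrder F i (mem_maxGrp.1 hy)
      push_cast
      exact this
    have hmem : N • γ ∈ (relOrder F i).toAddSubgroup :=
      AddSubgroup.nsmul_relIndex_mem _ (mem_maxGrp.2 hγ)
    obtain ⟨r, y, hr, hrF, hy, hxy⟩ := hmem
    obtain ⟨z, hz⟩ := h2 y hy
    have h3 : φ (N • γ) = (N : ℚ) * t := by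
      rw [map_nsmul, ht, nsmul_eq_mul]
    have h4 : φ (N • γ) = ((i : ℚ) + 1) * z := by
      rw [hxy, map_add, h1 r hrF, zero_add]
      have : ((i : K) + 1) * y = (i + 1) • y := by
        rw [nsmul_eq_mul]
        push_cast
        rfl
      rw [this, map_nsmul, hz, nsmul_eq_mul]
      push_cast
      rfl
    have h5 : (N : ℤ) * t = ((i : ℤ) + 1) * z := by
      have : ((N : ℚ) * t) = ((i : ℚ) + 1) * z := by rw [← h3, h4]
      exact_mod_cast this
    have h6 : ((i + 1 : ℕ) : ℤ) ∣ (N : ℤ) * t := ⟨z, by rw [h5]; push_cast; rfl⟩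
    have h7 : i + 1 ∣ N * t.natAbs := by
      have := Int.natAbs_dvd_natAbs.2 h6
      rwa [Int.natAbs_mul, Int.natAbs_natCast, Int.natAbs_natCast] at this
    exact Nat.le_of_dvd (Nat.pos_of_ne_zero (mul_ne_zero hN0 (Int.natAbs_ne_zero.2 ht0))) h7
  rw [tendsto_atTop]
  intro b
  filter_upwards [eventually_ge_atTop (b * t.natAbs)] with i hi
  have h8 := key i
  by_contra hlt
  push Not at hlt
  have h9 : (relOrder F i).toAddSubgroup.relIndex (maxGrp K) * t.natAbs ≤ b * t.natAbs :=
    Nat.mul_le_mul_right _ hlt.le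
  omega

/-- the datum attached to `O_F + (i+1) O_K` -/
def relDatum {n : ℕ} (hn : Module.finrank ℚ K = n) (σ : Fin n ≃ (K →+* ℝ)) (F : Subfield K)
    (i : ℕ) : Datum n where
  K := K
  finrank_eq := hn
  σ := σ
  O := relOrder F i
  isOrder := ⟨relOrder_integral F i, relOrder_full F i⟩

/-- the two ways of writing the index agree -/
theorem index_comap_eq (O : Subring K) :
    (O.comap (algebraMap (NumberField.RingOfIntegers K) K)).toAddSubgroup.index =
      O.toAddSubgroup.relIndex (maxGrp K) := by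
  have h := AddSubgroup.index_comap O.toAddSubgroup
    ((algebraMap (NumberField.RingOfIntegers K) K).toAddMonoidHom)
  exact h

theorem tendsto_absDisc {n : ℕ} (hn : Module.finrank ℚ K = n) (σ : Fin n ≃ (K →+* ℝ))
    (F : Subfield K) (hF : F ≠ ⊤) :
    Tendsto (fun i => absDisc (relDatum hn σ F i).O) atTop atTop := by
  apply tendsto_atTop_mono _ (tendsto_relIndex F hF)
  intro i
  have h0 : 1 ≤ (NumberField.discr K).natAbs :=
    Nat.one_le_iff_ne_zero.2 (Int.natAbs_ne_zero.2 (NumberField.discr_ne_zero K))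
  change _ ≤ (NumberField.discr K).natAbs *
    ((relOrder F i).comap (algebraMap (NumberField.RingOfIntegers K) K)).toAddSubgroup.index ^ 2
  rw [index_comap_eq]
  set N := (relOrder F i).toAddSubgroup.relIndex (maxGrp K)
  nlinarith [Nat.zero_le N, Nat.mul_le_mul h0 (Nat.le_refl (N ^ 2)), Nat.le_self_pow (n := 2) (by norm_num) N]

end

end Vale.Agent.H1.P007
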