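import Vale.Agent.H1.P007Support

/-! Stabilisers, fundamental domains and volumes of orbits. -/

namespace Vale.Agent.H1.P007

open MeasureTheory Filter Topology Matrix Module

noncomputable section

variable {n : ℕ}

/-- The stabiliser of `x` as a `ℤ`-submodule of `ℝ^{n-1}`. -/
def stab (x : X n) : Submodule ℤ (Fin (n - 1) → ℝ) :=
  AddSubgroup.toIntSubmodule
  { carrier := {u | x.act (torusElt u) = x}
    zero_mem' := by
      change x.act (torusElt 0) = x
      rw [torusElt_zero, X.act_one]
    add_mem' := by
      intro u v hu hv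
      change x.act (torusElt (u + v)) = x
      change x.act (torusElt u) = x at hu
      change x.act (torusElt v) = x at hv
      rw [torusElt_add, ← X.act_act, hu, hv]
    neg_mem' := by
      intro u hu
      change x.act (torusElt (-u)) = x
      change x.act (torusElt u) = x at hu
      have h : x.act (torusElt u * torusElt (-u)) = x := by
        rw [← torusElt_add, add_neg_cancel, torusElt_zero, X.act_one]
      rw [← X.act_act, hu] at h
      exact h }

theorem mem_stab {x : X n} {u : Fin (n - 1) → ℝ} : u ∈ stab x ↔ x.act (torusElt u) = x := Iff.rfl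

theorem stab_act (x : X n) (u : Fin (n - 1) → ℝ) : stab (x.act (torusElt u)) = stab x := by
  have key : ∀ (y : X n) (u : Fin (n - 1) → ℝ), stab y ≤ stab (y.act (torusElt u)) := by
    intro y u v hv
    rw [mem_stab] at hv ⊢
    rw [X.act_act, ← torusElt_add, add_comm, torusElt_add, ← X.act_act, hv]
  apply le_antisymm
  · have h := key (x.act (torusElt u)) (-u)
    rwa [X.act_act, ← torusElt_add, add_neg_cancel, torusElt_zero, X.act_one] at h
  · exact key x u

theorem continuous_torusElt : Continuous fun u : Fin (n - 1) → ℝ => (torusElt u : SLR n) := by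
  apply Continuous.subtype_mk
  apply Continuous.matrix_diagonal
  apply continuous_pi
  intro j
  apply Real.continuous_exp.comp
  unfold extendZeroSum
  by_cases h : (j : ℕ) < n - 1
  · simp only [h, dite_true]
    exact continuous_apply _
  · simp only [h, dite_false]
    exact (continuous_finsetSum _ fun i _ => continuous_apply i).neg

theorem torusElt_injective : Function.Injective fun u : Fin (n - 1) → ℝ => (torusElt u : SLR n) := by
  intro u v huv
  funext i
  have h1 : (torusElt u : SLR n).1 = (torusElt v : SLR n).1 := congrArg Subtype.val huv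
  have hi : (i : ℕ) < n := by have := i.2; omega
  have h2 := congrFun (congrFun h1 ⟨i, hi⟩) ⟨i, hi⟩
  change Matrix.diagonal _ _ _ = Matrix.diagonal _ _ _ at h2
  rw [Matrix.diagonal_apply_eq, Matrix.diagonal_apply_eq] at h2
  have h3 := Real.exp_injective h2
  have hlt : ((⟨i, hi⟩ : Fin n) : ℕ) < n - 1 := i.2
  unfold extendZeroSum at h3
  rw [dif_pos hlt, dif_pos hlt] at h3
  exact h3

instance instDiscreteSLZ : DiscreteTopology (SLZ n) := by
  have h : IsClosedEmbedding (Matrix.SpecialLinearGroup.map (n := Fin n) (Int.castRingHom ℝ)) :=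
    (Int.isClosedEmbedding_coe_real).specialLinearGroup_map (n := Fin n)
  have h2 : IsEmbedding (Matrix.SpecialLinearGroup.map (n := Fin n) (Int.castRingHom ℝ)) :=
    h.isEmbedding
  have e := h2.toHomeomorph
  exact e.symm.isEmbedding.discreteTopology

instance instDiscreteStab (x : X n) : DiscreteTopology (stab x) := by
  obtain ⟨g, rfl⟩ := mk_surjective x
  have hmem : ∀ u : stab (X.mk g), g * torusElt u.1 * g⁻¹ ∈ SLZ n := by
    intro u
    have h := mem_stab.1 u.2
    rw [act_mk] at h
    obtain ⟨γ, hγ, he⟩ := mk_eq_mk.1 h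
    have : g * torusElt u.1 * g⁻¹ = γ⁻¹ := by
      have h2 : g * torusElt u.1 = γ⁻¹ * g := by
        calc g * torusElt u.1 = γ⁻¹ * (γ * (g * torusElt u.1)) := by group
          _ = γ⁻¹ * g := congrArg (fun z => γ⁻¹ * z) he.symm
      rw [h2]
      group
    rw [this]
    exact (SLZ n).inv_mem hγ
  let f : stab (X.mk g) → SLZ n := fun u => ⟨g * torusElt u.1 * g⁻¹, hmem u⟩
  have hf : Continuous f := by
    apply Continuous.subtype_mk
    exact ((continuous_const.mul (continuous_torusElt.comp continuous_subtype_val)).mul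
      continuous_const)
  have hinj : Function.Injective f := by
    intro u v huv
    have h1 : g * torusElt u.1 * g⁻¹ = g * torusElt v.1 * g⁻¹ := congrArg Subtype.val huv
    have h2 : (torusElt u.1 : SLR n) = torusElt v.1 := by
      have := mul_right_cancel h1
      exact mul_left_cancel this
    exact Subtype.ext (torusElt_injective h2)
  exact DiscreteTopology.of_continuous_injective hf hinj

/-- a fundamental domain in the sense of the definitions is one in the sense of Mathlib -/
theorem IsFundDomain.isAddFundamentalDomain {x : X n} {F : Set (Fin (n - 1) → ℝ)}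
    (hF : IsFundDomain x F) : IsAddFundamentalDomain (stab x).toAddSubgroup F volume := by
  apply IsAddFundamentalDomain.mk' hF.1.nullMeasurableSet
  intro u
  obtain ⟨s, ⟨hs1, hs2⟩, hs3⟩ := hF.2 u
  refine ⟨⟨s, hs1⟩, ?_, ?_⟩
  · change s + u ∈ F
    rw [add_comm]
    exact hs2
  · rintro ⟨t, ht⟩ htF
    apply Subtype.ext
    apply hs3
    refine ⟨ht, ?_⟩
    change t + u ∈ F at htF
    rw [add_comm]
    exact htF

/-- if the stabiliser spans, there is a fundamental domain of finite positive volume -/
theorem exists_fundDomain {x : X n} (hx : Submodule.span ℝ (stab x : Set (Fin (n - 1) → ℝ)) = ⊤) :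
    ∃ F, IsFundDomain x F ∧ volume F ≠ 0 ∧ volume F ≠ ⊤ := by
  have hZ : IsZLattice ℝ (stab x) := ⟨hx⟩
  have hfree : Module.Free ℤ (stab x) := ZLattice.module_free ℝ (stab x)
  have hfin : Module.Finite ℤ (stab x) := ZLattice.module_finite ℝ (stab x)
  let b := (Module.Free.chooseBasis ℤ (stab x)).ofZLatticeBasis ℝ
  have hb : Submodule.span ℤ (Set.range b) = stab x :=
    (Module.Free.chooseBasis ℤ (stab x)).ofZLatticeBasis_span ℝ
  refine ⟨ZSpan.fundamentalDomain b, ⟨ZSpan.fundamentalDomain_measurableSet b, ?_⟩,
    ZSpan.measure_fundamentalDomain_ne_zero b, ?_⟩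
  · intro u
    obtain ⟨v, hv1, hv2⟩ := ZSpan.exist_unique_vadd_mem_fundamentalDomain b u
    have hv3 : (v : Fin (n - 1) → ℝ) ∈ stab x := (SetLike.ext_iff.1 hb _).1 v.2
    refine ⟨v, ⟨hv3, ?_⟩, ?_⟩
    · rw [add_comm]
      exact hv1
    · rintro s ⟨hs1, hs2⟩
      have hs3 : s ∈ Submodule.span ℤ (Set.range b) := (SetLike.ext_iff.1 hb _).2 hs1
      have := hv2 ⟨s, hs3⟩ (by
        change s + u ∈ _
        rw [add_comm]
        exact hs2)
      exact congrArg Subtype.val this
  · exact (ZSpan.fundamentalDomain_isBounded b).measure_lt_top.ne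

/-- the volume of a fundamental domain depends only on the orbit -/
theorem volume_eq {x y : X n} (hxy : y ∈ torusOrbit x) {F G : Set (Fin (n - 1) → ℝ)}
    (hF : IsFundDomain x F) (hG : IsFundDomain y G) : volume F = volume G := by
  obtain ⟨u, rfl⟩ := hxy
  have h1 := hF.isAddFundamentalDomain
  have h2 := hG.isAddFundamentalDomain
  rw [stab_act] at h2
  have hc : Countable (stab x).toAddSubgroup := by
    have : Countable (stab x) := TopologicalSpace.separableSpace_iff_countable.1 inferInstance
    exact this
  exact h1.measure_eq h2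

theorem torusOrbit_self (x : X n) : x ∈ torusOrbit x :=
  ⟨0, by rw [torusElt_zero, X.act_one]⟩

/-- the total mass of the orbit measure -/
theorem orbitMeasure_univ {x : X n} (hx : Submodule.span ℝ (stab x : Set (Fin (n - 1) → ℝ)) = ⊤) :
    orbitMeasure (torusOrbit x) Set.univ ≠ 0 ∧ orbitMeasure (torusOrbit x) Set.univ ≠ ⊤ := by
  obtain ⟨F, hF, hF0, hF1⟩ := exists_fundDomain hx
  have hex : ∃ ν, IsOrbitMeasure (torusOrbit x) ν := ⟨_, x, F, rfl, hF, rfl⟩
  unfold orbitMeasure
  rw [dif_pos hex]
  obtain ⟨y, G, hy, hG, hν⟩ := hex.choose_spec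
  have hyx : y ∈ torusOrbit x := by
    rw [hy]
    exact torusOrbit_self y
  rw [hν, Measure.map_apply (measurable_orbitMap y) MeasurableSet.univ, Set.preimage_univ,
    Measure.restrict_apply_univ, ← volume_eq hyx hF hG]
  exact ⟨hF0, hF1⟩

end

end Vale.Agent.H1.P007
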