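import Vale.Agent.H1.P007Top

/-! The closed set of lattices stable under a diagonal matrix. -/

namespace Vale.Agent.H1.P007

open MeasureTheory Filter Topology Matrix

noncomputable section

variable {n : ℕ}

/-- integer matrices -/
def IsIntMat (A : Matrix (Fin n) (Fin n) ℝ) : Prop := ∀ i j, ∃ z : ℤ, A i j = z

theorem isIntMat_mul {A B : Matrix (Fin n) (Fin n) ℝ} (hA : IsIntMat A) (hB : IsIntMat B) :
    IsIntMat (A * B) := by
  intro i j
  choose a ha using hA
  choose b hb using hB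
  refine ⟨∑ k, a i k * b k j, ?_⟩
  rw [Matrix.mul_apply]
  push_cast
  exact Finset.sum_congr rfl fun k _ => by rw [ha, hb]

theorem isIntMat_of_mem_SLZ {γ : SLR n} (h : γ ∈ SLZ n) :
    IsIntMat (γ : Matrix (Fin n) (Fin n) ℝ) := by
  obtain ⟨δ, rfl⟩ := h
  intro i j
  exact ⟨δ i j, rfl⟩

/-- lattices stable under `diag(d)` -/
def stableSet (d : Fin n → ℝ) : Set (X n) :=
  {x | ∀ g : SLR n, X.mk g = x → IsIntMat ((g : Matrix (Fin n) (Fin n) ℝ) * diagonal d *
    ((g⁻¹ : SLR n) : Matrix (Fin n) (Fin n) ℝ))}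

theorem mk_mem_stableSet {d : Fin n → ℝ} {g : SLR n} : X.mk g ∈ stableSet d ↔
    IsIntMat ((g : Matrix (Fin n) (Fin n) ℝ) * diagonal d *
      ((g⁻¹ : SLR n) : Matrix (Fin n) (Fin n) ℝ)) := by
  constructor
  · intro h
    exact h g rfl
  · intro h g' hg'
    obtain ⟨γ, hγ, rfl⟩ := mk_eq_mk.1 hg'
    have h1 := isIntMat_mul (isIntMat_mul (isIntMat_of_mem_SLZ ((SLZ n).inv_mem hγ)) h)
      (isIntMat_of_mem_SLZ hγ)
    have e : ((γ⁻¹ : SLR n) : Matrix (Fin n) (Fin n) ℝ) * (γ : Matrix (Fin n) (Fin n) ℝ) = 1 := by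
      rw [← Matrix.SpecialLinearGroup.coe_mul, inv_mul_cancel, Matrix.SpecialLinearGroup.coe_one]
    have e2 : (((γ * g')⁻¹ : SLR n) : Matrix (Fin n) (Fin n) ℝ) =
        ((g'⁻¹ : SLR n) : Matrix (Fin n) (Fin n) ℝ) * ((γ⁻¹ : SLR n) : Matrix (Fin n) (Fin n) ℝ) := by
      rw [← Matrix.SpecialLinearGroup.coe_mul, _root_.mul_inv_rev]
    rw [e2, Matrix.SpecialLinearGroup.coe_mul] at h1
    have e3 : ((γ⁻¹ : SLR n) : Matrix (Fin n) (Fin n) ℝ) *
        ((γ : Matrix (Fin n) (Fin n) ℝ) * (g' : Matrix (Fin n) (Fin n) ℝ) * diagonal d *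
          (((g'⁻¹ : SLR n) : Matrix (Fin n) (Fin n) ℝ) *
            ((γ⁻¹ : SLR n) : Matrix (Fin n) (Fin n) ℝ))) * (γ : Matrix (Fin n) (Fin n) ℝ)
        = (g' : Matrix (Fin n) (Fin n) ℝ) * diagonal d *
          ((g'⁻¹ : SLR n) : Matrix (Fin n) (Fin n) ℝ) := by
      calc _ = (((γ⁻¹ : SLR n) : Matrix (Fin n) (Fin n) ℝ) * (γ : Matrix (Fin n) (Fin n) ℝ)) *
          ((g' : Matrix (Fin n) (Fin n) ℝ) * diagonal d *
          ((g'⁻¹ : SLR n) : Matrix (Fin n) (Fin n) ℝ)) *
            (((γ⁻¹ : SLR n) : Matrix (Fin n) (Fin n) ℝ) * (γ : Matrix (Fin n) (Fin n) ℝ)) := by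
            simp only [Matrix.mul_assoc]
        _ = _ := by rw [e, Matrix.one_mul, Matrix.mul_one]
    rw [e3] at h1
    exact h1

theorem isClosed_isIntMat : IsClosed {A : Matrix (Fin n) (Fin n) ℝ | IsIntMat A} := by
  have : {A : Matrix (Fin n) (Fin n) ℝ | IsIntMat A} =
      ⋂ i, ⋂ j, (fun A : Matrix (Fin n) (Fin n) ℝ => A i j) ⁻¹' (Set.range ((↑) : ℤ → ℝ)) := by
    ext A
    simp only [Set.mem_ofPred_eq, Set.mem_iInter, Set.mem_preimage, Set.mem_range, IsIntMat]
    exact forall_congr' fun i => forall_congr' fun j =>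
      ⟨fun ⟨z, hz⟩ => ⟨z, hz.symm⟩, fun ⟨z, hz⟩ => ⟨z, hz.symm⟩⟩
  rw [this]
  refine isClosed_iInter fun i => isClosed_iInter fun j => ?_
  exact (Int.isClosedEmbedding_coe_real.isClosed_range).preimage (continuous_id.matrix_elem i j)

theorem isClosed_stableSet (d : Fin n → ℝ) : IsClosed (stableSet d) := by
  rw [← isOpenQuotientMap_mk.isQuotientMap.isClosed_preimage]
  have : X.mk ⁻¹' (stableSet d) = (fun g : SLR n => (g : Matrix (Fin n) (Fin n) ℝ) * diagonal d *
      ((g⁻¹ : SLR n) : Matrix (Fin n) (Fin n) ℝ)) ⁻¹' {A | IsIntMat A} := by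
    ext g
    exact mk_mem_stableSet
  rw [this]
  apply isClosed_isIntMat.preimage
  have hc : Continuous fun g : SLR n => (g : Matrix (Fin n) (Fin n) ℝ) := continuous_subtype_val
  exact (hc.mul continuous_const).mul (hc.comp continuous_inv)

theorem stableSet_ne_univ {d : Fin n → ℝ} {i j : Fin n} (hij : d i ≠ d j) :
    stableSet d ≠ Set.univ := by
  intro hu
  have hne : i ≠ j := fun h => hij (by rw [h])
  set t : ℝ := 1 / (2 * (d j - d i)) with ht
  let g : SLR n := ⟨Matrix.transvection i j t, Matrix.det_transvection_of_ne i j hne t⟩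
  have hginv : ((g⁻¹ : SLR n) : Matrix (Fin n) (Fin n) ℝ) = Matrix.transvection i j (-t) := by
    have h1 : g * ⟨Matrix.transvection i j (-t), Matrix.det_transvection_of_ne i j hne (-t)⟩
        = 1 := by
      apply Subtype.ext
      change Matrix.transvection i j t * Matrix.transvection i j (-t) = 1
      rw [Matrix.transvection_mul_transvection_same _ _ hne, add_neg_cancel,
        Matrix.transvection_zero]
    rw [inv_eq_of_mul_eq_one_right h1]
  have hmem : X.mk g ∈ stableSet d := by rw [hu]; trivial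
  rw [mk_mem_stableSet, hginv] at hmem
  obtain ⟨z, hz⟩ := hmem i j
  have hcalc : ((g : Matrix (Fin n) (Fin n) ℝ) * diagonal d * Matrix.transvection i j (-t)) i j
      = t * (d j - d i) := by
    change (Matrix.transvection i j t * diagonal d * Matrix.transvection i j (-t)) i j = _
    rw [Matrix.mul_transvection_apply_same, Matrix.mul_diagonal, Matrix.mul_diagonal]
    simp only [Matrix.transvection, Matrix.add_apply, Matrix.one_apply_eq, Matrix.one_apply_ne hne,
      Matrix.single_apply_same]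
    have h2 : (Matrix.single i j t : Matrix (Fin n) (Fin n) ℝ) i i = 0 := by
      rw [Matrix.single_apply_of_col_ne]
      exact hne.symm
    rw [h2]
    ring
  rw [hcalc] at hz
  have h3 : d j - d i ≠ 0 := sub_ne_zero.2 (Ne.symm hij)
  have h4 : t * (d j - d i) = 1 / 2 := by
    rw [ht]
    field_simp
  rw [h4] at hz
  have h5 : (1 : ℝ) = ((2 * z : ℤ) : ℝ) := by
    push_cast
    rw [← hz]
    norm_num
  have h6 : (1 : ℤ) = 2 * z := by exact_mod_cast h5
  omega

theorem mem_rowLattice_row (g : SLR n) (i : Fin n) :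
    (fun j => (g : Matrix (Fin n) (Fin n) ℝ) i j) ∈ rowLattice g := by
  refine ⟨Pi.single i 1, ?_⟩
  intro j
  rw [Finset.sum_eq_single i]
  · simp
  · intro k _ hk
    simp [hk]
  · intro h
    exact absurd (Finset.mem_univ i) h

/-- stability of the row lattice gives membership in the stable set -/
theorem mk_mem_stableSet_of_rowLattice {d : Fin n → ℝ} {g : SLR n}
    (h : ∀ v ∈ rowLattice g, (fun j => v j * d j) ∈ rowLattice g) : X.mk g ∈ stableSet d := by
  rw [mk_mem_stableSet]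
  have h1 : ∀ i, ∃ c : Fin n → ℤ, ∀ j, (g : Matrix (Fin n) (Fin n) ℝ) i j * d j =
      ∑ k, (c k : ℝ) * (g : Matrix (Fin n) (Fin n) ℝ) k j := fun i =>
    h _ (mem_rowLattice_row g i)
  choose c hc using h1
  have h2 : (g : Matrix (Fin n) (Fin n) ℝ) * diagonal d =
      (Matrix.of fun i j => (c i j : ℝ)) * (g : Matrix (Fin n) (Fin n) ℝ) := by
    ext i j
    rw [Matrix.mul_diagonal]
    exact hc i j
  have e : (g : Matrix (Fin n) (Fin n) ℝ) * ((g⁻¹ : SLR n) : Matrix (Fin n) (Fin n) ℝ) = 1 := by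
    rw [← Matrix.SpecialLinearGroup.coe_mul, mul_inv_cancel, Matrix.SpecialLinearGroup.coe_one]
  rw [h2, Matrix.mul_assoc, e, Matrix.mul_one]
  intro i j
  exact ⟨c i j, rfl⟩

/-- the stable set is invariant under the diagonal group -/
theorem act_torusElt_mem_stableSet {d : Fin n → ℝ} {x : X n} (hx : x ∈ stableSet d)
    (u : Fin (n - 1) → ℝ) : x.act (torusElt u) ∈ stableSet d := by
  obtain ⟨g, rfl⟩ := mk_surjective x
  rw [act_mk, mk_mem_stableSet]
  rw [mk_mem_stableSet] at hx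
  have e2 : (((g * torusElt u)⁻¹ : SLR n) : Matrix (Fin n) (Fin n) ℝ) =
      ((torusElt (-u) : SLR n) : Matrix (Fin n) (Fin n) ℝ) *
        ((g⁻¹ : SLR n) : Matrix (Fin n) (Fin n) ℝ) := by
    rw [← Matrix.SpecialLinearGroup.coe_mul, _root_.mul_inv_rev]
    congr 2
    apply inv_eq_of_mul_eq_one_right
    rw [← torusElt_add, add_neg_cancel, torusElt_zero]
  rw [e2, Matrix.SpecialLinearGroup.coe_mul]
  have e3 : ((torusElt u : SLR n) : Matrix (Fin n) (Fin n) ℝ) * diagonal d *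
      ((torusElt (-u) : SLR n) : Matrix (Fin n) (Fin n) ℝ) = diagonal d := by
    have h1 : ((torusElt u : SLR n) : Matrix (Fin n) (Fin n) ℝ) * diagonal d =
        diagonal d * ((torusElt u : SLR n) : Matrix (Fin n) (Fin n) ℝ) := by
      change diagonal _ * diagonal d = diagonal d * diagonal _
      rw [Matrix.diagonal_mul_diagonal, Matrix.diagonal_mul_diagonal]
      congr 1
      funext j
      ring
    rw [h1, Matrix.mul_assoc, ← Matrix.SpecialLinearGroup.coe_mul, ← torusElt_add, add_neg_cancel,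
      torusElt_zero, Matrix.SpecialLinearGroup.coe_one, Matrix.mul_one]
  have e4 : (g : Matrix (Fin n) (Fin n) ℝ) * ((torusElt u : SLR n) : Matrix (Fin n) (Fin n) ℝ) *
      diagonal d * (((torusElt (-u) : SLR n) : Matrix (Fin n) (Fin n) ℝ) *
        ((g⁻¹ : SLR n) : Matrix (Fin n) (Fin n) ℝ)) =
      (g : Matrix (Fin n) (Fin n) ℝ) * diagonal d *
        ((g⁻¹ : SLR n) : Matrix (Fin n) (Fin n) ℝ) := by
    calc _ = (g : Matrix (Fin n) (Fin n) ℝ) *
        (((torusElt u : SLR n) : Matrix (Fin n) (Fin n) ℝ) * diagonal d *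
      ((torusElt (-u) : SLR n) : Matrix (Fin n) (Fin n) ℝ)) *
        ((g⁻¹ : SLR n) : Matrix (Fin n) (Fin n) ℝ) := by simp only [Matrix.mul_assoc]
      _ = _ := by rw [e3]
  rw [e4]
  exact hx

end

end Vale.Agent.H1.P007
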