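import Vale.Agent.H1.P007Stable

/-! Packets of orders containing a fixed element are supported on a stable set. -/

namespace Vale.Agent.H1.P007

open MeasureTheory Filter Topology Matrix

noncomputable section

variable {n : ℕ}

variable {K : Type} [Field K]

theorem packet_subset {σ : Fin n ≃ (K →+* ℝ)} {O : Subring K} {β : K} (hβ : β ∈ O)
    {o : Set (X n)} (ho : o ∈ packet σ O) : o ⊆ stableSet (fun j => σ j β) := by
  obtain ⟨I, w, x, hI, -, ⟨g, t, rfl, -, hg⟩, rfl⟩ := ho
  have hx : X.mk g ∈ stableSet (fun j => σ j β) := by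
    apply mk_mem_stableSet_of_rowLattice
    intro v hv
    rw [hg] at hv ⊢
    obtain ⟨α, hα, hv⟩ := hv
    refine ⟨β * α, hI.1 β hβ α hα, ?_⟩
    intro j
    change v j * σ j β = _
    rw [hv j, map_mul]
    ring
  rintro _ ⟨u, rfl⟩
  exact act_torusElt_mem_stableSet hx u

theorem measurable_orbitMap (x : X n) :
    Measurable fun u : Fin (n - 1) → ℝ => x.act (torusElt u) := by
  apply Continuous.measurable
  have h1 : Continuous fun u : Fin (n - 1) → ℝ => (torusElt u : SLR n) := by
    apply Continuous.subtype_mk
    apply Continuous.matrix_diagonal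
    apply continuous_pi
    intro j
    apply Real.continuous_exp.comp
    unfold extendZeroSum
    by_cases h : (j : ℕ) < n - 1
    · simp only [h, dite_true]
      exact continuous_apply _
    · simp only [h, dite_false]
      exact (continuous_finsetSum _ fun i _ => continuous_apply i).neg
  exact (continuous_act_right x).comp h1

theorem orbitMeasure_compl {d : Fin n → ℝ} {o : Set (X n)} (ho : o ⊆ stableSet d) :
    orbitMeasure o (stableSet d)ᶜ = 0 := by
  unfold orbitMeasure
  split_ifs with h
  · obtain ⟨x, F, hx, hF, hν⟩ := h.choose_spec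
    rw [hν, Measure.map_apply (measurable_orbitMap _) (isClosed_stableSet d).measurableSet.compl]
    have : (fun u : Fin (n - 1) → ℝ => x.act (torusElt u)) ⁻¹' (stableSet d)ᶜ = ∅ := by
      ext u
      simp only [Set.mem_preimage, Set.mem_compl_iff, Set.mem_empty_iff_false, iff_false, not_not]
      apply ho
      rw [hx]
      exact ⟨u, rfl⟩
    rw [this, measure_empty]
  · rfl

theorem packetMeasure_compl {σ : Fin n ≃ (K →+* ℝ)} {O : Subring K} {β : K} (hβ : β ∈ O) :
    packetMeasure σ O (stableSet (fun j => σ j β))ᶜ = 0 := by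
  unfold packetMeasure
  rw [Measure.smul_apply, Measure.sum_apply _ (isClosed_stableSet _).measurableSet.compl]
  have : ∀ o : packet σ O, orbitMeasure (o : Set (X n)) (stableSet (fun j => σ j β))ᶜ = 0 :=
    fun o => orbitMeasure_compl (packet_subset hβ o.2)
  simp [this]

/-- If infinitely many members of a sequence of measures vanish outside a fixed proper closed
set, the sequence does not converge to an invariant probability measure. -/
theorem not_weaklyTendsto {m : Measure (X n)} (hm : IsInvProb m) {μ : ℕ → Measure (X n)}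
    {Z : Set (X n)} (hZ : IsClosed Z) (hne : Z ≠ Set.univ)
    (hμ : ∃ᶠ i in atTop, μ i Zᶜ = 0) : ¬ WeaklyTendsto μ m := by
  intro hw
  have := hm.1
  obtain ⟨x0, hx0⟩ := (Set.ne_univ_iff_exists_notMem _).1 hne
  have hopen : IsOpen Zᶜ := hZ.isOpen_compl
  obtain ⟨f, hf1, hf2, hf3, hf4⟩ := exists_continuous_one_zero_of_isCompact
    (isCompact_singleton (x := x0)) hZ
    (Set.disjoint_singleton_left.2 hx0)
  have hfx0 : f x0 = 1 := hf1 (Set.mem_singleton _)
  have h0 : ∀ i, μ i Zᶜ = 0 → ∫ x, f x ∂(μ i) = 0 := by
    intro i hi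
    apply integral_eq_zero_of_ae
    have : ∀ᵐ x ∂(μ i), x ∈ Z := by
      rw [ae_iff]
      exact hi
    filter_upwards [this] with x hx
    exact hf2 hx
  have hlim := hw.1 f f.continuous hf3
  have hint : ∫ x, f x ∂m = 0 := by
    by_contra hne'
    have hev := hlim.eventually_ne hne'
    obtain ⟨i, hi1, hi2⟩ := (hμ.and_eventually hev).exists
    exact hi2 (h0 i hi1)
  have hnonneg : ∀ x, 0 ≤ f x := fun x => (hf4 x).1
  have hintble : Integrable (fun x => f x) m := f.continuous.integrable_of_hasCompactSupport hf3
  rw [integral_eq_zero_iff_of_nonneg hnonneg hintble] at hint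
  have hU : IsOpen {x | 0 < f x} := isOpen_lt continuous_const f.continuous
  have hUne : ({x | 0 < f x} : Set (X n)).Nonempty := ⟨x0, by simp [hfx0]⟩
  apply hm.pos_of_isOpen hU hUne
  rw [Filter.EventuallyEq, ae_iff] at hint
  apply measure_mono_null _ hint
  intro x hx
  simp only [Pi.zero_apply]
  exact ne_of_gt hx

end

end Vale.Agent.H1.P007
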