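import Vale.Agent.H1.P007Defs

/-! Topology of `X n`. -/

namespace Vale.Agent.H1.P007

open MeasureTheory Filter Topology Matrix

noncomputable section

variable {n : ℕ}

instance (n : ℕ) : BorelSpace (X n) := ⟨rfl⟩

theorem torusElt_zero : torusElt (n := n) 0 = 1 := by
  apply Subtype.ext
  change Matrix.diagonal (fun j => Real.exp (extendZeroSum (n := n) 0 j)) = 1
  rw [← Matrix.diagonal_one]
  congr 1
  funext j
  have : extendZeroSum (n := n) 0 j = 0 := by
    unfold extendZeroSum
    split <;> simp
  rw [this, Real.exp_zero]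

theorem extendZeroSum_add (u v : Fin (n - 1) → ℝ) (j : Fin n) :
    extendZeroSum (u + v) j = extendZeroSum u j + extendZeroSum v j := by
  unfold extendZeroSum
  split
  · simp
  · simp [Finset.sum_add_distrib]
    ring

theorem torusElt_add (u v : Fin (n - 1) → ℝ) :
    torusElt (n := n) (u + v) = torusElt u * torusElt v := by
  apply Subtype.ext
  change Matrix.diagonal (fun j => Real.exp (extendZeroSum (n := n) (u + v) j)) =
    Matrix.diagonal (fun j => Real.exp (extendZeroSum (n := n) u j)) *
      Matrix.diagonal (fun j => Real.exp (extendZeroSum (n := n) v j))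
  rw [Matrix.diagonal_mul_diagonal]
  congr 1
  funext j
  rw [← Real.exp_add, extendZeroSum_add]

theorem X.act_one (x : X n) : x.act 1 = x := by
  induction x using Quotient.inductionOn with
  | h g => exact congrArg X.mk (mul_one g)

theorem X.act_act (x : X n) (g h : SLR n) : (x.act g).act h = x.act (g * h) := by
  induction x using Quotient.inductionOn with
  | h k => exact congrArg X.mk (mul_assoc k g h)

theorem isOpenQuotientMap_mk : IsOpenQuotientMap (X.mk : SLR n → X n) :=
  MulAction.isOpenQuotientMap_quotientMk (Γ := SLZ n) (T := SLR n)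

theorem continuous_mk : Continuous (X.mk : SLR n → X n) := isOpenQuotientMap_mk.continuous

theorem mk_surjective : Function.Surjective (X.mk : SLR n → X n) := isOpenQuotientMap_mk.surjective

theorem mk_eq_mk {g h : SLR n} : X.mk g = X.mk h ↔ ∃ γ ∈ SLZ n, h = γ * g := by
  have h1 : X.mk g = X.mk h ↔ h * g⁻¹ ∈ SLZ n := by
    rw [← QuotientGroup.rightRel_apply]
    exact Quotient.eq (r := QuotientGroup.rightRel (SLZ n))
  rw [h1]
  constructor
  · intro hh
    exact ⟨_, hh, by group⟩
  · rintro ⟨γ, hγ, rfl⟩
    simpa using hγ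

instance : SecondCountableTopology (SLR n) := by
  have h := Matrix.SpecialLinearGroup.isClosedEmbedding_val (n := Fin n) (R := ℝ)
  have : SecondCountableTopology (Matrix (Fin n) (Fin n) ℝ) :=
    inferInstanceAs (SecondCountableTopology (Fin n → Fin n → ℝ))
  exact h.isEmbedding.secondCountableTopology

theorem isClosed_SLZ : IsClosed (SLZ n : Set (SLR n)) := by
  have h : IsClosedEmbedding (Int.castRingHom ℝ) := Int.isClosedEmbedding_coe_real
  exact (h.specialLinearGroup_map (n := Fin n)).isClosed_range

instance : LocallyCompactSpace (SLR n) := by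
  have h := Matrix.SpecialLinearGroup.isClosedEmbedding_val (n := Fin n) (R := ℝ)
  have : LocallyCompactSpace (Matrix (Fin n) (Fin n) ℝ) :=
    inferInstanceAs (LocallyCompactSpace (Fin n → Fin n → ℝ))
  exact h.locallyCompactSpace

/-- `Γ\G ≃ G/Γ` by inversion. -/
def homeoLeft : X n ≃ₜ (SLR n ⧸ SLZ n) where
  toEquiv := QuotientGroup.quotientRightRelEquivQuotientLeftRel (SLZ n)
  continuous_toFun := by
    apply isOpenQuotientMap_mk.isQuotientMap.continuous_iff.2
    have : (QuotientGroup.quotientRightRelEquivQuotientLeftRel (SLZ n)) ∘ (X.mk : SLR n → X n)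
        = fun g : SLR n => (QuotientGroup.mk (g⁻¹) : SLR n ⧸ SLZ n) := rfl
    change Continuous ((QuotientGroup.quotientRightRelEquivQuotientLeftRel (SLZ n)) ∘
      (X.mk : SLR n → X n))
    rw [this]
    exact QuotientGroup.continuous_mk.comp continuous_inv
  continuous_invFun := by
    apply (QuotientGroup.isOpenQuotientMap_mk (N := SLZ n)).isQuotientMap.continuous_iff.2
    have : (QuotientGroup.quotientRightRelEquivQuotientLeftRel (SLZ n)).symm ∘
        (QuotientGroup.mk : SLR n → SLR n ⧸ SLZ n) = fun g : SLR n => X.mk (g⁻¹) := rfl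
    change Continuous ((QuotientGroup.quotientRightRelEquivQuotientLeftRel (SLZ n)).symm ∘
        (QuotientGroup.mk : SLR n → SLR n ⧸ SLZ n))
    rw [this]
    exact continuous_mk.comp continuous_inv

instance : T3Space (SLR n ⧸ SLZ n) := by
  have : IsClosed ((SLZ n : Subgroup (SLR n)) : Set (SLR n)) := isClosed_SLZ
  infer_instance

instance : T3Space (X n) := (homeoLeft (n := n)).isEmbedding.t3Space

instance : LocallyCompactSpace (X n) :=
  (homeoLeft (n := n)).isClosedEmbedding.locallyCompactSpace

theorem continuous_act (g : SLR n) : Continuous fun x : X n => x.act g := by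
  apply isOpenQuotientMap_mk.isQuotientMap.continuous_iff.2
  change Continuous fun h : SLR n => X.mk (h * g)
  exact continuous_mk.comp (continuous_mul_const g)

theorem act_mk (h g : SLR n) : (X.mk h).act g = X.mk (h * g) := rfl

theorem continuous_act_right (x : X n) : Continuous fun g : SLR n => x.act g := by
  obtain ⟨h, rfl⟩ := mk_surjective x
  change Continuous fun g : SLR n => X.mk (h * g)
  exact continuous_mk.comp (continuous_const_mul h)

/-- an invariant probability measure has full support -/
theorem IsInvProb.pos_of_isOpen {m : Measure (X n)} (hm : IsInvProb m) {U : Set (X n)}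
    (hU : IsOpen U) (hne : U.Nonempty) : m U ≠ 0 := by
  intro h0
  obtain ⟨x0, hx0⟩ := hne
  obtain ⟨g0, rfl⟩ := mk_surjective x0
  have := hm.1
  -- translates of `U` cover `X`
  have hcov : ∀ x : X n, ∃ g : SLR n, x.act g ∈ U := by
    intro x
    obtain ⟨h, rfl⟩ := mk_surjective x
    refine ⟨h⁻¹ * g0, ?_⟩
    rw [act_mk]
    simpa using hx0
  have : SecondCountableTopology (X n) := isOpenQuotientMap_mk.isQuotientMap.secondCountableTopology
    isOpenQuotientMap_mk.isOpenMap
  obtain ⟨T, hTc, hT⟩ := TopologicalSpace.isOpen_iUnion_countable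
    (fun g : SLR n => (fun x : X n => x.act g) ⁻¹' U)
    (fun g => hU.preimage (continuous_act g))
  have huniv : (⋃ g ∈ T, (fun x : X n => x.act g) ⁻¹' U) = Set.univ := by
    rw [hT]
    apply Set.eq_univ_of_forall
    intro x
    obtain ⟨g, hg⟩ := hcov x
    exact Set.mem_iUnion.2 ⟨g, hg⟩
  have hz : m (⋃ g ∈ T, (fun x : X n => x.act g) ⁻¹' U) = 0 := by
    rw [measure_biUnion_null_iff hTc]
    intro g _
    rw [← Measure.map_apply (continuous_act g).measurable hU.measurableSet, hm.2 g]
    exact h0
  rw [huniv, measure_univ] at hz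
  exact one_ne_zero hz

end

end Vale.Agent.H1.P007
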